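import Vale.Agent.P032.R2.H784.ConvC
import Vale.Agent.P032.R2.H784.Ring
import Vale.Agent.P032.R2.H784.Hub

/-!
# P032: contacts of type S3, the flanks

`z` is a two-pair point `ab | cd`, `y` a two-pair point `ab | ef`, `|y - z| = 1`, and `p` is one of the
two points with `|p - z| = |p - y| = 1`.
-/

open Set Filter Topology Metric

noncomputable section

namespace Vale.Agent.P032.S5.H767

open Vale.Agent.P032.Six Vale.Agent.P032.Words

section geo

/-- near a common point of two unit circles there is no other common point -/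
theorem near_off' {z y p : ℂ} (hne : z ≠ y) (hne2 : z + y ≠ 2 * p) (hpz : dist p z = 1)
    (hpy : dist p y = 1) : ∀ᶠ q in 𝓝 p, dist q z = 1 → q ≠ p → dist q y ≠ 1 := by
  have hne' : p ≠ z + y - p := fun h => hne2 (by linear_combination -h)
  filter_upwards [isOpen_ne.mem_nhds hne'] with q hq h1 h2 h3
  have h4 := second_point hne hpz hpy h1 h3 (Ne.symm h2)
  exact hq (by linear_combination h4)

/-- near a common point of two unit circles there is no other common point -/
theorem near_off {z y p : ℂ} (hyz : dist y z = 1) (hpz : dist p z = 1) (hpy : dist p y = 1) :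
    ∀ᶠ q in 𝓝 p, dist q z = 1 → q ≠ p → dist q y ≠ 1 := by
  refine near_off' ?_ (fun h => ?_) hpz hpy
  · rintro rfl
    rw [dist_self] at hyz; exact zero_ne_one hyz
  · have h2 : y - z = 2 * (p - z) := by linear_combination h
    have h3 : dist y z = 2 := by
      rw [dist_eq_norm, h2, norm_mul, ← dist_eq_norm, hpz]; simp
    rw [hyz] at h3; norm_num at h3

/-- no point of a unit circle is isolated in it -/
theorem freq_ne {z p : ℂ} (hpz : dist p z = 1) : ∃ᶠ q in 𝓝[sphere z 1] p, q ≠ p := by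
  obtain ⟨t, ht⟩ := exists_cis (u := p - z) (by rw [← dist_eq_norm]; exact hpz)
  have hu : pt z (t * (3 / Real.pi)) = p := by
    unfold pt
    have : t * (3 / Real.pi) * (Real.pi / 3) = t := by
      have := Real.pi_pos
      field_simp
    rw [this, ← ht]; ring
  intro hcon
  rw [← hu] at hcon
  have h1 : Tendsto (pt z) (𝓝 (t * (3 / Real.pi))) (𝓝[sphere z 1] (pt z (t * (3 / Real.pi)))) :=
    tendsto_nhdsWithin_of_tendsto_nhds_of_eventually_within _ ((continuous_pt z).tendsto _)
      (Eventually.of_forall fun v => dist_pt z v)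
  exact pt_step z (t * (3 / Real.pi)) (w := pt z (t * (3 / Real.pi)))
    ((h1.eventually hcon).mono fun v hv => not_not.1 hv)

/-- three points at mutual distance one -/
theorem off2 {z y p : ℂ} (hpz : dist p z = 1) (hpy : dist p y = 1) :
    y ≠ p ∧ y + p ≠ 2 * z := by
  constructor
  · rintro rfl
    rw [dist_self] at hpy; exact zero_ne_one hpy
  · intro h
    have h2 : p - y = 2 * (p - z) := by linear_combination -h
    have h3 : dist p y = 2 := by
      rw [dist_eq_norm, h2, norm_mul, ← dist_eq_norm, hpz]; simp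
    rw [hpy] at h3; norm_num at h3

end geo

section sides

variable {k : ℕ} {U : Fin k → Set ℂ} {T : ℂ → Set (Fin k)} {z y p : ℂ} {i j : Fin k}

/-- off the circle of `y` the separated colours do not occur together -/
theorem sd_off (hs : Sd U y p i j ∨ Sd U y p j i) :
    ∀ᶠ q in 𝓝 p, dist q y ≠ 1 → ¬ (i ∈ Pal U q ∧ j ∈ Pal U q) := by
  rcases hs with hs | hs
  · filter_upwards [hs] with q hq hne hij
    rcases lt_or_gt_of_ne hne with h1 | h1
    · exact hq.2 h1 hij.2
    · exact hq.1 h1 hij.1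
  · filter_upwards [hs] with q hq hne hij
    rcases lt_or_gt_of_ne hne with h1 | h1
    · exact hq.2 h1 hij.1
    · exact hq.1 h1 hij.2

/-- **(1)** near the flank the pair of `y` does not occur on `S(z)` -/
theorem flank_off (hs : Sd U y p i j ∨ Sd U y p j i) (hyz : dist y z = 1) (hpz : dist p z = 1)
    (hpy : dist p y = 1) :
    ∀ᶠ q in 𝓝 p, dist q z = 1 → q ≠ p → ¬ (i ∈ Pal U q ∧ j ∈ Pal U q) := by
  filter_upwards [sd_off hs, near_off hyz hpz hpy] with q h1 h2 h3 h4
  exact h1 (h2 h3 h4)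

/-- the separated pair of `y` is not an exact arc of another circle `S(z)` through `p` -/
theorem noEx_of_sd (h : Irr U T) (hs : Sd U y p i j ∨ Sd U y p j i) (hne : z ≠ y)
    (hne2 : z + y ≠ 2 * p) (hpz : dist p z = 1) (hpy : dist p y = 1) :
    p ∉ closure (Ex T z {i, j}) := by
  intro hcl
  have h1 : ∀ᶠ q in 𝓝 p, dist q z = 1 → q ≠ p → ¬ (i ∈ Pal U q ∧ j ∈ Pal U q) := by
    filter_upwards [sd_off hs, near_off' hne hne2 hpz hpy] with q h1 h2 h3 h4
    exact h1 (h2 h3 h4)
  have hno : ∀ q, dist q z = 1 → q ≠ p → T q = {i, j} →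
      (dist q z = 1 → q ≠ p → ¬ (i ∈ Pal U q ∧ j ∈ Pal U q)) → False := by
    intro q h2 h3 h4 h5
    exact h5 h2 h3 ⟨h.sub q (by rw [h4]; simp), h.sub q (by rw [h4]; simp)⟩
  rw [mem_closure_iff_frequently] at hcl
  obtain ⟨q, hq, hq2⟩ := (hcl.and_eventually h1).exists
  by_cases hqp : q = p
  · subst hqp
    have h5 : ∀ᶠ w in 𝓝[sphere z 1] q, T w = {i, j} ∧ (dist w z = 1 → w ≠ q →
        ¬ (i ∈ Pal U w ∧ j ∈ Pal U w)) ∧ w ∈ sphere z 1 :=
      hq.2.and ((h1.filter_mono nhdsWithin_le_nhds).and self_mem_nhdsWithin)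
    obtain ⟨w, hw1, hw2, hw3, hw4⟩ := ((freq_ne hpz).and_eventually h5).exists
    exact hno w hw4 hw1 hw2 hw3
  · exact hno q hq.1 hqp (ex_self hq) hq2

/-- **(1')** the pair of `y` is not an exact arc of `S(z)` at the flank -/
theorem flank_noEx (h : Irr U T) (hs : Sd U y p i j ∨ Sd U y p j i) (hyz : dist y z = 1)
    (hpz : dist p z = 1) (hpy : dist p y = 1) : p ∉ closure (Ex T z {i, j}) := by
  refine noEx_of_sd h hs ?_ (fun h => ?_) hpz hpy
  · rintro rfl
    rw [dist_self] at hyz; exact zero_ne_one hyz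
  · have h2 : y - z = 2 * (p - z) := by linear_combination h
    have h3 : dist y z = 2 := by
      rw [dist_eq_norm, h2, norm_mul, ← dist_eq_norm, hpz]; simp
    rw [hyz] at h3; norm_num at h3

end sides

variable {U : Fin 6 → Set ℂ} {T : ℂ → Set (Fin 6)} {z y p : ℂ} {a b c d e f : Fin 6}

/-- a contact of type S3 (common pair `{a, b}`) with a third vertex: the only constant palettes of
`S(z)` inside `T z` are `{a, b}`, `{c, d}`, those of `S(y)` inside `T y` are `{a, b}`, `{e, f}`; the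
colours `a, b` are separated by both circles at the third vertex -/
structure S3 (U : Fin 6 → Set ℂ) (T : ℂ → Set (Fin 6)) (z y p : ℂ) (a b c d e f : Fin 6) :
    Prop where
  ctr : Ctr U T z a b c d e f
  ctr' : Ctr U T y a b e f c d
  yz : dist y z = 1
  pz : dist p z = 1
  py : dist p y = 1
  sz : Sd U z p a b ∨ Sd U z p b a
  sy : Sd U y p a b ∨ Sd U y p b a

theorem nodup_swap (hn : [a, b, c, d, e, f].Nodup) : [a, b, e, f, c, d].Nodup := by
  simp only [List.nodup_cons, List.mem_cons, List.not_mem_nil, or_false, not_or, List.nodup_nil,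
    and_true, not_false_eq_true] at hn ⊢
  obtain ⟨⟨ab, ac, ad, ae, af⟩, ⟨bc, bd, be, bf⟩, ⟨cd, ce, cf⟩, ⟨de, df⟩, ef⟩ := hn
  exact ⟨⟨ab, ae, af, ac, ad⟩, ⟨be, bf, bc, bd⟩, ⟨ef, Ne.symm ce, Ne.symm de⟩,
    ⟨Ne.symm cf, Ne.symm df⟩, cd⟩

/-- two two-pair points `ab | cd`, `ab | ef` at distance one -/
theorem S3.of_dpt (h : Irr U T) (nd : [a, b, c, d, e, f].Nodup) (hz : DPt T z a b c d)
    (hy : DPt T y a b e f) (yz : dist y z = 1) (pz : dist p z = 1) (py : dist p y = 1) :
    S3 U T z y p a b c d e f :=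
  ⟨ctr_of_dpt h hz nd, ctr_of_dpt h hy (nodup_swap nd), yz, pz, py, h.sides hz pz, h.sides hy py⟩

namespace S3

theorem irr (S : S3 U T z y p a b c d e f) : Irr U T := S.ctr.irr

theorem nd (S : S3 U T z y p a b c d e f) : [a, b, c, d, e, f].Nodup := S.ctr.nd

theorem zy (S : S3 U T z y p a b c d e f) : dist z y = 1 := by rw [dist_comm]; exact S.yz

/-- exchange of the two centres -/
theorem symm (S : S3 U T z y p a b c d e f) : S3 U T y z p a b e f c d :=
  ⟨S.ctr', S.ctr, S.zy, S.py, S.pz, S.sy, S.sz⟩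

/-- exchange of `a`, `b` -/
theorem swapAB_ctr (C : Ctr U T z a b c d e f) : Ctr U T z b a c d e f where
  irr := C.irr
  pal := by
    rw [C.pal]; ext i
    simp only [mem_insert_iff, mem_singleton_iff]
    tauto
  nd := by
    have hn := C.nd
    simp only [List.nodup_cons, List.mem_cons, List.not_mem_nil, or_false, not_or, List.nodup_nil,
      and_true, not_false_eq_true] at hn ⊢
    obtain ⟨⟨ab, ac, ad, ae, af⟩, ⟨bc, bd, be, bf⟩, ⟨cd, ce, cf⟩, ⟨de, df⟩, ef⟩ := hn
    exact ⟨⟨Ne.symm ab, bc, bd, be, bf⟩, ⟨ac, ad, ae, af⟩, ⟨cd, ce, cf⟩, ⟨de, df⟩, ef⟩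
  pairs := fun y h1 h2 h4 => by rw [pair_comm b a]; exact C.pairs y h1 h2 h4

theorem swapAB (S : S3 U T z y p a b c d e f) : S3 U T z y p b a c d e f :=
  ⟨swapAB_ctr S.ctr, swapAB_ctr S.ctr', S.yz, S.pz, S.py, S.sz.symm, S.sy.symm⟩

/-- **(1)** on `S(z)` near the flank: not both `a, b` -/
theorem off (S : S3 U T z y p a b c d e f) : ∀ᶠ q in 𝓝 p, dist q z = 1 → q ≠ p →
    ¬ (a ∈ Pal U q ∧ b ∈ Pal U q) := flank_off S.sy S.yz S.pz S.py

/-- **(1')** no exact `ab`-arcs at the flank -/
theorem noA (S : S3 U T z y p a b c d e f) : p ∉ closure (Ex T z {a, b}) :=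
  flank_noEx S.irr S.sy S.yz S.pz S.py

/-- **(2)** the letters at the flank: `C`, or both `e` and `f` -/
theorem letters (S : S3 U T z y p a b c d e f) :
    p ∈ closure (Ex T z {c, d}) ∨ (e ∈ T p ∧ f ∈ T p) := by
  by_contra hcon
  rw [not_or, not_and_or] at hcon
  obtain ⟨hC, hef⟩ := hcon
  have C := S.ctr
  have hyL0 : y ∈ Lt T z a b c d e f 0 := ⟨S.yz, by rw [S.ctr'.pal]; simp⟩
  have hyL1 : y ∈ Lt T z a b c d e f 1 := ⟨S.yz, by rw [S.ctr'.pal]; simp⟩
  have h2 : p ∉ Lt T z a b c d e f 2 := S.noA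
  have h3 : p ∉ Lt T z a b c d e f 3 := hC
  obtain ⟨l, hl⟩ := C.cover S.pz
  rcases hef with he | hf
  · have h0 : p ∉ Lt T z a b c d e f 0 := fun h => he h.2
    refine C.int (l := 1) S.pz (fun m hm => ?_) S.yz S.py hyL1
    fin_cases m
    · exact absurd hm h0
    · rfl
    · exact absurd hm h2
    · exact absurd hm h3
  · have h1 : p ∉ Lt T z a b c d e f 1 := fun h => hf h.2
    refine C.int (l := 0) S.pz (fun m hm => ?_) S.yz S.py hyL0
    fin_cases m
    · rfl
    · exact absurd hm h1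
    · exact absurd hm h2
    · exact absurd hm h3

/-- **(2')** the palette of the flank contains `{c, d}` or `{e, f}` -/
theorem sub (S : S3 U T z y p a b c d e f) : (c ∈ T p ∧ d ∈ T p) ∨ (e ∈ T p ∧ f ∈ T p) := by
  rcases S.letters with h | h
  · have := sub_of_closure S.irr h
    exact Or.inl ⟨this (Or.inl rfl), this (Or.inr rfl)⟩
  · exact Or.inr h

/-- order at most three: `a` is not at an ordinary flank -/
theorem not_a_aux (S : S3 U T z y p a b c d e f) (h3 : (T p).ncard ≤ 3) (hc : c ∈ T p)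
    (hd : d ∈ T p) : a ∉ T p := by
  intro ha
  obtain ⟨k1, k2⟩ := off2 S.pz S.py
  have hzp : dist z p = 1 := by rw [dist_comm]; exact S.pz
  rcases S.irr.lemmaX (u := p) (p := z) (v := y) (t := b) hzp h3 (by
      rw [S.ctr.pal]
      rintro i (rfl | rfl | rfl | rfl)
      · exact Or.inr ha
      · exact Or.inl rfl
      · exact Or.inr hc
      · exact Or.inr hd) S.zy (S.irr.sub y (by rw [S.ctr'.pal]; simp)) with h | h
  · exact k1 h
  · exact k2 h

/-- order at most three: `a` is not at a flank -/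
theorem not_a (S : S3 U T z y p a b c d e f) (h3 : (T p).ncard ≤ 3) : a ∉ T p := by
  rcases S.sub with h | h
  · exact S.not_a_aux h3 h.1 h.2
  · exact S.symm.not_a_aux h3 h.1 h.2

theorem not_b (S : S3 U T z y p a b c d e f) (h3 : (T p).ncard ≤ 3) : b ∉ T p :=
  S.swapAB.not_a h3

/-- order at most three, `c, d` present -/
theorem list_aux (S : S3 U T z y p a b c d e f) (h3 : (T p).ncard ≤ 3) (hc : c ∈ T p)
    (hd : d ∈ T p) : T p = {c, d} ∨ T p = {c, d, e} ∨ T p = {c, d, f} := by
  have ha := S.not_a h3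
  have hb := S.not_b h3
  have hn := S.nd
  simp only [List.nodup_cons, List.mem_cons, List.not_mem_nil, or_false, not_or, List.nodup_nil,
    and_true, not_false_eq_true] at hn
  obtain ⟨⟨ab, ac, ad, ae, af⟩, ⟨bc, bd, be, bf⟩, ⟨cd, ce, cf⟩, ⟨de, df⟩, ef⟩ := hn
  by_cases he : e ∈ T p
  · right; left
    have h1 : ({c, d, e} : Set (Fin 6)) ⊆ T p := by
      rintro i (rfl | rfl | rfl)
      exacts [hc, hd, he]
    have h2 : ({c, d, e} : Set (Fin 6)).ncard = 3 := Set.ncard_eq_three.2 ⟨c, d, e, cd, ce, de, rfl⟩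
    exact (Set.eq_of_subset_of_ncard_le h1 (by omega) (Set.toFinite _)).symm
  by_cases hf : f ∈ T p
  · right; right
    have h1 : ({c, d, f} : Set (Fin 6)) ⊆ T p := by
      rintro i (rfl | rfl | rfl)
      exacts [hc, hd, hf]
    have h2 : ({c, d, f} : Set (Fin 6)).ncard = 3 := Set.ncard_eq_three.2 ⟨c, d, f, cd, cf, df, rfl⟩
    exact (Set.eq_of_subset_of_ncard_le h1 (by omega) (Set.toFinite _)).symm
  left
  refine Subset.antisymm (fun i hi => ?_) ?_
  · rcases S.ctr.all i with rfl | rfl | rfl | rfl | rfl | rfl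
    exacts [absurd hi ha, absurd hi hb, Or.inl rfl, Or.inr rfl, absurd hi he, absurd hi hf]
  · rintro i (rfl | rfl)
    exacts [hc, hd]

/-- **(3)** the palettes of a flank with at most three colours -/
theorem list (S : S3 U T z y p a b c d e f) (h3 : (T p).ncard ≤ 3) :
    (p ∈ closure (Ex T z {c, d}) ∧ (T p = {c, d} ∨ T p = {c, d, e} ∨ T p = {c, d, f})) ∨
      (p ∈ closure (Ex T y {e, f}) ∧ (T p = {e, f} ∨ T p = {e, f, c} ∨ T p = {e, f, d})) := by
  rcases S.letters with h | h
  · have := sub_of_closure S.irr h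
    exact Or.inl ⟨h, S.list_aux h3 (this (Or.inl rfl)) (this (Or.inr rfl))⟩
  · rcases S.symm.letters with h' | h'
    · exact Or.inr ⟨h', S.symm.list_aux h3 h.1 h.2⟩
    · exfalso
      have := four_le (s := T p) h'.1 h'.2 h.1 h.2 (by
        have hn := S.nd
        simp only [List.nodup_cons, List.mem_cons, List.not_mem_nil, or_false, not_or,
          List.nodup_nil, and_true, not_false_eq_true] at hn ⊢
        exact ⟨hn.2.2.1, hn.2.2.2.1, hn.2.2.2.2⟩)
      omega

/-- **(3')** an ordinary flank without a third colour is interior to an exact `cd`-arc -/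
theorem arc (S : S3 U T z y p a b c d e f) (h : T p = {c, d}) : Arc T z p {c, d} := by
  refine ⟨S.pz, ?_⟩
  filter_upwards [mem_nhdsWithin_of_mem_nhds (S.irr.nhd p), self_mem_nhdsWithin] with q h1 h2
  rw [h] at h1
  refine Subset.antisymm h1 ?_
  have key : ∀ i j : Fin 6, i ∈ T z → T q ⊆ {i, j} → j ∈ T q := by
    intro i j hi hs
    by_contra hj
    have h3 : T q ⊆ {i} := by
      intro m hm
      rcases hs hm with h4 | h4
      · exact h4
      · rw [mem_singleton_iff] at h4; subst h4; exact absurd hm hj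
    exact S.irr.mx.notMem' (S.irr.mem_of_single h3) h2 (S.irr.sub z hi)
  rintro i (rfl | rfl)
  · exact key d i (by rw [S.ctr.pal]; simp) (by rw [pair_comm]; exact h1)
  · exact key c i (by rw [S.ctr.pal]; simp) h1

end S3

end Vale.Agent.P032.S5.H767
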