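import Vale.Agent.P032.S5.H767.Exc

/-!
# P032: the word of a two-pair centre with harmless and mixed four-coloured points on the circle

`Mk T z a b c d e f y`: `y` carries the two missing colours `e, f`, no pair of the centre, and no
palette of `S(y)` is inside `{e, f}` (two-pair points `{ae|cf}`, crossed harmless points `{a,c,e,f}`).

If every point of `S(z)` is admissible (`Adm`) or mixed (`Mk`), no star `Hx ab`, `Hx cd` exists and
no four-coloured neighbour of a mixed point carries `e` and `f`, then all rules of the word of `z`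
hold, except that the double contact `(A e) (e f) (f C)` is allowed (`Ctr.raw3_mix`).
-/

open Set Filter Topology Metric

noncomputable section

namespace Vale.Agent.P032.S5.H767

open Vale.Agent.P032.Six Vale.Agent.P032.Words

variable {U : Fin 6 → Set ℂ} {T : ℂ → Set (Fin 6)} {z : ℂ} {a b c d e f : Fin 6}

/-- a mixed point of `S(z)` -/
structure Mk (T : ℂ → Set (Fin 6)) (a b c d e f : Fin 6) (y : ℂ) : Prop where
  he : e ∈ T y
  hf : f ∈ T y
  fc : Fc T y {e, f}
  nab : ¬ ({a, b} : Set (Fin 6)) ⊆ T y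
  ncd : ¬ ({c, d} : Set (Fin 6)) ⊆ T y

/-- the rules of the word of a centre, the triple contact `three` is left out -/
structure RawM (X : Fin 4 → Set ℝ) : Prop where
  closed : ∀ l, IsClosed (X l)
  cover : ∀ u, ∃ l, u ∈ X l
  per : ∀ l u, u + 6 ∈ X l ↔ u ∈ X l
  anti : ∀ u, u ∈ X 2 → u + 3 ∉ X 3
  ac : ∀ u, u ∈ X 2 → u ∉ X 3
  two : ∀ u l m n, u ∈ X l → u ∈ X m → u ∈ X n → l = m ∨ m = n ∨ n = l
  own : ∀ u l, u ∈ X l → u + 1 ∈ X l → ∃ m, m ≠ l ∧ u ∈ X m
  own' : ∀ u l, u ∈ X l → u + 1 ∈ X l → ∃ m, m ≠ l ∧ u + 1 ∈ X m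
  swap : ∀ u l m, u ∈ X l → u + 1 ∈ X l → u ∈ X m → u + 1 ∈ X m → l = m
  dbl : ∀ u l m, l ≠ m → u ∈ X l → u + 1 ∈ X l → u + 1 ∈ X m → u + 2 ∈ X m →
    l.val < 2 ∧ m.val < 2

namespace Ctr

/-- a mixed point carries the letters `e` and `f` only -/
theorem mk_letter (C : Ctr U T z a b c d e f) {y : ℂ} (hx : Mk T a b c d e f y) {l : Fin 4}
    (hl : y ∈ Lt T z a b c d e f l) : l = 0 ∨ l = 1 := by
  have k1 := Lt_col C.irr hl
  fin_cases l
  · exact Or.inl rfl
  · exact Or.inr rfl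
  · exact absurd k1 hx.nab
  · exact absurd k1 hx.ncd

/-- a point with a pair letter has at most three colours -/
theorem le_of_pairM (C : Ctr U T z a b c d e f) {y : ℂ}
    (hA : Adm T z a b c d e f y ∨ Mk T a b c d e f y) {l : Fin 4}
    (hl : y ∈ Lt T z a b c d e f l) (h2 : 2 ≤ l.val) : (T y).ncard ≤ 3 := by
  rcases hA with h | h
  · exact C.le_of_pair h hl h2
  · rcases C.mk_letter h hl with rfl | rfl <;> exact absurd h2 (by decide)

/-- no neighbour of a mixed point with at most three colours carries `e` and `f` -/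
theorem mk_flank (C : Ctr U T z a b c d e f) {y y' : ℂ} (hy : Mk T a b c d e f y)
    (hyz : dist y z = 1) (hy'z : dist y' z = 1) (hyy : dist y' y = 1)
    (h3 : (T y').ncard ≤ 3) (he : e ∈ T y') (hf : f ∈ T y') : False := by
  obtain ⟨⟨ab, ac, ad, ae, af⟩, ⟨bc, bd, be, bf⟩, ⟨cd, ce, cf⟩, ⟨de, df⟩, ef⟩ := C.sep
  by_cases hsub : T y' ⊆ {e, f}
  · exact hy.fc y' hyy hsub
  · rw [not_subset] at hsub
    obtain ⟨x, hx, hxef⟩ := hsub
    have hxe : x ≠ e := fun h => hxef (Or.inl h)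
    have hxf : x ≠ f := fun h => hxef (Or.inr h)
    have h1 : ({x, e, f} : Set (Fin 6)) ⊆ T y' := by
      rintro m (rfl | rfl | rfl)
      exacts [hx, he, hf]
    have h2 : ({x, e, f} : Set (Fin 6)).ncard = 3 :=
      Set.ncard_eq_three.2 ⟨x, e, f, hxe, hxf, ef, rfl⟩
    have h4 : T y' = {x, e, f} :=
      (Set.eq_of_subset_of_ncard_le h1 (by omega) (Set.toFinite _)).symm
    have hxz : x ∈ T z := by
      by_contra h
      rcases C.miss h with h5 | h5
      exacts [hxe h5, hxf h5]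
    exact lemmaFz C.irr hy'z hyz hyy hy.fc (by rw [h4]) hxz

/-- two letters `0, 1` are the colours `e, f` -/
theorem ef_of (_ : Ctr U T z a b c d e f) {l m : Fin 4} (hlm : l ≠ m) {w : ℂ}
    (h1 : w ∈ Lt T z a b c d e f l) (h2 : w ∈ Lt T z a b c d e f m) (h3 : l = 0 ∨ l = 1)
    (h4 : m = 0 ∨ m = 1) : e ∈ T w ∧ f ∈ T w := by
  rcases h3 with rfl | rfl <;> rcases h4 with rfl | rfl
  · exact absurd rfl hlm
  · exact ⟨h1.2, h2.2⟩
  · exact ⟨h2.2, h1.2⟩
  · exact absurd rfl hlm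

/-- **no two common letters at neighbours**, admissible and mixed points -/
theorem noswapM (C : Ctr U T z a b c d e f) {y y' : ℂ} {l m : Fin 4} (hlm : l ≠ m)
    (hyy : dist y y' = 1) (hA : Adm T z a b c d e f y ∨ Mk T a b c d e f y)
    (hA' : Adm T z a b c d e f y' ∨ Mk T a b c d e f y')
    (hD : Hx T z a b e f y → ¬ Hx T z c d e f y') (hD' : Hx T z c d e f y → ¬ Hx T z a b e f y')
    (hM : Mk T a b c d e f y → 4 ≤ (T y').ncard → e ∈ T y' → f ∈ T y' → False)
    (hM' : Mk T a b c d e f y' → 4 ≤ (T y).ncard → e ∈ T y → f ∈ T y → False)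
    (hl : y ∈ Lt T z a b c d e f l) (hm : y ∈ Lt T z a b c d e f m)
    (hl' : y' ∈ Lt T z a b c d e f l) (hm' : y' ∈ Lt T z a b c d e f m) : False := by
  have hy := Lt_dist hl
  have hy' := Lt_dist hl'
  have hyy' : dist y' y = 1 := by rw [dist_comm]; exact hyy
  rcases hA with hA | hx
  · rcases hA' with hA' | hx'
    · exact C.noswap_adm hlm hyy hA hA' hD hD' hl hm hl' hm'
    · have k := C.ef_of hlm hl hm (C.mk_letter hx' hl') (C.mk_letter hx' hm')
      rcases Nat.lt_or_ge (T y).ncard 4 with h3 | h4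
      · exact C.mk_flank hx' hy' hy hyy (by omega) k.1 k.2
      · exact hM' hx' h4 k.1 k.2
  · have k := C.ef_of hlm hl' hm' (C.mk_letter hx hl) (C.mk_letter hx hm)
    rcases Nat.lt_or_ge (T y').ncard 4 with h3 | h4
    · exact C.mk_flank hx hy hy' hyy' (by omega) k.1 k.2
    · exact hM hx h4 k.1 k.2

/-- **(dbl)** for admissible and mixed points -/
theorem dblM (C : Ctr U T z a b c d e f) {y y' y'' : ℂ} {l m : Fin 4} (hlm : l ≠ m)
    (hyy : dist y y' = 1) (hyy' : dist y y'' = 1) (hne : y'' ≠ y') (hne2 : y'' + y' ≠ 2 * y)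
    (hA : Adm T z a b c d e f y ∨ Mk T a b c d e f y)
    (hA' : Adm T z a b c d e f y' ∨ Mk T a b c d e f y')
    (hA'' : Adm T z a b c d e f y'' ∨ Mk T a b c d e f y'')
    (hl : y ∈ Lt T z a b c d e f l) (hl' : y' ∈ Lt T z a b c d e f l)
    (hm : y ∈ Lt T z a b c d e f m) (hm' : y'' ∈ Lt T z a b c d e f m) :
    l.val < 2 ∧ m.val < 2 := by
  obtain ⟨⟨ab, ac, ad, ae, af⟩, ⟨bc, bd, be, bf⟩, ⟨cd, ce, cf⟩, ⟨de, df⟩, ef⟩ := C.sep
  have hne' : y' ≠ y'' := hne.symm
  have hne2' : y' + y'' ≠ 2 * y := by rw [add_comm]; exact hne2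
  have hy := Lt_dist hl
  have hy' := Lt_dist hl'
  have hy'' := Lt_dist hm'
  have val2 : ∀ n : Fin 4, n = 0 ∨ n = 1 → n.val < 2 := by decide
  rcases hA with (h3 | hx | hx) | hx
  · have kl := Lt_col C.irr hl
    have kl' := Lt_col C.irr hl'
    have km := Lt_col C.irr hm
    have km' := Lt_col C.irr hm'
    have e23 : ∀ n : Fin 4, ¬ n.val < 2 → n = 2 ∨ n = 3 := by decide
    constructor
    · by_contra hcon
      have h3' := C.le_of_pairM hA' hl' (not_lt.1 hcon)
      rcases e23 l hcon with rfl | rfl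
      · exact C.dblPair hlm hyy hyy' hne hne2 h3 h3' ab hy hy' (kl (Or.inl rfl)) (kl (Or.inr rfl))
          (kl' (Or.inl rfl)) (kl' (Or.inr rfl)) (fun h => C.ne_col hlm (Or.inl rfl) h rfl)
          (fun h => C.ne_col hlm (Or.inr rfl) h rfl) hm hm'
      · exact C.dblPair hlm hyy hyy' hne hne2 h3 h3' cd hy hy' (kl (Or.inl rfl)) (kl (Or.inr rfl))
          (kl' (Or.inl rfl)) (kl' (Or.inr rfl)) (fun h => C.ne_col hlm (Or.inl rfl) h rfl)
          (fun h => C.ne_col hlm (Or.inr rfl) h rfl) hm hm'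
    · by_contra hcon
      have h3'' := C.le_of_pairM hA'' hm' (not_lt.1 hcon)
      rcases e23 m hcon with rfl | rfl
      · exact C.dblPair hlm.symm hyy' hyy hne' hne2' h3 h3'' ab hy hy'' (km (Or.inl rfl))
          (km (Or.inr rfl)) (km' (Or.inl rfl)) (km' (Or.inr rfl))
          (fun h => C.ne_col hlm.symm (Or.inl rfl) h rfl)
          (fun h => C.ne_col hlm.symm (Or.inr rfl) h rfl) hl hl'
      · exact C.dblPair hlm.symm hyy' hyy hne' hne2' h3 h3'' cd hy hy'' (km (Or.inl rfl))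
          (km (Or.inr rfl)) (km' (Or.inl rfl)) (km' (Or.inr rfl))
          (fun h => C.ne_col hlm.symm (Or.inl rfl) h rfl)
          (fun h => C.ne_col hlm.symm (Or.inr rfl) h rfl) hl hl'
  · exact ⟨val2 l (C.hx_letter hx hl), val2 m (C.hx_letter hx hm)⟩
  · exact ⟨val2 l (C.hx_letter' hx hl), val2 m (C.hx_letter' hx hm)⟩
  · exact ⟨val2 l (C.mk_letter hx hl), val2 m (C.mk_letter hx hm)⟩

/-- **The word of a centre with harmless and mixed points on the circle.** -/
theorem raw3_mix (C : Ctr U T z a b c d e f)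
    (hA : ∀ y, dist y z = 1 → Adm T z a b c d e f y ∨ Mk T a b c d e f y)
    (hD : ∀ y y', dist y z = 1 → dist y' z = 1 → dist y y' = 1 → Hx T z a b e f y →
      ¬ Hx T z c d e f y')
    (hM : ∀ y y', dist y z = 1 → dist y' z = 1 → dist y y' = 1 → Mk T a b c d e f y →
      4 ≤ (T y').ncard → e ∈ T y' → f ∈ T y' → False) : RawM (Xs T z a b c d e f) := by
  have hp : ∀ u, Adm T z a b c d e f (pt z u) ∨ Mk T a b c d e f (pt z u) :=
    fun u => hA _ (dist_pt z u)
  have hD' : ∀ y y', dist y z = 1 → dist y' z = 1 → dist y y' = 1 → Hx T z c d e f y →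
      ¬ Hx T z a b e f y' := fun y y' h1 h2 h3 h4 h5 =>
    hD y' y h2 h1 (by rw [dist_comm]; exact h3) h5 h4
  refine ⟨C.x_closed, C.x_cover, C.x_per, ?_, ?_, ?_, fun u l h h' => C.x_own h h',
    fun u l h h' => C.x_own' h h', ?_, ?_⟩
  · exact fun u h => C.x_anti (C.le_of_pairM (l := 2) (hp u) h (by decide)) h
  · exact fun u h => C.x_ac (C.le_of_pairM (l := 2) (hp u) h (by decide)) h
  · intro u l m n hl hm hn
    rcases hp u with (h3 | hx | hx) | hx
    · exact C.x_two h3 hl hm hn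
    · rcases C.hx_letter hx hl with rfl | rfl <;> rcases C.hx_letter hx hm with rfl | rfl <;>
        rcases C.hx_letter hx hn with rfl | rfl <;> simp
    · rcases C.hx_letter' hx hl with rfl | rfl <;> rcases C.hx_letter' hx hm with rfl | rfl <;>
        rcases C.hx_letter' hx hn with rfl | rfl <;> simp
    · rcases C.mk_letter hx hl with rfl | rfl <;> rcases C.mk_letter hx hm with rfl | rfl <;>
        rcases C.mk_letter hx hn with rfl | rfl <;> simp
  · intro u l m h1 h2 h4 h5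
    by_contra hlm
    exact C.noswapM hlm (dist_pt_one z u) (hp u) (hp (u + 1))
      (hD _ _ (dist_pt z u) (dist_pt z (u + 1)) (dist_pt_one z u))
      (hD' _ _ (dist_pt z u) (dist_pt z (u + 1)) (dist_pt_one z u))
      (fun k1 k2 k3 k4 => hM _ _ (dist_pt z u) (dist_pt z (u + 1)) (dist_pt_one z u) k1 k2 k3 k4)
      (fun k1 k2 k3 k4 => hM _ _ (dist_pt z (u + 1)) (dist_pt z u)
        (by rw [dist_comm]; exact dist_pt_one z u) k1 k2 k3 k4) h1 h4 h2 h5
  · intro u l m hlm h1 h2 h4 h5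
    obtain ⟨k1, k2⟩ := pt_off z u
    have e1 : u + 1 + 1 = u + 2 := by ring
    have k3 := dist_pt_one z (u + 1)
    rw [e1] at k3
    exact C.dblM hlm (by rw [dist_comm]; exact dist_pt_one z u) k3 k1 k2 (hp (u + 1)) (hp u)
      (hp (u + 2)) h2 h1 h4 h5

end Ctr

end Vale.Agent.P032.S5.H767
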