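import Vale.Agent.P032.R2.H939.HW2
import Vale.Agent.P032.R2.H479.Loc
import Vale.Agent.P032.R2.H333.Raw3
import Vale.Agent.P032.R2.H171.EmptyV

/-!
# P032: the world without stopped arcs

`E3W U T`: exact arcs of two-pair points do not end at points with more than three colours (`stop`),
the points at distance one of a point with at least four colours have at most four colours (`loc`).

* `E3W.inside`, `E3W.not_same`: the points of the circle of a two-pair point inside its palette;
* `E3W.side`: two colours of different pairs of a two-pair point at a four-coloured contact `y` are on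
  one side, or they are mixed and `y` is harmless with this pair;
* `E3W.two`: a contact and a two-pair point have at most two common colours.
-/

open Set Filter Topology Metric

noncomputable section

namespace Vale.Agent.P032.Six

open S5.H767 (Ex ex_self dist_of_closure sub_of_closure line_free lemmaFz)

/-- exact arcs of two-pair points do not end at points with more than three colours -/
structure E3W (U : Fin 6 → Set ℂ) (T : ℂ → Set (Fin 6)) : Prop where
  irr : Irr U T
  min : Mn U T
  loc : Loc4 T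
  stop : ∀ {z : ℂ} {a b c d : Fin 6}, DPt T z a b c d → ∀ {y : ℂ}, dist y z = 1 →
    4 ≤ (T y).ncard → ¬ Acc T z {a, b} y

variable {U : Fin 6 → Set ℂ} {T : ℂ → Set (Fin 6)}

namespace E3W

theorem minF (H : E3W U T) : MinF U T := fun z hz s hs hne => H.min z hz s hs hne

/-- the circle of a four-coloured point -/
theorem le4 (H : E3W U T) {x y : ℂ} (hx : (T x).ncard = 4) (hd : dist y x = 1) :
    (T y).ncard ≤ 4 := H.loc x y hd hx.ge

/-- a four-coloured point is harmless or a two-pair point -/
theorem cases (H : E3W U T) {x : ℂ} (hx : (T x).ncard = 4) :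
    (∃ A, Harm T x A) ∨ ∃ a b c d, DPt T x a b c d := by
  by_cases hD : ∃ a b c d, DPt T x a b c d
  · exact Or.inr hD
  · left
    exact H.irr.harm_of_noD H.min hx
      (H.irr.exists_inside hx fun y hy => H.le4 hx hy) fun a b c d h => hD ⟨a, b, c, d, h⟩

/-- **exact arcs of two-pair points end in three-coloured points** -/
theorem end3 (H : E3W U T) {z : ℂ} {a b c d : Fin 6} (hz : DPt T z a b c d) {v : ℂ}
    (hA : Acc T z {a, b} v) : (T v).ncard ≤ 3 := by
  by_contra hcon
  exact H.stop hz hA.dist (by omega) hA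

/-- exact arcs as `Frequently` -/
theorem not_freq (H : E3W U T) {z : ℂ} {a b c d : Fin 6} (hz : DPt T z a b c d) {v : ℂ}
    (hvz : dist v z = 1) (hv : 4 ≤ (T v).ncard) : ¬ ∃ᶠ q in 𝓝 v, Arc T z q {a, b} := by
  intro hf
  refine H.stop hz hvz hv fun V hV => ?_
  obtain ⟨q, hq, hqV⟩ := (hf.and_eventually hV).exists
  exact ⟨q, hqV, hq.1, hq.2⟩

/-- near a four-coloured point of the circle of a two-pair point the palettes inside have at
least three colours -/
theorem near_three (H : E3W U T) {x v : ℂ} {a b c d : Fin 6} (hx : DPt T x a b c d)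
    (hvx : dist v x = 1) (hv : 4 ≤ (T v).ncard) :
    ∀ᶠ q in 𝓝 v, dist q x = 1 → T q ⊆ T x → 3 ≤ (T q).ncard := by
  have h := H.irr
  filter_upwards [not_frequently.1 (H.not_freq hx hvx hv),
    not_frequently.1 (H.not_freq hx.swap hvx hv)] with q h1 h2 hqx hsub
  by_contra hcon
  obtain ⟨i0, hi0⟩ := h.ne q
  by_cases h3 : (T q).ncard = 2
  · have h4 := h.pair_open h3 hsub Subset.rfl
    rcases h.twoPairs hx q hqx h4 hsub with h5 | h5
    · exact h1 ⟨hqx, by rw [h5] at h4; exact h4⟩
    · exact h2 ⟨hqx, by rw [h5] at h4; exact h4⟩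
  · have h4 : (T q).ncard ≤ 1 := by omega
    have h5 : T q ⊆ {i0} := fun m hm =>
      (Set.ncard_le_one (Set.toFinite _)).1 h4 m hm i0 hi0
    exact h.mx.notMem' (h.mem_of_single h5) hqx (h.sub x (hsub hi0))

/-- no arc of points with the palette of a four-coloured point -/
theorem no_arc4 (H : E3W U T) {x w : ℂ} (hw : (T w).ncard = 4) (hd : dist w x = 1)
    (hall : ∀ᶠ q in 𝓝[sphere x 1] w, T w ⊆ T q) : False := by
  have h := H.irr
  obtain ⟨g0, P, hP, hPne, hg0⟩ : ∃ g0 P, P ⊆ T w ∧ P.Nonempty ∧ Arc T w g0 P := by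
    rcases H.cases hw with ⟨A, hA⟩ | ⟨a, b, c, d, hD⟩
    · obtain ⟨p, hp, hJ⟩ := hA.arc
      refine ⟨p, A, hA.sub, ?_, hp, hJ⟩
      rw [← Set.ncard_pos (Set.toFinite _), hA.cardA]; norm_num
    · obtain ⟨p, hp⟩ := hD.arc1
      refine ⟨p, {a, b}, ?_, ⟨a, by simp⟩, hp⟩
      rw [hD.pal]
      rintro i (h1 | h1)
      · left; exact h1
      · right; left; exact h1
  obtain ⟨g, hg, hg1, hg2⟩ := hg0.exists_off_line (y := x)
  obtain ⟨i, hi⟩ := hPne
  have hgT : i ∈ T g := by
    have : T g = P := hg.mem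
    rw [this]; exact hi
  exact line_free h hd (hall.mono fun q hq => hq (hP hi)) (by rw [dist_comm]; exact hg.1) hg1 hg2
    (h.sub _ hgT)

/-- **four-coloured points of the circle of a two-pair point have different palettes** -/
theorem not_same (H : E3W U T) {x w : ℂ} {a b c d : Fin 6} (hx : DPt T x a b c d)
    (hw : (T w).ncard = 4) (hd : dist w x = 1) (hs : T w ⊆ T x) : False := by
  have h := H.irr
  have heq : T w = T x := Set.eq_of_subset_of_ncard_le hs (by rw [hw, hx.card]) (Set.toFinite _)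
  have hwx : w + w ≠ 2 * x := by
    intro h1
    have h2 : w = x := by linear_combination h1 / 2
    rw [h2, dist_self] at hd
    exact zero_ne_one hd
  have hne : ∀ᶠ q in 𝓝 w, w + q ≠ 2 * x := by
    have hc : Continuous fun q : ℂ => w + q := by fun_prop
    exact hc.continuousAt.eventually_ne hwx
  refine H.no_arc4 hw hd ?_
  filter_upwards [mem_nhdsWithin_of_mem_nhds (h.nhd w), self_mem_nhdsWithin,
    mem_nhdsWithin_of_mem_nhds (H.near_three hx hd hw.ge), mem_nhdsWithin_of_mem_nhds hne]
    with q h1 h2 h3 h4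
  have h2 : dist q x = 1 := h2
  by_contra hcon
  obtain ⟨t, ht, htq⟩ := Set.not_subset.1 hcon
  have h5 := h3 h2 (h1.trans hs)
  have h6 : insert t (T q) ⊆ T w := by
    rintro i (rfl | hi)
    · exact ht
    · exact h1 hi
  have h7 : (insert t (T q)).ncard = (T q).ncard + 1 :=
    Set.ncard_insert_of_notMem htq (Set.toFinite _)
  have h8 := Set.ncard_le_ncard h6 (Set.toFinite _)
  have h9 : insert t (T q) = T w :=
    Set.eq_of_subset_of_ncard_le h6 (by omega) (Set.toFinite _)
  exact h.third_notMem (z := x) (v := q) (q := w) (d := t) h2 (by omega)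
    (by rw [← heq, ← h9]) hd (h.sub w ht) (fun h10 => hcon (by rw [← h10])) h4

/-- points of the circle of a two-pair point inside the palette of the centre -/
theorem inside (H : E3W U T) {z x : ℂ} {a b c d : Fin 6} (hz : DPt T z a b c d)
    (hx : dist x z = 1) (hsub : T x ⊆ T z) : T x = {a, b} ∨ T x = {c, d} := by
  have h := H.irr
  have h4 := H.le4 hz.card hx
  obtain ⟨i0, hi0⟩ := h.ne x
  rcases Nat.lt_or_ge (T x).ncard 4 with hlt | hge
  · by_cases h3 : (T x).ncard = 3
    · exfalso
      have hc := Set.ncard_sdiff hsub (Set.toFinite _)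
      rw [hz.card, h3] at hc
      obtain ⟨i, hi⟩ := Set.ncard_eq_one.1 (show (T z \ T x).ncard = 1 by omega)
      have hins : T z ⊆ insert i (T x) := by
        intro m hm
        by_cases hmx : m ∈ T x
        · exact Or.inr hmx
        · left
          have : m ∈ T z \ T x := ⟨hm, hmx⟩
          rw [hi] at this
          exact this
      have hiz : i ∈ T z := by
        have : i ∈ T z \ T x := by rw [hi]; rfl
        exact this.1
      rw [hz.pal] at hiz
      rcases hiz with h1 | h1 | h1 | h1
      · exact h.no_three_in hz hx (by omega) (Or.inl h1) hins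
      · exact h.no_three_in hz hx (by omega) (Or.inr h1) hins
      · exact h.no_three_in hz.swap hx (by omega) (Or.inl h1) hins
      · exact h.no_three_in hz.swap hx (by omega) (Or.inr h1) hins
    · by_cases h2 : (T x).ncard = 2
      · exact h.twoPairs hz x hx (h.pair_open h2 hsub Subset.rfl) hsub
      · exfalso
        have h1 : (T x).ncard ≤ 1 := by omega
        have h5 : T x ⊆ {i0} := fun m hm =>
          (Set.ncard_le_one (Set.toFinite _)).1 h1 m hm i0 hi0
        exact h.mx.notMem' (h.mem_of_single h5) hx (h.sub z (hsub hi0))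
  · exact (H.not_same hz (by omega) hx hsub).elim

/-- **two colours of different pairs at a four-coloured contact** -/
theorem side (H : E3W U T) {z y : ℂ} {a b c d : Fin 6} (hz : DPt T z a b c d)
    (hyz : dist y z = 1) (hy : (T y).ncard = 4) (ha : a ∈ T y) (hc : c ∈ T y) :
    (Sd U z y a b ∧ Sd U z y c d) ∨ (Sd U z y b a ∧ Sd U z y d c) ∨
      (Harm T y {a, c} ∧ ((Sd U z y a b ∧ Sd U z y d c) ∨ (Sd U z y b a ∧ Sd U z y c d))) := by
  have h := H.irr
  have hzy : dist z y = 1 := by rw [dist_comm]; exact hyz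
  have key : (∃ᶠ q in 𝓝 z, Arc T y q {a, c}) → Harm T y {a, c} := by
    intro hf
    obtain ⟨q, hq⟩ := hf.exists
    have hqT : T q = {a, c} := hq.mem
    have hsub : T q ⊆ T y := by
      rw [hqT]
      rintro i (h2 | h2)
      · rw [h2]; exact ha
      · rw [mem_singleton_iff] at h2; rw [h2]; exact hc
    rcases H.cases hy with ⟨A, hA⟩ | ⟨p, r, s, t, hD⟩
    · have h1 := hA.h1 q hq.1 hsub
      rw [hqT] at h1
      have h2 : A = {a, c} :=
        Set.eq_of_subset_of_ncard_le h1 (by rw [hA.cardA, Set.ncard_pair hz.ac]) (Set.toFinite _)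
      rw [← h2]; exact hA
    · exfalso
      rcases h.twoPairs hD q hq.1 (by rw [hqT]; exact hq.2) hsub with h1 | h1
      · rw [hqT] at h1
        rw [h1] at hf
        exact H.not_freq hD hzy hz.card.ge hf
      · rw [hqT] at h1
        rw [h1] at hf
        exact H.not_freq hD.swap hzy hz.card.ge hf
  rcases h.sides hz hyz with h1 | h1 <;> rcases h.sides hz.swap hyz with h2 | h2
  · exact Or.inl ⟨h1, h2⟩
  · refine Or.inr (Or.inr ⟨key ?_, Or.inl ⟨h1, h2⟩⟩)
    have := h.locked_acc hz.swap.swap12 hyz h1 h2 (h.sub _ ha) (h.sub _ hc)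
    rw [pair_comm] at this
    exact this
  · exact Or.inr (Or.inr ⟨key (h.locked_acc hz.swap12 hyz h2 h1 (h.sub _ hc) (h.sub _ ha)),
      Or.inr ⟨h1, h2⟩⟩)
  · exact Or.inr (Or.inl ⟨h1, h2⟩)

/-- the two sides of a colour pair are not both free of a colour of the point -/
theorem sd_absurd (h : Irr U T) {z y : ℂ} {i j k : Fin 6} (hi : i ∈ T y)
    (h1 : Sd U z y i j) (h2 : Sd U z y k i) : False := by
  obtain ⟨g, ⟨hgU, hg1, hg2⟩, hgz⟩ := exists_off (h.mx.isOpen i) (z := z) (h.sub _ hi)
    (inter_mem h1 h2)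
  rcases lt_or_gt_of_ne hgz with h3 | h3
  · exact hg2.2 h3 (subset_closure hgU)
  · exact hg1.1 h3 (subset_closure hgU)

/-- a harmless contact with both colours of a pair of the centre: the pair is inside or outside -/
theorem harm_pair (H : E3W U T) {z y : ℂ} {a b c d : Fin 6} (hz : DPt T z a b c d)
    (hyz : dist y z = 1) {B : Set (Fin 6)} (hB : Harm T y B) (ha : a ∈ B) (hb : b ∈ T y) :
    b ∈ B := by
  have h := H.irr
  by_contra hbB
  have hy4 : (T y).ncard = 4 := hB.card
  have hmy : ∀ s, s ⊆ T y → s ≠ T y → ¬ ∀ᶠ w in 𝓝 y, Suf U s w := H.minF y (by rw [hy4])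
  exact H.stop hz hyz hy4.ge (h.acc_of_freq hz hyz (hB.contact h hmy ha hb hbB))

/-- **a contact of a two-pair point has no three colours of it** -/
theorem not_three (H : E3W U T) {z y : ℂ} {a b c d : Fin 6} (hz : DPt T z a b c d)
    (hyz : dist y z = 1) (hy : (T y).ncard = 4) (ha : a ∈ T y) (hb : b ∈ T y) (hc : c ∈ T y) :
    False := by
  have h := H.irr
  have k1 : ∀ {P : Set (Fin 6)}, Harm T y P → P = {a, c} → False := by
    rintro P hP rfl
    rcases H.harm_pair hz hyz hP (by simp) hb with h1 | h1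
    · exact hz.ab h1.symm
    · exact hz.bc h1
  have k2 : ∀ {P : Set (Fin 6)}, Harm T y P → P = {b, c} → False := by
    rintro P hP rfl
    rcases H.harm_pair hz.swap12 hyz hP (by simp) ha with h1 | h1
    · exact hz.ab h1
    · exact hz.ac h1
  rcases H.side hz hyz hy ha hc with ⟨h1, h2⟩ | ⟨h1, h2⟩ | ⟨h1, -⟩
  · rcases H.side hz.swap12 hyz hy hb hc with ⟨h3, h4⟩ | ⟨h3, h4⟩ | ⟨h3, -⟩
    · exact sd_absurd h ha h1 h3
    · exact sd_absurd h hc h2 h4
    · exact k2 h3 rfl
  · rcases H.side hz.swap12 hyz hy hb hc with ⟨h3, h4⟩ | ⟨h3, h4⟩ | ⟨h3, -⟩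
    · exact sd_absurd h hc h4 h2
    · exact sd_absurd h hb h1 h3
    · exact k2 h3 rfl
  · exact k1 h1 rfl

/-- **a contact and a two-pair point have at most two common colours** -/
theorem two (H : E3W U T) {z y : ℂ} {a b c d : Fin 6} (hz : DPt T z a b c d)
    (hyz : dist y z = 1) (hy : (T y).ncard = 4) : (T y ∩ T z).ncard ≤ 2 := by
  by_contra hcon
  have h1 : (T z \ T y).ncard ≤ 1 := by
    have h2 := Set.ncard_inter_add_ncard_sdiff_eq_ncard (T z) (T y) (Set.toFinite _)
    rw [hz.card, inter_comm] at h2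
    omega
  have hu : ∀ i j, i ∈ T z → j ∈ T z → i ∉ T y → j ∉ T y → i = j := fun i j hi hj hi' hj' =>
    (Set.ncard_le_one (Set.toFinite _)).1 h1 i ⟨hi, hi'⟩ j ⟨hj, hj'⟩
  have za : a ∈ T z := by rw [hz.pal]; simp
  have zb : b ∈ T z := by rw [hz.pal]; simp
  have zc : c ∈ T z := by rw [hz.pal]; simp
  have zd : d ∈ T z := by rw [hz.pal]; simp
  by_cases ha : a ∈ T y
  · by_cases hb : b ∈ T y
    · by_cases hc : c ∈ T y
      · exact H.not_three hz hyz hy ha hb hc
      · have hd : d ∈ T y := by
          by_contra hd; exact hz.cd (hu c d zc zd hc hd)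
        exact H.not_three hz.swap34 hyz hy ha hb hd
    · have hc : c ∈ T y := by
        by_contra hc; exact hz.bc (hu b c zb zc hb hc)
      have hd : d ∈ T y := by
        by_contra hd; exact hz.bd (hu b d zb zd hb hd)
      exact H.not_three hz.swap hyz hy hc hd ha
  · have hb : b ∈ T y := by
      by_contra hb; exact hz.ab (hu a b za zb ha hb)
    have hc : c ∈ T y := by
      by_contra hc; exact hz.ac (hu a c za zc ha hc)
    have hd : d ∈ T y := by
      by_contra hd; exact hz.ad (hu a d za zd ha hd)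
    exact H.not_three hz.swap.swap34 hyz hy hc hd hb

/-- the palette of a contact -/
theorem contact_pal (H : E3W U T) {z y : ℂ} {a b c d e f : Fin 6} (hz : DPt T z a b c d)
    (nd : [a, b, c, d, e, f].Nodup) (hyz : dist y z = 1) (h4 : (T y).ncard = 4) :
    ∃ i j, i ≠ j ∧ i ∈ T z ∧ j ∈ T z ∧ T y = {i, j, e, f} := by
  have hn := nd
  simp only [List.nodup_cons, List.mem_cons, List.not_mem_nil, or_false, not_or, List.nodup_nil,
    and_true, not_false_eq_true] at hn
  obtain ⟨⟨ab, ac, ad, ae, af⟩, ⟨bc, bd, be, bf⟩, ⟨cd, ce, cf⟩, ⟨de, df⟩, ef⟩ := hn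
  have hall := all_six nd
  have hez : e ∉ T z := by rw [hz.pal]; simp [Ne.symm ae, Ne.symm be, Ne.symm ce, Ne.symm de]
  have hfz : f ∉ T z := by rw [hz.pal]; simp [Ne.symm af, Ne.symm bf, Ne.symm cf, Ne.symm df]
  have h2 := H.two hz hyz h4
  have h3 : (T y \ T z).ncard ≤ 2 := by
    have h5 : T y \ T z ⊆ {e, f} := by
      rintro i ⟨hi, hiz⟩
      rcases hall i with h1 | h1 | h1 | h1 | h1 | h1
      · exact absurd (by rw [h1, hz.pal]; simp) hiz
      · exact absurd (by rw [h1, hz.pal]; simp) hiz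
      · exact absurd (by rw [h1, hz.pal]; simp) hiz
      · exact absurd (by rw [h1, hz.pal]; simp) hiz
      · left; exact h1
      · right; exact h1
    have := Set.ncard_le_ncard h5 (Set.toFinite _)
    rw [Set.ncard_pair ef] at this
    exact this
  have h5 := Set.ncard_inter_add_ncard_sdiff_eq_ncard (T y) (T z) (Set.toFinite _)
  obtain ⟨i, j, hij, hI⟩ := Set.ncard_eq_two.1 (show (T y ∩ T z).ncard = 2 by omega)
  have hi : i ∈ T y ∩ T z := by rw [hI]; simp
  have hj : j ∈ T y ∩ T z := by rw [hI]; simp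
  refine ⟨i, j, hij, hi.2, hj.2, ?_⟩
  have hie : i ≠ e := fun h1 => hez (h1 ▸ hi.2)
  have hif : i ≠ f := fun h1 => hfz (h1 ▸ hi.2)
  have hje : j ≠ e := fun h1 => hez (h1 ▸ hj.2)
  have hjf : j ≠ f := fun h1 => hfz (h1 ▸ hj.2)
  have hc4 : ({i, j, e, f} : Set (Fin 6)).ncard = 4 := by
    rw [Set.ncard_insert_of_notMem, Set.ncard_insert_of_notMem, Set.ncard_pair ef]
    · simp [hje, hjf]
    · simp [hij, hie, hif]
  refine Set.eq_of_subset_of_ncard_le (fun m hm => ?_) (by rw [hc4, h4]) (Set.toFinite _)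
  by_cases hmz : m ∈ T z
  · have h6 : m ∈ T y ∩ T z := ⟨hm, hmz⟩
    rw [hI] at h6
    rcases h6 with h6 | h6
    · left; exact h6
    · right; left; exact h6
  · rcases hall m with h1 | h1 | h1 | h1 | h1 | h1
    · exact absurd (by rw [h1, hz.pal]; simp) hmz
    · exact absurd (by rw [h1, hz.pal]; simp) hmz
    · exact absurd (by rw [h1, hz.pal]; simp) hmz
    · exact absurd (by rw [h1, hz.pal]; simp) hmz
    · right; right; left; exact h1
    · right; right; right; exact h1

end E3W

end Vale.Agent.P032.Six
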