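import Vale.Agent.P032.R2.H333.E3
import Vale.Agent.P032.R2.H659.Cone

/-!
# P032: contacts in the world without stopped arcs (`E3W`)

* `E3W.contact_ab`: a contact `{a, b, e, f}` of `z = {a b | c d}` is `{ab | ef}` or harmless with the
  pair `{a, b}`;
* `E3W.contact_mix`: no palette of the circle of a contact `{a, c, e, f}` is inside `{e, f}`;
* `E3W.mix_flank`: no common neighbour `p` of `z` and a contact `{a, c, e, f}` carries `e`, `f` without
  exact `ef`-arcs.
-/

open Set Filter Topology Metric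

noncomputable section

namespace Vale.Agent.P032.Six

open S5.H767 (Ex ex_self dist_of_closure sub_of_closure line_free lemmaFz)

variable {U : Fin 6 → Set ℂ} {T : ℂ → Set (Fin 6)} {z y p : ℂ} {a b c d e f : Fin 6}

namespace E3W

/-- no locked corner: the common colours `a`, `b` of a contact and a pair `{a, b}` of the centre are
not in different pairs of the contact -/
theorem no_s4 (H : E3W U T) {z y : ℂ} {a b c d e f : Fin 6} (hz : DPt T z a b c d)
    (hy : DPt T y a e b f) (hyz : dist y z = 1) : False := by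
  have h := H.irr
  obtain ⟨τ, hτ, h1, -⟩ := h.s4_word hz hy hyz
  exact H.not_freq hz hyz hy.card.ge
    ((tendsto_arc z y τ).frequently (branch_arc hτ hyz h1).frequently)

/-- **contacts with one pair of the centre** -/
theorem contact_ab (H : E3W U T) (hz : DPt T z a b c d) (nd : [a, b, c, d, e, f].Nodup)
    (hyz : dist y z = 1) (hTy : T y = {a, b, e, f}) : DPt T y a b e f ∨ Harm T y {a, b} := by
  have h := H.irr
  have hall := all_six nd
  have hn := nd
  simp only [List.nodup_cons, List.mem_cons, List.not_mem_nil, or_false, not_or, List.nodup_nil,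
    and_true, not_false_eq_true] at hn
  obtain ⟨⟨ab, ac, ad, ae, af⟩, ⟨bc, bd, be, bf⟩, ⟨cd, ce, cf⟩, ⟨de, df⟩, ef⟩ := hn
  have he : e ∉ T z := by rw [hz.pal]; simp [Ne.symm ae, Ne.symm be, Ne.symm ce, Ne.symm de]
  have hf : f ∉ T z := by rw [hz.pal]; simp [Ne.symm af, Ne.symm bf, Ne.symm cf, Ne.symm df]
  have hy4 : (T y).ncard = 4 := by
    rw [hTy, Set.ncard_insert_of_notMem, Set.ncard_insert_of_notMem, Set.ncard_pair ef]
    · simp [be, bf]
    · simp [ab, ae, af]
  have hmy : ∀ s, s ⊆ T y → s ≠ T y → ¬ ∀ᶠ w in 𝓝 y, Suf U s w := H.minF y (by rw [hy4])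
  rcases H.cases hy4 with ⟨B, hB⟩ | ⟨p, q, r, s, hD⟩
  · right
    have hnoacc : ¬ ∃ᶠ w in 𝓝 y, T w = {a, b} := by
      intro hfr
      have := H.end3 hz (h.acc_of_freq hz hyz hfr)
      omega
    have hab : a ∈ B ↔ b ∈ B := by
      constructor
      · intro ha
        by_contra hb
        exact hnoacc (hB.contact h hmy ha (by rw [hTy]; simp) hb)
      · intro hb
        by_contra ha
        refine hnoacc ?_
        have := hB.contact h hmy hb (show a ∈ T y by rw [hTy]; simp) ha
        rwa [pair_comm] at this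
    by_cases ha : a ∈ B
    · have : ({a, b} : Set (Fin 6)) = B := by
        refine Set.eq_of_subset_of_ncard_le ?_ (by rw [hB.cardA, Set.ncard_pair hz.ab])
          (Set.toFinite _)
        rintro i (h1 | h1)
        · rw [h1]; exact ha
        · rw [mem_singleton_iff] at h1; rw [h1]; exact hab.1 ha
      rw [this]; exact hB
    · exfalso
      have hb : b ∉ B := fun hb => ha (hab.2 hb)
      have hBef : B = {e, f} := by
        refine Set.eq_of_subset_of_ncard_le (fun i hi => ?_)
          (by rw [hB.cardA, Set.ncard_pair ef]) (Set.toFinite _)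
        have h1 := hB.sub hi
        rw [hTy] at h1
        rcases h1 with h1 | h1 | h1 | h1
        · exact absurd (h1 ▸ hi) ha
        · exact absurd (h1 ▸ hi) hb
        · left; exact h1
        · right; exact h1
      rw [hBef] at hB
      refine h.no_harm_contactL H.minF H.loc hz hyz hTy hall he hf hB
        (fun v hA _ => H.end3 hz.swap hA) fun w a' b' c' d' hD hyw => ?_
      have := H.two hD hyw hy4
      omega
  · left
    rcases hD.ways hTy (by simp [ab, ae, af, be, bf, ef]) with h1 | h1 | h1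
    · exact h1
    · exact (H.no_s4 hz h1 hyz).elim
    · exact (H.no_s4 hz h1 hyz).elim

/-- the four colours of a mixed contact -/
theorem card_mix (nd : [a, b, c, d, e, f].Nodup) : ({a, c, e, f} : Set (Fin 6)).ncard = 4 := by
  have hn := nd
  simp only [List.nodup_cons, List.mem_cons, List.not_mem_nil, or_false, not_or, List.nodup_nil,
    and_true, not_false_eq_true] at hn
  obtain ⟨⟨ab, ac, ad, ae, af⟩, ⟨bc, bd, be, bf⟩, ⟨cd, ce, cf⟩, ⟨de, df⟩, ef⟩ := hn
  rw [Set.ncard_insert_of_notMem, Set.ncard_insert_of_notMem, Set.ncard_pair ef]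
  · simp [ce, cf]
  · simp [ac, ae, af]

/-- **contacts with colours of both pairs of the centre** -/
theorem contact_mix (H : E3W U T) (hz : DPt T z a b c d) (nd : [a, b, c, d, e, f].Nodup)
    (hyz : dist y z = 1) (hTy : T y = {a, c, e, f}) : S5.H767.Fc T y {e, f} := by
  have h := H.irr
  have hy4 : (T y).ncard = 4 := by rw [hTy]; exact card_mix nd
  have hn := nd
  simp only [List.nodup_cons, List.mem_cons, List.not_mem_nil, or_false, not_or, List.nodup_nil,
    and_true, not_false_eq_true] at hn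
  obtain ⟨⟨ab, ac, ad, ae, af⟩, ⟨bc, bd, be, bf⟩, ⟨cd, ce, cf⟩, ⟨de, df⟩, ef⟩ := hn
  have hefy : ({e, f} : Set (Fin 6)) ⊆ T y := by
    rw [hTy]
    rintro i (h1 | h1)
    · right; right; left; exact h1
    · right; right; right; exact h1
  rcases H.cases hy4 with ⟨B, hB⟩ | ⟨p, q, r, s, hD⟩
  · intro w hw hws
    have h1 := (hB.h1 w hw (hws.trans hefy)).trans hws
    have h2 : B = {e, f} :=
      Set.eq_of_subset_of_ncard_le h1 (by rw [hB.cardA, Set.ncard_pair ef]) (Set.toFinite _)
    rw [h2] at hB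
    exact h.hmix_ne hz nd hyz hTy hB
  · rcases hD.ways hTy (by simp [ac, ae, af, ce, cf, ef]) with h1 | h1 | h1
    · exact (H.no_s4 h1 hz (by rw [dist_comm]; exact hyz)).elim
    · exact h1.face h hefy (pair_not_sub ae af) (pair_not_sub ce cf)
    · exact h1.face h hefy (pair_not_sub ae af) (pair_not_sub ce cf)

end E3W

/-- **one-sided colours**: the colours of `y` on `S(z)` absent on one side of `S(z)` near `y`; the
circle of a common neighbour `p` passes through this side -/
theorem Irr.side_flank (h : Irr U T) {z y p : ℂ} {P : Fin 6 → Prop} (hyz : dist y z = 1)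
    (hpz : dist p z = 1) (hpy : dist p y = 1)
    (hs : (∀ᶠ x in 𝓝 y, 1 < dist x z → ∀ i, P i → i ∉ T x) ∨
      ∀ᶠ x in 𝓝 y, dist x z < 1 → ∀ i, P i → i ∉ T x) :
    ∃ x, dist x p = 1 ∧ T x ⊆ T y ∧ ∀ i, P i → i ∉ T x := by
  obtain ⟨o1, o2⟩ : p ≠ z ∧ p + z ≠ 2 * y := by
    constructor
    · rintro rfl; rw [dist_self] at hpz; exact zero_ne_one hpz
    · intro h1
      have h2 : p - z = 2 * (y - z) := by linear_combination h1
      have h3 : dist p z = 2 := by
        rw [dist_eq_norm, h2, norm_mul, ← dist_eq_norm, hyz]; simp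
      rw [h3] at hpz; norm_num at hpz
  have hyp : dist y p = 1 := by rw [dist_comm]; exact hpy
  have hcr : cr (y - p) (z - y) ≠ 0 := by
    intro h0
    rcases cr_zero (by rw [← dist_eq_norm]; exact hyp)
      (by rw [← dist_eq_norm, dist_comm]; exact hyz) h0 with h1 | h1
    · exact o2 (by linear_combination -h1)
    · exact o1 (by linear_combination -h1)
  have e0 : 2 * y - (2 * y - p) = p := by ring
  have e1 : (2 * y - p) - y = y - p := by ring
  have hout : ∃ τ : ℝ, ∀ᶠ t : ℝ in 𝓝[>] 0, 1 < dist (p + (y - p) * cis (τ * t)) z := by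
    rcases lt_or_gt_of_ne hcr with h1 | h1
    · refine ⟨1, ?_⟩
      have := branch_out (z := y) (V := 2 * y - p) (g := z) (by rw [dist_comm]; exact hyz)
        (τ := 1) (by rw [e1]; linarith)
      rw [e0, e1] at this
      exact this
    · refine ⟨-1, ?_⟩
      have := branch_out (z := y) (V := 2 * y - p) (g := z) (by rw [dist_comm]; exact hyz)
        (τ := -1) (by rw [e1]; linarith)
      rw [e0, e1] at this
      exact this
  have hin : ∃ τ : ℝ, ∀ᶠ t : ℝ in 𝓝[>] 0, dist (p + (y - p) * cis (τ * t)) z < 1 := by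
    rcases lt_or_gt_of_ne hcr with h1 | h1
    · refine ⟨-1, ?_⟩
      have := branch_in (z := y) (V := 2 * y - p) (g := z) (by rw [dist_comm]; exact hyz)
        (τ := -1) (by rw [e1]; linarith)
      rw [e0, e1] at this
      exact this
    · refine ⟨1, ?_⟩
      have := branch_in (z := y) (V := 2 * y - p) (g := z) (by rw [dist_comm]; exact hyz)
        (τ := 1) (by rw [e1]; linarith)
      rw [e0, e1] at this
      exact this
  have hlim : ∀ τ : ℝ, Tendsto (fun t : ℝ => p + (y - p) * cis (τ * t)) (𝓝[>] 0) (𝓝 y) := by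
    intro τ
    have := tendsto_branch y (2 * y - p) τ
    rw [e0, e1] at this
    exact this
  rcases hs with hs | hs
  · obtain ⟨τ, hτ⟩ := hout
    obtain ⟨t, h1, h2, h3⟩ :=
      (hτ.and (((hlim τ).eventually hs).and ((hlim τ).eventually (h.nhd y)))).exists
    exact ⟨_, dist_arc hyp _, h3, h2 h1⟩
  · obtain ⟨τ, hτ⟩ := hin
    obtain ⟨t, h1, h2, h3⟩ :=
      (hτ.and (((hlim τ).eventually hs).and ((hlim τ).eventually (h.nhd y)))).exists
    exact ⟨_, dist_arc hyp _, h3, h2 h1⟩

namespace E3W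

/-- the palettes of `S(p)` at `y` on one side of `S(z)` -/
theorem one_side_fc (h : Irr U T) (nd : [a, b, c, d, e, f].Nodup)
    (hyz : dist y z = 1) (hTy : T y = {a, c, e, f}) (hpz : dist p z = 1) (hpy : dist p y = 1)
    (hs : (Sd U z y a b ∧ Sd U z y c d) ∨ (Sd U z y b a ∧ Sd U z y d c)) :
    ∃ x, dist x p = 1 ∧ T x ⊆ {e, f} := by
  have key : (∀ᶠ x in 𝓝 y, 1 < dist x z → ∀ i, (i = a ∨ i = c) → i ∉ T x) ∨
      ∀ᶠ x in 𝓝 y, dist x z < 1 → ∀ i, (i = a ∨ i = c) → i ∉ T x := by
    rcases hs with ⟨h1, h2⟩ | ⟨h1, h2⟩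
    · left
      filter_upwards [h1, h2] with x k1 k2 hx i hi hix
      rcases hi with rfl | rfl
      · exact k1.1 hx (h.sub _ hix)
      · exact k2.1 hx (h.sub _ hix)
    · right
      filter_upwards [h1, h2] with x k1 k2 hx i hi hix
      rcases hi with rfl | rfl
      · exact k1.2 hx (h.sub _ hix)
      · exact k2.2 hx (h.sub _ hix)
  obtain ⟨x, hx, hxy, hxi⟩ := h.side_flank hyz hpz hpy key
  refine ⟨x, hx, fun i hi => ?_⟩
  have h1 := hxy hi
  rw [hTy] at h1
  rcases h1 with h1 | h1 | h1 | h1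
  · exact absurd hi (hxi i (Or.inl h1))
  · exact absurd hi (hxi i (Or.inr h1))
  · left; exact h1
  · right; exact h1

/-- a flank of a harmless mixed contact with the pair `{a, c}` -/
theorem flank_ac (H : E3W U T) (hz : DPt T z a b c d) (nd : [a, b, c, d, e, f].Nodup)
    (hyz : dist y z = 1) (hTy : T y = {a, c, e, f}) (hy : Harm T y {a, c}) (hpz : dist p z = 1)
    (hpy : dist p y = 1) : b ∈ T p ∧ d ∈ T p ∧ ((Sd U z p a b ∧ Sd U z p d c) ∨
      (Sd U z p b a ∧ Sd U z p c d)) := by
  have h := H.irr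
  have hp4 : (T p).ncard = 4 := by
    have h1 := h.hmix_ac hz nd hyz hTy hy hpz hpy
    have h2 := H.le4 hz.card hpz
    omega
  obtain ⟨i, j, hij, hi, hj, hT⟩ := H.contact_pal hz nd hpz hp4
  have hn := nd
  simp only [List.nodup_cons, List.mem_cons, List.not_mem_nil, or_false, not_or, List.nodup_nil,
    and_true, not_false_eq_true] at hn
  obtain ⟨⟨ab, ac, ad, ae, af⟩, ⟨bc, bd, be, bf⟩, ⟨cd, ce, cf⟩, ⟨de, df⟩, ef⟩ := hn
  have ya : a ∈ T y := by rw [hTy]; simp
  have yc : c ∈ T y := by rw [hTy]; simp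
  have ye : e ∈ T y := by rw [hTy]; simp
  have yf : f ∈ T y := by rw [hTy]; simp
  -- the faces of `y`
  have F : ∀ {s : Set (Fin 6)}, s ⊆ T y → ¬ ({a, c} : Set (Fin 6)) ⊆ s → S5.H767.Fc T y s :=
    fun hs hn w hw hws => hn ((hy.h1 w hw (hws.trans hs)).trans hws)
  have fa : S5.H767.Fc T y {a, e, f} := F (by
    rintro m (h1 | h1 | h1)
    · rw [h1]; exact ya
    · rw [h1]; exact ye
    · rw [mem_singleton_iff] at h1; rw [h1]; exact yf) (fun h1 => by
      have h2 := h1 (show c ∈ ({a, c} : Set (Fin 6)) by simp)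
      simp [Ne.symm ac, ce, cf] at h2)
  have fc : S5.H767.Fc T y {c, e, f} := F (by
    rintro m (h1 | h1 | h1)
    · rw [h1]; exact yc
    · rw [h1]; exact ye
    · rw [mem_singleton_iff] at h1; rw [h1]; exact yf) (fun h1 => by
      have h2 := h1 (show a ∈ ({a, c} : Set (Fin 6)) by simp)
      simp [ac, ae, af] at h2)
  have key : ∀ {u t : Fin 6}, t ∈ T z → (u = a ∨ u = c) →
      T p ⊆ insert t ({u, e, f} : Set (Fin 6)) → False := by
    rintro u t ht (rfl | rfl) hs
    · exact lemmaFz h hpz hyz hpy fa hs ht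
    · exact lemmaFz h hpz hyz hpy fc hs ht
  have hu : ∀ u, (u = a ∨ u = c) → u ∉ T p := by
    intro u hu hup
    rw [hT] at hup
    have hue : u ≠ e ∧ u ≠ f := by
      rcases hu with rfl | rfl
      · exact ⟨ae, af⟩
      · exact ⟨ce, cf⟩
    rcases hup with h1 | h1 | h1 | h1
    · refine key hj hu ?_
      rw [hT, h1]
      intro m hm
      simp only [mem_insert_iff, mem_singleton_iff] at hm ⊢
      tauto
    · refine key hi hu ?_
      rw [hT, h1]
    · exact hue.1 h1
    · exact hue.2 h1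
  have hij' : (i = b ∧ j = d) ∨ (i = d ∧ j = b) := by
    have hip : i ∈ T p := by rw [hT]; simp
    have hjp : j ∈ T p := by rw [hT]; simp
    rw [hz.pal] at hi hj
    rcases hi with h1 | h1 | h1 | h1
    · exact absurd hip (hu i (Or.inl h1))
    · rcases hj with h2 | h2 | h2 | h2
      · exact absurd hjp (hu j (Or.inl h2))
      · exact absurd (h1.trans h2.symm) hij
      · exact absurd hjp (hu j (Or.inr h2))
      · exact Or.inl ⟨h1, h2⟩
    · exact absurd hip (hu i (Or.inr h1))
    · rcases hj with h2 | h2 | h2 | h2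
      · exact absurd hjp (hu j (Or.inl h2))
      · exact Or.inr ⟨h1, h2⟩
      · exact absurd hjp (hu j (Or.inr h2))
      · exact absurd (h1.trans h2.symm) hij
  have hTp : T p = {b, d, e, f} := by
    rcases hij' with ⟨rfl, rfl⟩ | ⟨rfl, rfl⟩
    · exact hT
    · rw [hT]; ext m; simp only [mem_insert_iff, mem_singleton_iff]; tauto
  have pb : b ∈ T p := by rw [hTp]; simp
  have pd : d ∈ T p := by rw [hTp]; simp
  refine ⟨pb, pd, ?_⟩
  have hfe : S5.H767.Fc T y {e, f} := F (by
    rintro m (h1 | h1)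
    · rw [h1]; exact ye
    · rw [mem_singleton_iff] at h1; rw [h1]; exact yf) (pair_not_sub ae af)
  have hyp : dist y p = 1 := by rw [dist_comm]; exact hpy
  have nd' : [b, a, d, c, e, f].Nodup := by
    simp [ac, ad, ae, af, bc, bd, be, bf, ce, cf, de, df, ef, Ne.symm ab, Ne.symm cd]
  rcases H.side hz.swap12.swap34 hpz hp4 pb pd with h1 | h1 | ⟨-, ⟨h1, h2⟩ | ⟨h1, h2⟩⟩
  · obtain ⟨x, hx, hxs⟩ := one_side_fc h nd' hpz hTp hyz hyp (Or.inl h1)
    exact (hfe x hx hxs).elim
  · obtain ⟨x, hx, hxs⟩ := one_side_fc h nd' hpz hTp hyz hyp (Or.inr h1)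
    exact (hfe x hx hxs).elim
  · exact Or.inr ⟨h1, h2⟩
  · exact Or.inl ⟨h1, h2⟩

/-- **a mixed contact is not harmless with the pair `{a, c}`** -/
theorem no_harm_ac (H : E3W U T) (hz : DPt T z a b c d) (nd : [a, b, c, d, e, f].Nodup)
    (hyz : dist y z = 1) (hTy : T y = {a, c, e, f}) (hy : Harm T y {a, c}) : False := by
  have h := H.irr
  obtain ⟨p, hpz, hpy⟩ := exists_flank hyz
  have hp'z : dist (y + z - p) z = 1 := by
    rw [dist_eq_norm, show y + z - p - z = y - p by ring, ← dist_eq_norm, dist_comm]; exact hpy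
  have hp'y : dist (y + z - p) y = 1 := by
    rw [dist_eq_norm, show y + z - p - y = z - p by ring, ← dist_eq_norm, dist_comm]; exact hpz
  obtain ⟨b1, d1, s1⟩ := H.flank_ac hz nd hyz hTy hy hpz hpy
  obtain ⟨b2, d2, s2⟩ := H.flank_ac hz nd hyz hTy hy hp'z hp'y
  have hne : y + z - p ≠ p := by
    intro h1
    have h2 : y - p = p - z := by linear_combination h1
    have h3 : y - z = 2 * (p - z) := by linear_combination h1
    have h4 : dist y z = 2 := by
      rw [dist_eq_norm, h3, norm_mul, ← dist_eq_norm, hpz]; simp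
    rw [h4] at hyz; norm_num at hyz
  have e1 := h.sub _ b1
  have e2 := h.sub _ d1
  have e3 := h.sub _ b2
  have e4 := h.sub _ d2
  rcases s1 with ⟨k1, k2⟩ | ⟨k1, k2⟩ <;> rcases s2 with ⟨m1, m2⟩ | ⟨m1, m2⟩
  · exact hne (h.lock_unique hz.swap34 hpz hp'z k1 k2 e1 e2 m1 m2 e3 e4)
  · exact h.lock_never hz.swap34 hpz hp'z k1 k2 e1 e2 m1 m2 e3 e4
  · exact h.lock_never hz.swap34 hp'z hpz m1 m2 e3 e4 k1 k2 e1 e2
  · exact hne (h.lock_unique hz.swap.swap34 hpz hp'z k2 k1 e2 e1 m2 m1 e4 e3)

/-- **no flank of a mixed contact carries `e` and `f` without `ef`-arcs** -/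
theorem mix_flank (H : E3W U T) (hz : DPt T z a b c d) (nd : [a, b, c, d, e, f].Nodup)
    (hyz : dist y z = 1) (hTy : T y = {a, c, e, f}) (hpz : dist p z = 1) (hpy : dist p y = 1)
    (hp : S5.H767.Fc T p {e, f}) : False := by
  have hy4 : (T y).ncard = 4 := by rw [hTy]; exact card_mix nd
  have ha : a ∈ T y := by rw [hTy]; simp
  have hc : c ∈ T y := by rw [hTy]; simp
  rcases H.side hz hyz hy4 ha hc with h1 | h1 | ⟨h1, -⟩
  · obtain ⟨x, hx, hxs⟩ := one_side_fc H.irr nd hyz hTy hpz hpy (Or.inl h1)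
    exact hp x hx hxs
  · obtain ⟨x, hx, hxs⟩ := one_side_fc H.irr nd hyz hTy hpz hpy (Or.inr h1)
    exact hp x hx hxs
  · exact H.no_harm_ac hz nd hyz hTy h1

end E3W

end Vale.Agent.P032.Six
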