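import Vale.Agent.P032.R2.H333.E3b
import Vale.Agent.P032.R2.H333.S3V

/-!
# P032: no contacts of type S3 in the world without stopped arcs

`E3W.no_lock`: a contact `{a, b, e, f}` of `z = {a b | c d}` is harmless with the pair `{a, b}`.
-/

open Set Filter Topology Metric

noncomputable section

namespace Vale.Agent.P032.Six

open S5.H767 (Ex ex_self dist_of_closure sub_of_closure line_free lemmaFz)

variable {U : Fin 6 → Set ℂ} {T : ℂ → Set (Fin 6)}

theorem nd_abefcd {a b c d e f : Fin 6} (nd : [a, b, c, d, e, f].Nodup) :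
    [a, b, e, f, c, d].Nodup := by
  simp only [List.nodup_cons, List.mem_cons, List.not_mem_nil, or_false, not_or, List.nodup_nil,
    and_true, not_false_eq_true] at nd ⊢
  obtain ⟨⟨ab, ac, ad, ae, af⟩, ⟨bc, bd, be, bf⟩, ⟨cd, ce, cf⟩, ⟨de, df⟩, ef⟩ := nd
  exact ⟨⟨ab, ae, af, ac, ad⟩, ⟨be, bf, bc, bd⟩, ⟨ef, Ne.symm ce, Ne.symm de⟩,
    ⟨Ne.symm cf, Ne.symm df⟩, cd⟩

theorem nd_cdabef {a b c d e f : Fin 6} (nd : [a, b, c, d, e, f].Nodup) :
    [c, d, a, b, e, f].Nodup := by
  simp only [List.nodup_cons, List.mem_cons, List.not_mem_nil, or_false, not_or, List.nodup_nil,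
    and_true, not_false_eq_true] at nd ⊢
  obtain ⟨⟨ab, ac, ad, ae, af⟩, ⟨bc, bd, be, bf⟩, ⟨cd, ce, cf⟩, ⟨de, df⟩, ef⟩ := nd
  exact ⟨⟨cd, Ne.symm ac, Ne.symm bc, ce, cf⟩, ⟨Ne.symm ad, Ne.symm bd, de, df⟩, ⟨ab, ae, af⟩,
    ⟨be, bf⟩, ef⟩

theorem nd_efabcd {a b c d e f : Fin 6} (nd : [a, b, c, d, e, f].Nodup) :
    [e, f, a, b, c, d].Nodup := nd_cdabef (nd_abefcd nd)

theorem nd_efcdab {a b c d e f : Fin 6} (nd : [a, b, c, d, e, f].Nodup) :
    [e, f, c, d, a, b].Nodup := nd_abefcd (nd_efabcd nd)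

theorem nd_bacdef {a b c d e f : Fin 6} (nd : [a, b, c, d, e, f].Nodup) :
    [b, a, c, d, e, f].Nodup := by
  simp only [List.nodup_cons, List.mem_cons, List.not_mem_nil, or_false, not_or, List.nodup_nil,
    and_true, not_false_eq_true] at nd ⊢
  obtain ⟨⟨ab, ac, ad, ae, af⟩, ⟨bc, bd, be, bf⟩, ⟨cd, ce, cf⟩, ⟨de, df⟩, ef⟩ := nd
  exact ⟨⟨Ne.symm ab, bc, bd, be, bf⟩, ⟨ac, ad, ae, af⟩, ⟨cd, ce, cf⟩, ⟨de, df⟩, ef⟩

theorem nd_abdcef {a b c d e f : Fin 6} (nd : [a, b, c, d, e, f].Nodup) :
    [a, b, d, c, e, f].Nodup := nd_cdabef (nd_bacdef (nd_cdabef nd))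

theorem nd_abcdfe {a b c d e f : Fin 6} (nd : [a, b, c, d, e, f].Nodup) :
    [a, b, c, d, f, e].Nodup := nd_abefcd (nd_abdcef (nd_abefcd nd))

namespace E3W

/-- the palette of a contact with two given common colours -/
theorem pal_two (H : E3W U T) {z y : ℂ} {a b c d e f i j : Fin 6} (hz : DPt T z a b c d)
    (nd : [a, b, c, d, e, f].Nodup) (hyz : dist y z = 1) (h4 : (T y).ncard = 4) (hi : i ∈ T y)
    (hj : j ∈ T y) (hij : i ≠ j) (hiz : i ∈ T z) (hjz : j ∈ T z) : T y = {i, j, e, f} := by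
  obtain ⟨i', j', -, h1, h2, hT⟩ := H.contact_pal hz nd hyz h4
  have hn := nd
  simp only [List.nodup_cons, List.mem_cons, List.not_mem_nil, or_false, not_or, List.nodup_nil,
    and_true, not_false_eq_true] at hn
  obtain ⟨⟨ab, ac, ad, ae, af⟩, ⟨bc, bd, be, bf⟩, ⟨cd, ce, cf⟩, ⟨de, df⟩, ef⟩ := hn
  have hez : e ∉ T z := by rw [hz.pal]; simp [Ne.symm ae, Ne.symm be, Ne.symm ce, Ne.symm de]
  have hfz : f ∉ T z := by rw [hz.pal]; simp [Ne.symm af, Ne.symm bf, Ne.symm cf, Ne.symm df]
  have key : ∀ m, m ∈ T y → m ∈ T z → m = i' ∨ m = j' := by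
    intro m hm hmz
    rw [hT] at hm
    rcases hm with h | h | h | h
    · exact Or.inl h
    · exact Or.inr h
    · exact absurd (h ▸ hmz) hez
    · rw [mem_singleton_iff] at h; exact absurd (h ▸ hmz) hfz
  rw [hT]
  rcases key i hi hiz with rfl | rfl <;> rcases key j hj hjz with rfl | rfl
  · exact absurd rfl hij
  · rfl
  · ext m; simp only [mem_insert_iff, mem_singleton_iff]; tauto
  · exact absurd rfl hij

end E3W

namespace Lock

variable {z y p : ℂ} {a b c d e f : Fin 6}

/-- on an exact `cd`-arc of `S(z)` the translate is exact -/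
theorem exact_trE (L : Lock T z y a b c d e f) (H : E3W U T) {p : ℂ} (hp : Arc T z p {c, d}) :
    T (y + p - z) = {a, b} ∨ T (y + p - z) = {e, f} := by
  have h := H.irr
  have hTp : T p = {c, d} := hp.mem
  have h1 : p ≠ y := by
    rintro rfl
    exact L.cy (by rw [hTp]; simp)
  have h2 : p + y ≠ 2 * z := by
    intro h2
    have e1 : 2 * z - y = p := by linear_combination -h2
    exact L.anti_cd h (by rw [e1]; exact h.sub _ (by rw [hTp]; simp))
      (by rw [e1]; exact h.sub _ (by rw [hTp]; simp))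
  have hc := h.prism833 hp L.d1 h1 h2 (i := c) (by simp)
  have hd := h.prism833 hp L.d1 h1 h2 (i := d) (by simp)
  exact H.inside L.hy (L.dist_tr hp.1).1
    (L.in_y (fun h5 => hc (h.sub _ h5)) fun h5 => hd (h.sub _ h5))

/-- on a whole arc the translated palette is constant -/
theorem const_trE (L : Lock T z y a b c d e f) (H : E3W U T) {p : ℂ} (hp : dist p z = 1)
    {l : ℝ} (hl : 0 < l) (harc : ∀ t ∈ Ioo 0 l, T (z + (p - z) * cis (-(1 * t))) = {c, d})
    (h0 : T p = {c, d}) (hep : T (y + p - z) = {e, f}) :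
    e ∈ T (y + (z + (p - z) * cis (-(1 * l))) - z) ∧
      f ∈ T (y + (z + (p - z) * cis (-(1 * l))) - z) := by
  have h := H.irr
  have hcont : Continuous fun t : ℝ => y + (z + (p - z) * cis (-(1 * t))) - z :=
    (continuous_const.add (continuous_rot z p 1)).sub continuous_const
  have hcd : ({c, d} : Set (Fin 6)).ncard = 2 := Set.ncard_pair L.hz.cd
  have hcdz : ({c, d} : Set (Fin 6)) ⊆ T z := by
    rintro i (rfl | hi)
    · exact L.cz
    · rw [mem_singleton_iff] at hi; rw [hi]; exact L.dz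
  have hdich : ∀ t ∈ Ico 0 l, T (y + (z + (p - z) * cis (-(1 * t))) - z) = {a, b} ∨
      T (y + (z + (p - z) * cis (-(1 * t))) - z) = {e, f} := by
    intro t ht
    have hT : T (z + (p - z) * cis (-(1 * t))) = {c, d} := by
      rcases eq_or_lt_of_le ht.1 with h1 | h1
      · rw [← h1, mul_zero, neg_zero, cis_zero394, mul_one, add_sub_cancel]; exact h0
      · exact harc t ⟨h1, ht.2⟩
    exact L.exact_trE H ⟨dist_rot hp _, h.pair_open hcd hcdz hT.subset⟩
  obtain ⟨⟨ab, ac, ad, ae, af⟩, ⟨bc, bd, be, bf⟩, ⟨cd, ce, cf⟩, ⟨de, df⟩, ef⟩ := L.ne_all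
  have hpre : IsPreconnected (Ico (0 : ℝ) l) := isPreconnected_Ico
  have hsub := isPreconnected_iff_subset_of_disjoint_closed.1 hpre
    {t | a ∈ T (y + (z + (p - z) * cis (-(1 * t))) - z)}
    {t | e ∈ T (y + (z + (p - z) * cis (-(1 * t))) - z)}
    ((h.closed a).preimage hcont) ((h.closed e).preimage hcont)
    (fun t ht => by
      rcases hdich t ht with h1 | h1
      · left; show a ∈ T (y + (z + (p - z) * cis (-(1 * t))) - z); rw [h1]; simp
      · right; show e ∈ T (y + (z + (p - z) * cis (-(1 * t))) - z); rw [h1]; simp)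
    (by
      rw [Set.eq_empty_iff_forall_notMem]
      rintro t ⟨ht, h1, h2⟩
      have h1 : a ∈ T (y + (z + (p - z) * cis (-(1 * t))) - z) := h1
      have h2 : e ∈ T (y + (z + (p - z) * cis (-(1 * t))) - z) := h2
      rcases hdich t ht with h3 | h3
      · rw [h3] at h2; simp [ae.symm, be.symm] at h2
      · rw [h3] at h1; simp [ae, af] at h1)
  have hall : ∀ t ∈ Ico 0 l, T (y + (z + (p - z) * cis (-(1 * t))) - z) = {e, f} := by
    have h00 : a ∉ T (y + (z + (p - z) * cis (-(1 * (0 : ℝ)))) - z) := by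
      rw [mul_zero, neg_zero, cis_zero394, mul_one, add_sub_cancel, hep]
      simp [ae, af]
    intro t ht
    rcases hsub with h1 | h1
    · exact absurd (h1 ⟨le_rfl, hl⟩) h00
    · have h2 : e ∈ T (y + (z + (p - z) * cis (-(1 * t))) - z) := h1 ht
      rcases hdich t ht with h3 | h3
      · rw [h3] at h2; simp [ae.symm, be.symm] at h2
      · exact h3
  have hmem : ∀ i : Fin 6, (∀ t ∈ Ico 0 l, i ∈ T (y + (z + (p - z) * cis (-(1 * t))) - z)) →
      i ∈ T (y + (z + (p - z) * cis (-(1 * l))) - z) := by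
    intro i hi
    have h1 : IsClosed {t : ℝ | i ∈ T (y + (z + (p - z) * cis (-(1 * t))) - z)} :=
      (h.closed i).preimage hcont
    have h2 : closure (Ico 0 l) ⊆ {t : ℝ | i ∈ T (y + (z + (p - z) * cis (-(1 * t))) - z)} :=
      closure_minimal hi h1
    rw [closure_Ico hl.ne] at h2
    exact h2 ⟨hl.le, le_rfl⟩
  exact ⟨hmem e fun t ht => by rw [hall t ht]; simp, hmem f fun t ht => by rw [hall t ht]; simp⟩

/-- the tie at the end of a `cd`-arc -/
theorem no_tieE (L : Lock T z y a b c d e f) (H : E3W U T) {q : ℂ} (hA : Acc T z {c, d} q)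
    (hss : {c, d} ⊂ T q) (he : e ∈ T (y + q - z)) (hf : f ∈ T (y + q - z)) : False := by
  have h := H.irr
  obtain ⟨⟨ab, ac, ad, ae, af⟩, ⟨bc, bd, be, bf⟩, ⟨cd, ce, cf⟩, ⟨de, df⟩, ef⟩ := L.ne_all
  have hq3 : (T q).ncard ≤ 3 := H.end3 L.hz.swap hA
  obtain ⟨x, hx, hTq⟩ := h.third L.hz.swap hA.dist hq3 hss
  have hqy : q ≠ y := by
    rintro rfl
    exact L.cy (by rw [hTq]; simp)
  have hanti : q + y ≠ 2 * z := by
    intro h2
    have e1 : 2 * z - y = q := by linear_combination -h2
    exact L.anti_cd h (by rw [e1]; exact h.sub _ (by rw [hTq]; simp))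
      (by rw [e1]; exact h.sub _ (by rw [hTq]; simp))
  have hxef : x = e ∨ x = f := by
    rcases L.all x with h1 | h1 | h1 | h1 | h1 | h1
    · exact absurd (h1 ▸ L.az) hx
    · exact absurd (h1 ▸ L.bz) hx
    · exact absurd (h1 ▸ L.cz) hx
    · exact absurd (h1 ▸ L.dz) hx
    · exact Or.inl h1
    · exact Or.inr h1
  obtain ⟨w, hw⟩ : ∃ w, w = y + q - z := ⟨_, rfl⟩
  rw [← hw] at he hf
  have hwy : dist w y = 1 := by rw [hw]; exact (L.dist_tr hA.dist).1
  have hwq : dist w q = 1 := by rw [hw]; exact (L.dist_tr hA.dist).2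
  have hefw : ({e, f} : Set (Fin 6)) ⊆ T w := by
    rintro i (rfl | hi)
    · exact he
    · rw [mem_singleton_iff] at hi; rw [hi]; exact hf
  have hxw : x ∈ T w := by
    rcases hxef with rfl | rfl
    · exact he
    · exact hf
  by_cases hin : T w ⊆ T y
  · -- `w` is exact
    have hTw : T w = {e, f} := by
      rcases H.inside L.hy hwy hin with h1 | h1
      · rw [h1] at he; simp [ae.symm, be.symm] at he
      · exact h1
    have hefy : ({e, f} : Set (Fin 6)) ⊆ T y := by rw [← hTw]; exact hin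
    have harc : Arc T y w {e, f} :=
      ⟨hwy, h.pair_open (Set.ncard_pair ef) hefy hTw.subset⟩
    have hxq : x ∈ Pal U q := h.sub _ (by rw [hTq]; simp)
    have hzy : dist z y = 1 := L.symm.d1
    refine h.prism833 harc hzy (p := w) ?_ ?_ (i := x) (by rcases hxef with rfl | rfl <;> simp) ?_
    · intro h1
      exact hanti (by rw [hw] at h1; linear_combination h1)
    · intro h1
      exact hqy (by rw [hw] at h1; linear_combination h1)
    · have e2 : z + w - y = q := by rw [hw]; ring
      rw [e2]; exact hxq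
  · -- a colour `g ∈ {c, d}` at `w`
    obtain ⟨g, hgw, hgy⟩ := Set.not_subset.1 hin
    have hgcd : g = c ∨ g = d := by
      rcases L.all g with h1 | h1 | h1 | h1 | h1 | h1
      · exact absurd (h1 ▸ L.ay) hgy
      · exact absurd (h1 ▸ L.by') hgy
      · exact Or.inl h1
      · exact Or.inr h1
      · exact absurd (h1 ▸ L.ey) hgy
      · exact absurd (h1 ▸ L.fy) hgy
    rcases Nat.lt_or_ge (T w).ncard 4 with hlt | hge
    · -- three colours
      have key : ∀ g', T q ⊆ insert g' (T w) → g' ∈ T z → False := by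
        intro g' hs hgz
        rcases h.lemmaX (by rw [dist_comm]; exact hwq) (by omega) hs hA.dist (h.sub _ hgz)
          with h1 | h1
        · have : e ∈ T z := by rw [h1]; exact he
          exact L.ez this
        · exact hqy (by rw [hw] at h1; linear_combination -h1)
      rcases hgcd with rfl | rfl
      · refine key d ?_ L.dz
        rw [hTq]
        rintro i (rfl | rfl | hi)
        · exact Or.inr hgw
        · exact Or.inl rfl
        · rw [mem_singleton_iff] at hi; rw [hi]; exact Or.inr hxw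
      · refine key c ?_ L.cz
        rw [hTq]
        rintro i (rfl | rfl | hi)
        · exact Or.inl rfl
        · exact Or.inr hgw
        · rw [mem_singleton_iff] at hi; rw [hi]; exact Or.inr hxw
    · -- four colours
      have hw4 : (T w).ncard = 4 := by have := H.le4 L.hy.card hwy; omega
      have hq3' : (T q).ncard = 3 := by
        rw [hTq]
        refine Set.ncard_eq_three.2 ⟨c, d, x, cd, ?_, ?_, rfl⟩
        · rcases hxef with rfl | rfl
          · exact ce
          · exact cf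
        · rcases hxef with rfl | rfl
          · exact de
          · exact df
      have hTw : T w = {e, f, c, d} :=
        H.pal_two L.hy (nd_abefcd L.nd) hwy hw4 he hf ef L.ey L.fy
      have hqw : T q ⊆ T w := by
        rw [hTq, hTw]
        rintro i (rfl | rfl | hi)
        · simp
        · simp
        · rw [mem_singleton_iff] at hi
          rcases hxef with h1 | h1 <;> rw [hi, h1] <;> simp
      rcases H.contact_ab L.hy.swap (nd_efabcd L.nd) hwy hTw with hD | hH
      · rcases H.inside hD (by rw [dist_comm]; exact hwq) hqw with h5 | h5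
        · rw [h5, Set.ncard_pair hD.ab] at hq3'; omega
        · rw [h5, Set.ncard_pair hD.cd] at hq3'; omega
      · have h5 := hH.h1 q (by rw [dist_comm]; exact hwq) hqw
        have h6 : e ∈ T q := h5 (by simp)
        have h7 : f ∈ T q := h5 (by simp)
        rw [hTq] at h6 h7
        simp only [mem_insert_iff, mem_singleton_iff, ce.symm, cf.symm, de.symm, df.symm,
          false_or] at h6 h7
        exact ef (h6.trans h7.symm)

/-- **RULE R**: on an exact `cd`-arc of `S(z)` the translate to `S(y)` is exactly `{a, b}` -/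
theorem ruleE (L : Lock T z y a b c d e f) (H : E3W U T) {p : ℂ} (hp : Arc T z p {c, d}) :
    T (y + p - z) = {a, b} := by
  have h := H.irr
  rcases L.exact_trE H hp with h1 | h1
  · exact h1
  · exfalso
    have hcdz : ({c, d} : Set (Fin 6)) ⊆ T z := by
      rintro i (rfl | hi)
      · exact L.cz
      · rw [mem_singleton_iff] at hi; rw [hi]; exact L.dz
    obtain ⟨l, hl0, -, hlt, hss, hA⟩ := h.arc_side (o := 1) (Or.inl rfl)
      (Set.ncard_pair L.hz.cd) hcdz hp.1 hp.mem
    obtain ⟨he, hf⟩ := L.const_trE H hp.1 hl0 hlt hp.mem h1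
    exact L.no_tieE H hA hss he hf

/-- a flank is not a limit of exact `ab`-arcs of `S(z)` -/
theorem not_abE (L : Lock T z y a b c d e f) (H : E3W U T) (hz : dist p z = 1)
    (hy : dist p y = 1) : p ∉ closure (Ex T z {a, b}) := by
  intro hp
  have h := H.irr
  have hab := sub_of_closure h hp
  have haz : ({a, b} : Set (Fin 6)) ⊆ T z := by
    rintro i (rfl | hi)
    · exact L.az
    · rw [mem_singleton_iff] at hi; rw [hi]; exact L.bz
  obtain ⟨o1, o2⟩ := L.off hz
  by_cases hsub : T p ⊆ {a, b}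
  · have harc := h.pair_open (Set.ncard_pair L.hz.ab) haz hsub
    exact line_free h hz (t := a) (harc.mono fun q hq => by rw [hq]; simp) hy o1 o2
      (h.sub _ L.ay)
  · have hss : {a, b} ⊂ T p := ⟨hab, hsub⟩
    have h3 := H.end3 L.hz (acc_of_closure hp)
    obtain ⟨g, hg, hTp⟩ := h.third L.hz hz h3 hss
    have hcp : c ∉ T p := by
      rw [hTp]
      rintro (h1 | h1 | h1)
      · exact L.hz.ac h1.symm
      · exact L.hz.bc h1.symm
      · exact hg (by rw [← h1]; exact L.cz)
    have hdp : d ∉ T p := by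
      rw [hTp]
      rintro (h1 | h1 | h1)
      · exact L.hz.ad h1.symm
      · exact L.hz.bd h1.symm
      · exact hg (by rw [← h1]; exact L.dz)
    rcases H.inside L.hy hy (L.in_y hcp hdp) with h1 | h1
    · exact hsub h1.subset
    · have : a ∈ T p := hab (by simp)
      rw [h1] at this
      obtain ⟨⟨ab, ac, ad, ae, af⟩, -⟩ := L.ne_all
      simp [ae, af] at this

/-- **dichotomy at a flank** -/
theorem dichE (L : Lock T z y a b c d e f) (H : E3W U T) (hz : dist p z = 1)
    (hy : dist p y = 1) : p ∈ closure (Ex T z {c, d}) ∨ (e ∈ T p ∧ f ∈ T p) := by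
  by_contra hcon
  push Not at hcon
  obtain ⟨hcd, hef⟩ := hcon
  have h := H.irr
  have hab := L.not_abE H hz hy
  have C := S5.H767.ctr_of_dpt h L.hz L.nd
  obtain ⟨o1, o2⟩ := L.off hz
  have h1 : ∀ᶠ q in 𝓝[sphere z 1] p, q ∉ closure (Ex T z {a, b}) :=
    mem_nhdsWithin_of_mem_nhds (isClosed_closure.isOpen_compl.mem_nhds hab)
  have h2 : ∀ᶠ q in 𝓝[sphere z 1] p, q ∉ closure (Ex T z {c, d}) :=
    mem_nhdsWithin_of_mem_nhds (isClosed_closure.isOpen_compl.mem_nhds hcd)
  by_cases he : e ∈ T p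
  · have hf := hef he
    have h3 : ∀ᶠ q in 𝓝[sphere z 1] p, f ∉ T q :=
      mem_nhdsWithin_of_mem_nhds ((h.closed f).isOpen_compl.mem_nhds hf)
    refine line_free h hz (t := e) ?_ hy o1 o2 (h.sub _ L.ey)
    filter_upwards [h1, h2, h3, self_mem_nhdsWithin] with q k1 k2 k3 k4
    obtain ⟨l, hl⟩ := C.cover (y := q) k4
    fin_cases l
    · exact hl.2
    · exact absurd hl.2 k3
    · exact absurd hl k1
    · exact absurd hl k2
  · have h3 : ∀ᶠ q in 𝓝[sphere z 1] p, e ∉ T q :=
      mem_nhdsWithin_of_mem_nhds ((h.closed e).isOpen_compl.mem_nhds he)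
    refine line_free h hz (t := f) ?_ hy o1 o2 (h.sub _ L.fy)
    filter_upwards [h1, h2, h3, self_mem_nhdsWithin] with q k1 k2 k3 k4
    obtain ⟨l, hl⟩ := C.cover (y := q) k4
    fin_cases l
    · exact absurd hl.2 k3
    · exact hl.2
    · exact absurd hl k1
    · exact absurd hl k2

/-- the translate of a limit of exact `ef`-arcs of `S(y)` -/
theorem tr_accE (L : Lock T z y a b c d e f) (H : E3W U T) (hp : p ∈ closure (Ex T y {e, f})) :
    z + p - y ∈ closure (Ex T z {a, b}) := by
  have h := H.irr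
  rw [mem_closure_iff_nhds]
  intro V hV
  have hcont : Tendsto (fun q : ℂ => z + q - y) (𝓝 p) (𝓝 (z + p - y)) := by
    have : Continuous fun q : ℂ => z + q - y := by fun_prop
    exact this.tendsto p
  obtain ⟨q, hqV, hq⟩ := mem_closure_iff_nhds.1 hp _ (hcont hV)
  have hT : T (z + q - y) = {a, b} := L.symm.ruleE H hq
  have hd : dist (z + q - y) z = 1 := (L.symm.dist_tr hq.1).1
  have haz : ({a, b} : Set (Fin 6)) ⊆ T z := by
    rintro i (rfl | hi)
    · exact L.az
    · rw [mem_singleton_iff] at hi; rw [hi]; exact L.bz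
  exact ⟨z + q - y, hqV, hd, h.pair_open (Set.ncard_pair L.hz.ab) haz hT.subset⟩

/-- a limit of exact `ef`-arcs of `S(y)`: the other flank has not both `c, d` -/
theorem not_cdE1 (L : Lock T z y a b c d e f) (H : E3W U T) (hp : p ∈ closure (Ex T y {e, f}))
    (hc : c ∈ Pal U (y + z - p)) (hd : d ∈ Pal U (y + z - p)) : False := by
  have h := H.irr
  have h1 := L.tr_accE H hp
  have h2 := sub_of_closure h h1
  have e1 : 2 * z - (z + p - y) = y + z - p := by ring
  exact h.anti L.hz (dist_of_closure h1) (h.sub _ (h2 (by simp))) (h.sub _ (h2 (by simp)))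
    (by rw [e1]; exact hc) (by rw [e1]; exact hd)

/-- ... and is a limit of exact `ef`-arcs too -/
theorem efE1 (L : Lock T z y a b c d e f) (H : E3W U T) (hz : dist p z = 1) (hy : dist p y = 1)
    (hp : p ∈ closure (Ex T y {e, f})) : y + z - p ∈ closure (Ex T y {e, f}) := by
  have h := H.irr
  obtain ⟨g1, g2⟩ := L.flank' hz hy
  rcases L.symm.dichE H g2 g1 with h1 | ⟨h1, h2⟩
  · exact h1
  · exact (L.not_cdE1 H hp (h.sub _ h1) (h.sub _ h2)).elim

/-- ... and the flank itself has not both `c, d` -/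
theorem not_cdE (L : Lock T z y a b c d e f) (H : E3W U T) (hz : dist p z = 1)
    (hy : dist p y = 1) (hp : p ∈ closure (Ex T y {e, f})) (hc : c ∈ Pal U p)
    (hd : d ∈ Pal U p) : False := by
  have h1 := L.efE1 H hz hy hp
  have e1 : y + z - (y + z - p) = p := by ring
  exact L.not_cdE1 H h1 (by rw [e1]; exact hc) (by rw [e1]; exact hd)

/-- if one flank is `{c, d, e, f}` then so is the other one -/
theorem t1_stepE (L : Lock T z y a b c d e f) (H : E3W U T) (hz : dist p z = 1)
    (hy : dist p y = 1) (hc : c ∈ T p) (hd : d ∈ T p) (he : e ∈ T p) (hf : f ∈ T p) :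
    (c ∈ T (y + z - p) ∧ d ∈ T (y + z - p)) ∧ e ∈ T (y + z - p) ∧ f ∈ T (y + z - p) := by
  have h := H.irr
  obtain ⟨g1, g2⟩ := L.flank' hz hy
  have e1 : y + z - (y + z - p) = p := by ring
  have e2 : z + y - (y + z - p) = p := by ring
  constructor
  · rcases L.symm.dichE H g2 g1 with h1 | h1
    · have h2 := L.efE1 H g1 g2 h1
      rw [e1] at h2
      exact (L.not_cdE H hz hy h2 (h.sub _ hc) (h.sub _ hd)).elim
    · exact h1
  · rcases L.dichE H g1 g2 with h1 | h1
    · have h2 := L.symm.efE1 H g2 g1 h1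
      rw [e2] at h2
      exact (L.symm.not_cdE H hy hz h2 (h.sub _ he) (h.sub _ hf)).elim
    · exact h1

end Lock

/-- a common contact of two hubs `{ab|cd}`, `{cd|ef}` with palette `{a, b, e, f}` is a two-pair
point -/
theorem E3W.lock2 (H : E3W U T) {z p w : ℂ} {a b c d e f : Fin 6} (hz : DPt T z a b c d)
    (hp : DPt T p e f c d) (hwz : dist w z = 1) (hwp : dist w p = 1)
    (nd : [a, b, c, d, e, f].Nodup) (ha : a ∈ T w) (hb : b ∈ T w) (he : e ∈ T w) (hf : f ∈ T w) :
    Lock T z w a b c d e f := by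
  have hn := nd
  simp only [List.nodup_cons, List.mem_cons, List.not_mem_nil, or_false, not_or, List.nodup_nil,
    and_true, not_false_eq_true] at hn
  obtain ⟨⟨ab, ac, ad, ae, af⟩, ⟨bc, bd, be, bf⟩, ⟨cd, ce, cf⟩, ⟨de, df⟩, ef⟩ := hn
  have hs : ({a, b, e, f} : Set (Fin 6)) ⊆ T w := by
    rintro i (rfl | rfl | rfl | hi)
    · exact ha
    · exact hb
    · exact he
    · rw [mem_singleton_iff] at hi; rw [hi]; exact hf
  have hc : ({a, b, e, f} : Set (Fin 6)).ncard = 4 := by
    rw [Set.ncard_insert_of_notMem, Set.ncard_insert_of_notMem, Set.ncard_pair ef]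
    · simp [be, bf]
    · simp [ab, ae, af]
  have h4 := H.le4 hz.card hwz
  have hT : T w = {a, b, e, f} :=
    (Set.eq_of_subset_of_ncard_le hs (by omega) (Set.toFinite _)).symm
  have hT' : T w = {e, f, a, b} := by
    rw [hT]; ext i; simp only [mem_insert_iff, mem_singleton_iff]; tauto
  rcases H.contact_ab hz nd hwz hT with hD | hH
  · exact ⟨hz, hD, hwz, nd⟩
  · rcases H.contact_ab hp (nd_efcdab nd) hwp hT' with hD | hH'
    · exact ⟨hz, hD.swap, hwz, nd⟩
    · exfalso
      obtain ⟨q, hq, hqT⟩ := hH.arc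
      have h1 : T q = {a, b} := hqT.self_of_nhdsWithin hq
      have h2 := hH'.h1 q hq (by rw [h1]; rintro i (rfl | hi)
                                 · exact ha
                                 · rw [mem_singleton_iff] at hi; rw [hi]; exact hb)
      rw [h1] at h2
      rcases h2 (show e ∈ ({e, f} : Set (Fin 6)) by simp) with h3 | h3
      · exact ae h3.symm
      · exact be h3.symm

namespace Lock

variable {z y p : ℂ} {a b c d e f : Fin 6}

/-- **no flank has the four colours `c, d, e, f`** -/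
theorem no_t1E (L : Lock T z y a b c d e f) (H : E3W U T) (hz : dist p z = 1)
    (hy : dist p y = 1) (hc : c ∈ T p) (hd : d ∈ T p) (he : e ∈ T p) (hf : f ∈ T p) : False := by
  have h := H.irr
  -- the pair `z, p` with flank `y`
  have L2 : Lock T z p c d a b e f :=
    H.lock2 (p := y) L.hz.swap L.hy.swap hz hy L.nd_cdab hc hd he hf
  have hyp : dist y p = 1 := by rw [dist_comm]; exact hy
  obtain ⟨⟨k1, k2⟩, k3, k4⟩ := L2.t1_stepE H (p := y) L.d1 hyp L.ay L.by' L.ey L.fy
  obtain ⟨g1, g2⟩ := L2.flank' (p := y) L.d1 hyp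
  have L3 : Lock T z (p + z - y) a b c d e f :=
    H.lock2 (p := p) L.hz L2.hy.swap g1 g2 L.nd k1 k2 k3 k4
  obtain ⟨⟨m1, m2⟩, -⟩ := L3.t1_stepE H (p := p) hz (by rw [dist_comm]; exact g2) hc hd he hf
  have e1 : p + z - y + z - p = 2 * z - y := by ring
  rw [e1] at m1 m2
  exact L.anti_cd h (h.sub _ m1) (h.sub _ m2)

/-- **no flank carries both `e` and `f`** -/
theorem no_swappedE (L : Lock T z y a b c d e f) (H : E3W U T) (hz : dist p z = 1)
    (hy : dist p y = 1) (he : e ∈ T p) (hf : f ∈ T p) : False := by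
  have h := H.irr
  obtain ⟨⟨ab, ac, ad, ae, af⟩, ⟨bc, bd, be, bf⟩, ⟨cd, ce, cf⟩, ⟨de, df⟩, ef⟩ := L.ne_all
  obtain ⟨g0, hg0⟩ := L.hz.arc2
  obtain ⟨g, hg, g1, g2, g3, g4⟩ := hg0.exists_off_two (y := p) (y' := y + z - p)
  have hu : T (y + g - z) = {a, b} := L.ruleE H hg
  have huy : dist (y + g - z) y = 1 := (L.dist_tr hg.1).1
  have haby : ({a, b} : Set (Fin 6)) ⊆ T y := by
    rintro i (rfl | hi)
    · exact L.ay
    · rw [mem_singleton_iff] at hi; rw [hi]; exact L.by'
  have hua : Arc T y (y + g - z) {a, b} :=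
    ⟨huy, h.pair_open (Set.ncard_pair ab) haby hu.subset⟩
  obtain ⟨w, hw⟩ : ∃ w, w = p + g - z := ⟨_, rfl⟩
  have hwp : dist w p = 1 := by
    rw [hw, dist_eq_norm, show p + g - z - p = g - z by ring, ← dist_eq_norm]; exact hg.1
  have hcd : ∀ i ∈ ({c, d} : Set (Fin 6)), i ∉ T w := by
    intro i hi h5
    exact h.prism833 hg hz g1 g2 hi (by rw [← hw]; exact h.sub _ h5)
  have hab : ∀ i ∈ ({a, b} : Set (Fin 6)), i ∉ T w := by
    intro i hi h5
    refine h.prism833 (z := y) (y := p) hua hy (fun h1 => g4 ?_) (fun h1 => g3 ?_) hi ?_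
    · linear_combination h1
    · linear_combination h1
    · rw [show p + (y + g - z) - y = w by rw [hw]; ring]
      exact h.sub _ h5
  have hsub : T w ⊆ {e, f} := by
    intro i hi
    rcases L.all i with rfl | rfl | rfl | rfl | rfl | rfl
    · exact absurd hi (hab _ (by simp))
    · exact absurd hi (hab _ (by simp))
    · exact absurd hi (hcd _ (by simp))
    · exact absurd hi (hcd _ (by simp))
    · simp
    · simp
  have hwTp : T w ⊆ T p := by
    intro i hi
    rcases hsub hi with rfl | h1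
    · exact he
    · rw [mem_singleton_iff] at h1; rw [h1]; exact hf
  rcases Nat.lt_or_ge (T p).ncard 4 with hlt | hge
  · exact h.not_sub hwp (by omega) hwTp
  · have hp4 : (T p).ncard = 4 := by have := H.le4 L.hz.card hz; omega
    have hTp : T p = {e, f, c, d} :=
      H.pal_two L.hy (nd_abefcd L.nd) hy hp4 he hf ef L.ey L.fy
    exact L.no_t1E H hz hy (by rw [hTp]; simp) (by rw [hTp]; simp) he hf

/-- **there are no contacts of type S3** -/
theorem falseE1 (L : Lock T z y a b c d e f) (H : E3W U T) (hz : dist p z = 1)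
    (hy : dist p y = 1) : False := by
  rcases L.dichE H hz hy with h1 | ⟨he, hf⟩
  · have h2 := sub_of_closure H.irr h1
    exact L.symm.no_swappedE H hy hz (h2 (by simp)) (h2 (by simp))
  · exact L.no_swappedE H hz hy he hf

end Lock

namespace E3W

variable {z y p : ℂ} {a b c d e f : Fin 6}

/-- **contacts with one pair of the centre are harmless** -/
theorem harm_ab (H : E3W U T) (hz : DPt T z a b c d) (nd : [a, b, c, d, e, f].Nodup)
    (hyz : dist y z = 1) (hTy : T y = {a, b, e, f}) : Harm T y {a, b} := by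
  rcases H.contact_ab hz nd hyz hTy with hD | hH
  · exfalso
    obtain ⟨p, hpz, hpy⟩ := exists_flank hyz
    exact (show Lock T z y a b c d e f from ⟨hz, hD, hyz, nd⟩).falseE1 H hpz hpy
  · exact hH

end E3W

end Vale.Agent.P032.Six
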