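import Vale.Agent.P032.R2.H333.E3c

/-!
# P032: the word of a two-pair point in the world without stopped arcs

`E3W.kinds`: the four-coloured points of the circle of `z = {a b | c d}` are harmless with one of the
pairs of `z` or mixed; `E3W.fc_ef`: no palette of their circles is inside `{e, f}`;
`E3W.rawM`: the word of `z` satisfies all rules but the triple contact.
-/

open Set Filter Topology Metric

noncomputable section

namespace Vale.Agent.P032.Six

open S5.H767 (Ex ex_self dist_of_closure sub_of_closure line_free lemmaFz)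

variable {U : Fin 6 → Set ℂ} {T : ℂ → Set (Fin 6)} {z y p : ℂ} {a b c d e f : Fin 6}

namespace E3W

/-- **the four-coloured points of the circle of a two-pair point** -/
theorem kinds (H : E3W U T) (hz : DPt T z a b c d) (nd : [a, b, c, d, e, f].Nodup)
    (hyz : dist y z = 1) (h4 : (T y).ncard = 4) :
    (T y = {a, b, e, f} ∧ Harm T y {a, b}) ∨ (T y = {c, d, e, f} ∧ Harm T y {c, d}) ∨
      ∃ a' b' c' d', DPt T z a' b' c' d' ∧ [a', b', c', d', e, f].Nodup ∧ T y = {a', c', e, f} ∧
        ({a, b} : Set (Fin 6)) = {a', b'} ∧ ({c, d} : Set (Fin 6)) = {c', d'} := by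
  obtain ⟨i, j, hij, hi, hj, hT⟩ := H.contact_pal hz nd hyz h4
  have hcomm : ∀ {u v : Fin 6}, ({u, v, e, f} : Set (Fin 6)) = {v, u, e, f} := by
    intro u v; ext m; simp only [mem_insert_iff, mem_singleton_iff]; tauto
  have key : ∀ {i j : Fin 6}, (i = a ∨ i = b) → (j = c ∨ j = d) → T y = {i, j, e, f} →
      ∃ a' b' c' d', DPt T z a' b' c' d' ∧ [a', b', c', d', e, f].Nodup ∧ T y = {a', c', e, f} ∧
        ({a, b} : Set (Fin 6)) = {a', b'} ∧ ({c, d} : Set (Fin 6)) = {c', d'} := by
    rintro i j (rfl | rfl) (rfl | rfl) hT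
    · exact ⟨_, _, _, _, hz, nd, hT, rfl, rfl⟩
    · exact ⟨_, _, _, _, hz.swap34, nd_abdcef nd, hT, rfl, pair_comm _ _⟩
    · exact ⟨_, _, _, _, hz.swap12, nd_bacdef nd, hT, pair_comm _ _, rfl⟩
    · exact ⟨_, _, _, _, hz.swap12.swap34, nd_abdcef (nd_bacdef nd), hT, pair_comm _ _,
        pair_comm _ _⟩
  have kab : T y = {a, b, e, f} → Harm T y {a, b} := fun h => H.harm_ab hz nd hyz h
  have kcd : T y = {c, d, e, f} → Harm T y {c, d} := fun h => H.harm_ab hz.swap (nd_cdabef nd) hyz h
  rw [hz.pal] at hi hj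
  rcases hi with hi | hi | hi | hi <;> rcases hj with hj | hj | hj | hj <;>
    first
    | exact absurd (hi.trans hj.symm) hij
    | (left; rw [hi, hj] at hT; exact ⟨hT, kab hT⟩)
    | (left; rw [hi, hj, hcomm] at hT; exact ⟨hT, kab hT⟩)
    | (right; left; rw [hi, hj] at hT; exact ⟨hT, kcd hT⟩)
    | (right; left; rw [hi, hj, hcomm] at hT; exact ⟨hT, kcd hT⟩)
    | (right; right; exact key (by first | exact Or.inl hi | exact Or.inr hi)
        (by first | exact Or.inl hj | exact Or.inr hj) hT)
    | (right; right; rw [hcomm] at hT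
       exact key (by first | exact Or.inl hj | exact Or.inr hj)
        (by first | exact Or.inl hi | exact Or.inr hi) hT)

/-- **no palette of the circle of a four-coloured contact is inside the missing colours** -/
theorem fc_ef (H : E3W U T) (hz : DPt T z a b c d) (nd : [a, b, c, d, e, f].Nodup)
    (hyz : dist y z = 1) (h4 : (T y).ncard = 4) : S5.H767.Fc T y {e, f} := by
  have hn := nd
  simp only [List.nodup_cons, List.mem_cons, List.not_mem_nil, or_false, not_or, List.nodup_nil,
    and_true, not_false_eq_true] at hn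
  obtain ⟨⟨ab, ac, ad, ae, af⟩, ⟨bc, bd, be, bf⟩, ⟨cd, ce, cf⟩, ⟨de, df⟩, ef⟩ := hn
  rcases H.kinds hz nd hyz h4 with ⟨hT, hH⟩ | ⟨hT, hH⟩ | ⟨a', b', c', d', hz', nd', hT, -, -⟩
  · intro w hw hws
    have h1 := hH.h1 w hw (hws.trans (by
      rw [hT]; rintro i (h1 | h1)
      · right; right; left; exact h1
      · right; right; right; exact h1))
    rcases hws (h1 (show a ∈ ({a, b} : Set (Fin 6)) by simp)) with h2 | h2
    · exact ae h2
    · exact af h2
  · intro w hw hws
    have h1 := hH.h1 w hw (hws.trans (by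
      rw [hT]; rintro i (h1 | h1)
      · right; right; left; exact h1
      · right; right; right; exact h1))
    rcases hws (h1 (show c ∈ ({c, d} : Set (Fin 6)) by simp)) with h2 | h2
    · exact ce h2
    · exact cf h2
  · exact H.contact_mix hz' nd' hyz hT

/-- every point of the circle is admissible or mixed -/
theorem admM (H : E3W U T) (hz : DPt T z a b c d) (nd : [a, b, c, d, e, f].Nodup)
    (hyz : dist y z = 1) :
    S5.H767.Adm T z a b c d e f y ∨ S5.H767.Mk T a b c d e f y := by
  rcases Nat.lt_or_ge (T y).ncard 4 with hlt | hge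
  · exact Or.inl (Or.inl (by omega))
  · have h4 : (T y).ncard = 4 := by have := H.le4 hz.card hyz; omega
    rcases H.kinds hz nd hyz h4 with ⟨hT, hH⟩ | ⟨hT, hH⟩ | ⟨a', b', c', d', hz', nd', hT, hab, hcd⟩
    · refine Or.inl (Or.inr (Or.inl ⟨hT, hH.h1, fun hcl => ?_⟩))
      have := H.end3 hz (acc_of_closure hcl)
      omega
    · refine Or.inl (Or.inr (Or.inr ⟨hT, hH.h1, fun hcl => ?_⟩))
      have := H.end3 hz.swap (acc_of_closure hcl)
      omega
    · right
      have hn := nd'
      simp only [List.nodup_cons, List.mem_cons, List.not_mem_nil, or_false, not_or,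
        List.nodup_nil, and_true, not_false_eq_true] at hn
      obtain ⟨⟨ab, ac, ad, ae, af⟩, ⟨bc, bd, be, bf⟩, ⟨cd, ce, cf⟩, ⟨de, df⟩, ef⟩ := hn
      refine ⟨by rw [hT]; simp, by rw [hT]; simp, H.fc_ef hz nd hyz h4, fun h1 => ?_, fun h1 => ?_⟩
      · rw [hab] at h1
        have h2 : b' ∈ T y := h1 (by simp)
        rw [hT] at h2
        simp [Ne.symm ab, bc, be, bf] at h2
      · rw [hcd] at h1
        have h2 : d' ∈ T y := h1 (by simp)
        rw [hT] at h2
        simp [Ne.symm ad, Ne.symm cd, de, df] at h2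

/-- **the word of a two-pair point** -/
theorem rawM (H : E3W U T) (hz : DPt T z a b c d) (nd : [a, b, c, d, e, f].Nodup) :
    S5.H767.RawM (S5.H767.Xs T z a b c d e f) := by
  have h := H.irr
  have C := S5.H767.ctr_of_dpt h hz nd
  refine C.raw3_mix (fun y hy => H.admM hz nd hy)
    (fun y y' hy hy' hyy h1 h2 => h.no_hx_pair hz nd hy hy' hyy h1 h2) ?_
  intro y y' hy hy' hyy hM h4 he hf
  have h4' : (T y').ncard = 4 := by have := H.le4 hz.card hy'; omega
  have hfc := H.fc_ef hz nd hy' h4'
  rcases Nat.lt_or_ge (T y).ncard 4 with hlt | hge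
  · -- `y` with at most three colours
    by_cases hsub : T y ⊆ {e, f}
    · exact hfc y hyy hsub
    · rw [not_subset] at hsub
      obtain ⟨x, hx, hxef⟩ := hsub
      obtain ⟨-, -, -, -, ef⟩ := C.sep
      have hxe : x ≠ e := fun h => hxef (Or.inl h)
      have hxf : x ≠ f := fun h => hxef (Or.inr h)
      have h1 : ({x, e, f} : Set (Fin 6)) ⊆ T y := by
        rintro m (rfl | rfl | rfl)
        exacts [hx, hM.he, hM.hf]
      have h2 : ({x, e, f} : Set (Fin 6)).ncard = 3 :=
        Set.ncard_eq_three.2 ⟨x, e, f, hxe, hxf, ef, rfl⟩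
      have h5 : T y = {x, e, f} :=
        (Set.eq_of_subset_of_ncard_le h1 (by omega) (Set.toFinite _)).symm
      have hxz : x ∈ T z := by
        by_contra h
        rcases C.miss h with h6 | h6
        exacts [hxe h6, hxf h6]
      exact lemmaFz h hy hy' hyy hfc (by rw [h5]) hxz
  · have hy4 : (T y).ncard = 4 := by have := H.le4 hz.card hy; omega
    rcases H.kinds hz nd hy hy4 with ⟨hT, -⟩ | ⟨hT, -⟩ | ⟨a', b', c', d', hz', nd', hT, -, -⟩
    · refine hM.nab ?_
      rw [hT]; rintro i (h1 | h1)
      · left; exact h1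
      · right; left; exact h1
    · refine hM.ncd ?_
      rw [hT]; rintro i (h1 | h1)
      · left; exact h1
      · right; left; exact h1
    · exact H.mix_flank hz' nd' hy hT hy' (by rw [dist_comm]; exact hyy) hfc

end E3W

end Vale.Agent.P032.Six
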