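import Vale.Agent.P032.R2.H333.E3d
import Vale.Agent.P032.R2.H659.Ok3

/-!
# P032: the world without stopped arcs of two-pair points is empty

* `E3W.okC3`: the circles of the two-pair points are good for the network with T3 contacts;
* `E3W.com4`: a common point of the circles of two centres with all six colours has at most three
  colours;
* `E3W.empty4`: at most four colours everywhere: empty.
-/

open Set Filter Topology Metric

noncomputable section

namespace Vale.Agent.P032.Six

open S5.H767 (Ex ex_self dist_of_closure sub_of_closure line_free lemmaFz)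

variable {U : Fin 6 → Set ℂ} {T : ℂ → Set (Fin 6)} {z y p : ℂ} {a b c d e f : Fin 6}

/-- the names of a centre name a two-pair point -/
theorem DPt.of_ctr (hz : DPt T z a b c d) {a' b' c' d' e' f' : Fin 6}
    (C : S5.H767.Ctr U T z a' b' c' d' e' f') : DPt T z a' b' c' d' := by
  obtain ⟨p, hp⟩ := hz.arc1
  obtain ⟨q, hq⟩ := hz.arc2
  have hab : ({a, b} : Set (Fin 6)) ⊆ T z := by
    rw [hz.pal]; rintro i (h1 | h1)
    · left; exact h1
    · right; left; exact h1
  have hcd : ({c, d} : Set (Fin 6)) ⊆ T z := by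
    rw [hz.pal]; rintro i (h1 | h1)
    · right; right; left; exact h1
    · right; right; right; exact h1
  have hne : ({a, b} : Set (Fin 6)) ≠ {c, d} := by
    intro h1
    have h2 : a ∈ ({c, d} : Set (Fin 6)) := by rw [← h1]; simp
    rcases h2 with h2 | h2
    · exact hz.ac h2
    · exact hz.ad h2
  have hp' : T p = {a, b} := hp.2.self_of_nhdsWithin hp.1
  have hq' : T q = {c, d} := hq.2.self_of_nhdsWithin hq.1
  have k1 := C.pairs p hp.1 (by rw [hp']; exact hp.2) (by rw [hp']; exact hab)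
  have k2 := C.pairs q hq.1 (by rw [hq']; exact hq.2) (by rw [hq']; exact hcd)
  rw [hp'] at k1
  rw [hq'] at k2
  rcases k1 with k1 | k1 <;> rcases k2 with k2 | k2
  · exact absurd (k1.trans k2.symm) hne
  · exact hz.relabel (Or.inl ⟨k1.symm, k2.symm⟩)
  · exact hz.relabel (Or.inr ⟨k2.symm, k1.symm⟩)
  · exact absurd (k1.trans k2.symm) hne

namespace E3W

/-- **the circles of the two-pair points are good** -/
theorem okC3 (H : E3W U T) (hz : DPt T z a b c d) : Vale.Agent.P032.Net3.OkC3 U T z := by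
  have h := H.irr
  refine ⟨fun a' b' c' d' e' f' C => ?_, fun P hP hP2 y hy => ?_⟩
  · have M := H.rawM (hz.of_ctr C) C.nd
    exact ⟨M.closed, M.cover, M.per, M.anti, M.ac, M.two, M.own, M.own', M.swap, M.dbl⟩
  · have hpr : P = {a, b} ∨ P = {c, d} := by
      obtain ⟨x, hx⟩ := closure_nonempty_iff.1 ⟨y, hy⟩
      have h1 : T x = P := ex_self hx
      rcases h.twoPairs hz x hx.1 (by rw [h1]; exact hx.2) (by rw [h1]; exact hP) with h2 | h2
      · left; rw [← h1, h2]
      · right; rw [← h1, h2]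
    rcases hpr with rfl | rfl
    · exact H.end3 hz (acc_of_closure hy)
    · exact H.end3 hz.swap (acc_of_closure hy)

/-- no mixed lock at a two-pair point -/
theorem no_mixed (H : E3W U T) (hz : DPt T z a b c d) (hyz : dist y z = 1)
    (hy : (T y).ncard = 4) (ha : a ∈ T y) (hc : c ∈ T y) :
    ¬ ∃ᶠ q in 𝓝 z, Arc T y q {a, c} := by
  intro hf
  have h := H.irr
  obtain ⟨e, f, nd⟩ := hz.exists_nodup
  have hzy : dist z y = 1 := by rw [dist_comm]; exact hyz
  obtain ⟨q, hq⟩ := hf.exists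
  have hqT : T q = {a, c} := hq.mem
  have hsub : T q ⊆ T y := by
    rw [hqT]
    rintro i (h2 | h2)
    · rw [h2]; exact ha
    · rw [mem_singleton_iff] at h2; rw [h2]; exact hc
  rcases H.cases hy with ⟨A, hA⟩ | ⟨p, r, s, t, hD⟩
  · have h1 := hA.h1 q hq.1 hsub
    rw [hqT] at h1
    have h2 : A = {a, c} :=
      Set.eq_of_subset_of_ncard_le h1 (by rw [hA.cardA, Set.ncard_pair hz.ac]) (Set.toFinite _)
    rw [h2] at hA
    have hTy : T y = {a, c, e, f} := H.pal_two hz nd hyz hy ha hc hz.ac (by rw [hz.pal]; simp)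
      (by rw [hz.pal]; simp)
    exact H.no_harm_ac hz nd hyz hTy hA
  · rcases h.twoPairs hD q hq.1 (by rw [hqT]; exact hq.2) hsub with h1 | h1
    · rw [hqT] at h1
      rw [h1] at hf
      exact H.not_freq hD hzy hz.card.ge hf
    · rw [hqT] at h1
      rw [h1] at hf
      exact H.not_freq hD.swap hzy hz.card.ge hf

end E3W

end Vale.Agent.P032.Six

namespace Vale.Agent.P032.Net3

open Vale.Agent.P032.Six Vale.Agent.P032.Words Vale.Agent.P032.S5.H767 Vale.Agent.P032.S5.H349
open Vale.Agent.P032.Net.H672 Vale.Agent.P032.S5.H358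

variable {U : Fin 6 → Set ℂ} {T : ℂ → Set (Fin 6)}

/-- **`Com4`** for a world in which two-pair points and four-coloured points at distance one have at
most two common colours and there is no mixed lock -/
theorem com4_of' (h : Irr U T)
    (le : ∀ {w m : ℂ} {a b c d : Fin 6}, DPt T w a b c d → dist m w = 1 → (T m).ncard ≤ 4)
    (two : ∀ {w m : ℂ} {a b c d : Fin 6}, DPt T w a b c d → dist m w = 1 → (T m).ncard = 4 →
      (T m ∩ T w).ncard ≤ 2)
    (nr : ∀ {w m : ℂ} {a b c d : Fin 6}, DPt T w a b c d → dist m w = 1 → (T m).ncard = 4 →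
      a ∈ T m → c ∈ T m → ¬ ∃ᶠ q in 𝓝 w, Arc T m q {a, c}) :
    Com4 T := by
  intro w v q w' v' q' m e1 _ _ e1' _ _ hne hcov hmw hmw' hne2 hs hs'
  by_contra hcon
  push Not at hcon
  have h4m : 4 ≤ (T m).ncard := hcon
  have c1 := e1.card_z
  have c2 := e1'.card_z
  obtain ⟨a0, b0, c0, d0, n1, n2⟩ := e1.names
  have hz0 := e1.dpt h n1 n2
  obtain ⟨a1, b1, c3, d1, n3, n4⟩ := e1'.names
  have hz1 := e1'.dpt h n3 n4
  have hm4 : (T m).ncard = 4 := by have := le hz0 hmw; omega
  have t1 := two hz0 hmw hm4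
  have t2 := two hz1 hmw' hm4
  have hun : T w ∪ T w' = univ := eq_univ_of_forall hcov
  have hcard : (T w ∩ T w').ncard = 2 := by
    have h1 := Set.ncard_union_add_ncard_inter (T w) (T w') (Set.toFinite _) (Set.toFinite _)
    rw [hun, Set.ncard_univ, Nat.card_eq_fintype_card, Fintype.card_fin, c1, c2] at h1
    omega
  have hm : T m = (T m ∩ T w) ∪ (T m ∩ T w') := by
    rw [← inter_union_distrib_left, hun, inter_univ]
  have h6 := Set.ncard_union_add_ncard_inter (T m ∩ T w) (T m ∩ T w') (Set.toFinite _)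
    (Set.toFinite _)
  rw [← hm] at h6
  have h7 : ((T m ∩ T w) ∩ (T m ∩ T w')).ncard = 0 := by omega
  have h8 : (T m ∩ T w).ncard = 2 := by omega
  have h9 : (T m ∩ T w').ncard = 2 := by omega
  have h10 : ∀ i, i ∈ T m → i ∈ T w → i ∉ T w' := by
    intro i a1 a2 a3
    rw [Set.ncard_eq_zero (Set.toFinite _)] at h7
    have : i ∈ ((T m ∩ T w) ∩ (T m ∩ T w')) := ⟨⟨a1, a2⟩, ⟨a1, a3⟩⟩
    rw [h7] at this
    exact this
  obtain ⟨a, b, c, d, hz, ha, hb, hc, hd⟩ := dpt_split h e1 hs hcard
  obtain ⟨a', b', c', d', hz', ha', hb', hc', hd'⟩ := dpt_split h e1' hs'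
    (by rw [inter_comm]; exact hcard)
  have key : ∀ {w w' : ℂ} {a b c d : Fin 6}, DPt T w a b c d → b ∈ T w' → d ∈ T w' →
      (T m ∩ T w).ncard = 2 → (∀ i, i ∈ T m → i ∈ T w → i ∉ T w') →
      T m ∩ T w = {a, c} := by
    intro w w' a b c d hz hb hd h8 h10
    have hbm : b ∉ T m := fun h1 => h10 b h1 (by rw [hz.pal]; simp) hb
    have hdm : d ∉ T m := fun h1 => h10 d h1 (by rw [hz.pal]; simp) hd
    refine Set.eq_of_subset_of_ncard_le ?_ (by rw [h8]; exact (Set.ncard_pair hz.ac).le)
      (Set.toFinite _)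
    rintro i ⟨h1, h2⟩
    rw [hz.pal] at h2
    simp only [mem_insert_iff, mem_singleton_iff] at h2 ⊢
    rcases h2 with rfl | rfl | rfl | rfl
    · exact Or.inl rfl
    · exact absurd h1 hbm
    · exact Or.inr rfl
    · exact absurd h1 hdm
  have k1 := key hz hb hd h8 h10
  have k1' := key hz' hb' hd' h9 fun i a1 a2 a3 => h10 i a1 a3 a2
  have hT : T m = {a, c} ∪ {a', c'} := by rw [← k1, ← k1']; exact hm
  have am : a ∈ T m := by rw [hT]; simp
  have cm : c ∈ T m := by rw [hT]; simp
  have am' : a' ∈ T m := by rw [hT]; simp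
  have cm' : c' ∈ T m := by rw [hT]; simp
  rcases h.axis_dpt hz hz' hmw hmw' hne hne2 hT with h11 | h11
  · exact nr hz hmw hm4 am cm h11
  · exact nr hz' hmw' hm4 am' cm' h11

end Vale.Agent.P032.Net3

namespace Vale.Agent.P032.Six

variable {U : Fin 6 → Set ℂ} {T : ℂ → Set (Fin 6)}

namespace E3W

theorem com4 (H : E3W U T) : Vale.Agent.P032.Net3.Com4 T :=
  Vale.Agent.P032.Net3.com4_of' H.irr (fun hz hm => H.le4 hz.card hm)
    (fun hz hm h4 => H.two hz hm h4) fun hz hm h4 ha hc => H.no_mixed hz hm h4 ha hc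

/-- **no two-pair points**, at most four colours everywhere -/
theorem no_dpt (H : E3W U T) (h4 : ∀ z, (T z).ncard ≤ 4) : ∀ z a b c d, DPt T z a b c d → False :=
  Vale.Agent.P032.Net3.no_D3 H.irr h4 (fun _ _ _ _ _ hz => H.okC3 hz) H.com4

/-- **the world is empty**, at most four colours everywhere -/
theorem empty4 (H : E3W U T) (h4 : ∀ z, (T z).ncard ≤ 4) : False :=
  H.irr.empty_of_noD H.min h4 (H.no_dpt h4)

end E3W

end Vale.Agent.P032.Six
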