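import Vale.Agent.P032.R2.H333.S1

/-!
# P032: contacts of type S3, `y` of any kind

`z` a two-pair point `ab | cd`, `T y = {a, b, e, f}` on `S(z)`, `y` of any kind (two-pair with any
pairing, harmless), `p` a common neighbour.  `S3g.letters`: the letters at `p` in the word of `z`.
`S3g.list` (with `Mn`): the palettes of a flank with at most three colours are `cd, cde, cdf, ef, efc,
efd`.
-/

open Set Filter Topology Metric

noncomputable section

namespace Vale.Agent.P032.S5.H767

open Vale.Agent.P032.Six Vale.Agent.P032.Words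

variable {U : Fin 6 → Set ℂ} {T : ℂ → Set (Fin 6)} {z y p : ℂ} {a b c d e f : Fin 6}

/-- a contact with common pair `{a, b}`, no assumption on the kind of `y` -/
structure S3g (U : Fin 6 → Set ℂ) (T : ℂ → Set (Fin 6)) (z y p : ℂ) (a b c d e f : Fin 6) :
    Prop where
  ctr : Ctr U T z a b c d e f
  pal : T y = {a, b, e, f}
  yz : dist y z = 1
  pz : dist p z = 1
  py : dist p y = 1

namespace S3g

theorem irr (S : S3g U T z y p a b c d e f) : Irr U T := S.ctr.irr

theorem zy (S : S3g U T z y p a b c d e f) : dist z y = 1 := by rw [dist_comm]; exact S.yz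

theorem swapAB (S : S3g U T z y p a b c d e f) : S3g U T z y p b a c d e f :=
  ⟨S3.swapAB_ctr S.ctr, by rw [S.pal]; ext i; simp only [mem_insert_iff, mem_singleton_iff]; tauto,
    S.yz, S.pz, S.py⟩

theorem swapEF (S : S3g U T z y p a b c d e f) : S3g U T z y p a b c d f e :=
  ⟨S.ctr.swapEF, by rw [S.pal]; ext i; simp only [mem_insert_iff, mem_singleton_iff]; tauto,
    S.yz, S.pz, S.py⟩

/-- the letters at a flank: `C`, or `e, f`, or `A, e`, or `A, f` -/
theorem letters (S : S3g U T z y p a b c d e f) :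
    p ∈ closure (Ex T z {c, d}) ∨ (e ∈ T p ∧ f ∈ T p) ∨
      (p ∈ closure (Ex T z {a, b}) ∧ (e ∈ T p ∨ f ∈ T p)) := by
  by_contra hcon
  rw [not_or, not_or, not_and_or, not_and_or, not_or] at hcon
  obtain ⟨hC, hef, hA⟩ := hcon
  have C := S.ctr
  have h3 : p ∉ Lt T z a b c d e f 3 := hC
  have hy0 : y ∈ Lt T z a b c d e f 0 := ⟨S.yz, by rw [S.pal]; simp⟩
  have hy1 : y ∈ Lt T z a b c d e f 1 := ⟨S.yz, by rw [S.pal]; simp⟩
  obtain ⟨l, hl⟩ := C.cover S.pz
  by_cases h2 : p ∈ Lt T z a b c d e f 2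
  · -- only the letter `A`
    obtain ⟨he, hf⟩ : e ∉ T p ∧ f ∉ T p := by
      rcases hA with h | h
      · exact absurd h2 h
      · exact h
    -- near `p` all points of `S(z)` contain `a`
    have hJ : ∀ᶠ q in 𝓝[sphere z 1] p, a ∈ T q := by
      have k0 : ∀ᶠ q in 𝓝 p, q ∉ Lt T z a b c d e f 0 :=
        (Lt_closed S.irr 0).isOpen_compl.mem_nhds fun h => he h.2
      have k1 : ∀ᶠ q in 𝓝 p, q ∉ Lt T z a b c d e f 1 :=
        (Lt_closed S.irr 1).isOpen_compl.mem_nhds fun h => hf h.2
      have k3 : ∀ᶠ q in 𝓝 p, q ∉ Lt T z a b c d e f 3 :=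
        (Lt_closed S.irr 3).isOpen_compl.mem_nhds h3
      filter_upwards [mem_nhdsWithin_of_mem_nhds k0, mem_nhdsWithin_of_mem_nhds k1,
        mem_nhdsWithin_of_mem_nhds k3, self_mem_nhdsWithin] with q g0 g1 g3 g4
      obtain ⟨m, hm⟩ := C.cover (y := q) g4
      fin_cases m
      · exact absurd hm g0
      · exact absurd hm g1
      · exact Lt_col S.irr hm (Or.inl rfl)
      · exact absurd hm g3
    obtain ⟨k1, k2⟩ := tri S.pz S.yz
    exact line_free S.irr S.pz hJ S.py (fun h => k1 h.symm) (fun h => k2 (by rw [← h]; ring))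
      (S.irr.sub y (by rw [S.pal]; simp))
  · rcases hef with he | hf
    · have h0 : p ∉ Lt T z a b c d e f 0 := fun h => he h.2
      refine C.int (l := 1) S.pz (fun m hm => ?_) S.yz S.py hy1
      fin_cases m
      · exact absurd hm h0
      · rfl
      · exact absurd hm h2
      · exact absurd hm h3
    · have h1 : p ∉ Lt T z a b c d e f 1 := fun h => hf h.2
      refine C.int (l := 0) S.pz (fun m hm => ?_) S.yz S.py hy0
      fin_cases m
      · rfl
      · exact absurd hm h1
      · exact absurd hm h2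
      · exact absurd hm h3

/-- order at most three, `c, d` present: no `a` -/
theorem not_a_cd (S : S3g U T z y p a b c d e f) (h3 : (T p).ncard ≤ 3) (hc : c ∈ T p)
    (hd : d ∈ T p) : a ∉ T p := by
  intro ha
  obtain ⟨k1, k2⟩ := off2 S.pz S.py
  have hzp : dist z p = 1 := by rw [dist_comm]; exact S.pz
  rcases S.irr.lemmaX (u := p) (p := z) (v := y) (t := b) hzp h3 (by
      rw [S.ctr.pal]
      rintro i (rfl | rfl | rfl | rfl)
      · exact Or.inr ha
      · exact Or.inl rfl
      · exact Or.inr hc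
      · exact Or.inr hd) S.zy (S.irr.sub y (by rw [S.pal]; simp)) with h | h
  · exact k1 h
  · exact k2 h

/-- order at most three, `e, f` present: no `a` -/
theorem not_a_ef (S : S3g U T z y p a b c d e f) (h3 : (T p).ncard ≤ 3) (he : e ∈ T p)
    (hf : f ∈ T p) : a ∉ T p := by
  intro ha
  obtain ⟨k1, k2⟩ := off2 S.py S.pz
  have hyp : dist y p = 1 := by rw [dist_comm]; exact S.py
  rcases S.irr.lemmaX (u := p) (p := y) (v := z) (t := b) hyp h3 (by
      rw [S.pal]
      rintro i (rfl | rfl | rfl | rfl)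
      · exact Or.inr ha
      · exact Or.inl rfl
      · exact Or.inr he
      · exact Or.inr hf) S.yz (S.irr.sub z (by rw [S.ctr.pal]; simp)) with h | h
  · exact k1 h
  · exact k2 h

/-- the palette `{a, b, e}` at a flank: both `{b, e}` and `{a, e}` on `S(y)` -/
theorem abe_one (S : S3g U T z y p a b c d e f) (hT : T p = {a, b, e}) :
    ∃ q, dist q y = 1 ∧ T q = {b, e} := by
  have h := S.irr
  have hfreq : ∃ᶠ q in 𝓝[sphere y 1] p, a ∉ T q := by
    intro hcon
    obtain ⟨k1, k2⟩ := off2 S.py S.pz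
    have hpz : dist p z = 1 := S.pz
    exact line_free h S.py (hcon.mono fun q hq => not_not.1 hq) hpz
      (fun h => by rw [h] at hpz; exact absurd S.yz (by
        rw [h, dist_self]; exact zero_ne_one))
      (fun h => by
        have h2 : z - y = 2 * (p - y) := by linear_combination h
        have h3 : dist z y = 2 := by
          rw [dist_eq_norm, h2, norm_mul, ← dist_eq_norm, S.py]; simp
        rw [S.zy] at h3; norm_num at h3)
      (h.sub z (by rw [S.ctr.pal]; simp))
  have hev : ∀ᶠ q in 𝓝[sphere y 1] p, T q ⊆ {a, b, e} ∧ dist q y = 1 := by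
    filter_upwards [mem_nhdsWithin_of_mem_nhds (h.nhd p), self_mem_nhdsWithin] with q h1 h2
    exact ⟨by rw [← hT]; exact h1, h2⟩
  obtain ⟨q, hq1, hq2, hq3⟩ := (hfreq.and_eventually hev).exists
  have hs : T q ⊆ {b, e} := by
    intro i hi
    rcases hq2 hi with rfl | h1
    · exact absurd hi hq1
    · exact h1
  refine ⟨q, hq3, Subset.antisymm hs ?_⟩
  have key : ∀ i j : Fin 6, i ∈ T y → T q ⊆ {i, j} → j ∈ T q := by
    intro i j hi hs
    by_contra hj
    have h3 : T q ⊆ {i} := by
      intro m hm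
      rcases hs hm with h4 | h4
      · exact h4
      · rw [mem_singleton_iff] at h4; subst h4; exact absurd hm hj
    exact h.mx.notMem' (h.mem_of_single h3) hq3 (h.sub y hi)
  rintro i (rfl | hi)
  · exact key e i (by rw [S.pal]; simp) (by rw [pair_comm]; exact hs)
  · rw [mem_singleton_iff] at hi; subst hi
    exact key b i (by rw [S.pal]; simp) hs

/-- `[Mn]`: the palette `{a, b, e}` does not occur at a flank -/
theorem not_abe (S : S3g U T z y p a b c d e f) (hmin : Mn U T) : T p ≠ {a, b, e} := by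
  intro hT
  obtain ⟨⟨ab, ac, ad, ae, af⟩, ⟨bc, bd, be, bf⟩, ⟨cd, ce, cf⟩, ⟨de, df⟩, ef⟩ := S.ctr.sep
  obtain ⟨q, hq, hqT⟩ := S.abe_one hT
  obtain ⟨q', hq', hqT'⟩ := S.swapAB.abe_one (by
    rw [hT]; ext i; simp only [mem_insert_iff, mem_singleton_iff]; tauto)
  have hy4 : (T y).ncard = 4 := by
    rw [S.pal]
    have : ({a, b, e, f} : Set (Fin 6)) = (({a, b, e, f} : Finset (Fin 6)) : Set (Fin 6)) := by
      simp
    rw [this, Set.ncard_coe_finset]
    rw [Finset.card_insert_of_notMem, Finset.card_insert_of_notMem, Finset.card_pair ef]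
    · simp [be, bf]
    · simp [ab, ae, af]
  rcases S.irr.pairs_disjoint hmin hy4 hq hq' (by
      rw [hqT, S.pal]; rintro i (rfl | hi)
      · simp
      · rw [mem_singleton_iff] at hi; subst hi; simp) (by
      rw [hqT', S.pal]; rintro i (rfl | hi)
      · simp
      · rw [mem_singleton_iff] at hi; subst hi; simp)
      (by rw [hqT, Set.ncard_pair be]) (by rw [hqT', Set.ncard_pair ae]) with h1 | h1
  · rw [hqT, hqT'] at h1
    have h2 : b ∈ ({a, e} : Set (Fin 6)) := by rw [← h1]; simp
    rcases h2 with h3 | h3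
    exacts [ab h3.symm, be h3]
  · rw [hqT, hqT', Set.disjoint_left] at h1
    exact h1 (a := e) (by simp) (by simp)

/-- **`[Mn]`, the flanks with at most three colours**, `y` of any kind: the palette is one of
`cd, cde, cdf, ef, efc, efd`, and `p` is in the closure of the exact `cd`-arcs of `S(z)` in the first
three cases -/
theorem list (S : S3g U T z y p a b c d e f) (hmin : Mn U T) (h3 : (T p).ncard ≤ 3) :
    (p ∈ closure (Ex T z {c, d}) ∧ (T p = {c, d} ∨ T p = {c, d, e} ∨ T p = {c, d, f})) ∨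
      T p = {e, f} ∨ T p = {e, f, c} ∨ T p = {e, f, d} := by
  obtain ⟨⟨ab, ac, ad, ae, af⟩, ⟨bc, bd, be, bf⟩, ⟨cd, ce, cf⟩, ⟨de, df⟩, ef⟩ := S.ctr.sep
  have trip : ∀ {i j m : Fin 6}, i ∈ T p → j ∈ T p → m ∈ T p → i ≠ j → i ≠ m → j ≠ m →
      T p = {i, j, m} := by
    intro i j m hi hj hm hij him hjm
    have h1 : ({i, j, m} : Set (Fin 6)) ⊆ T p := by
      rintro s (rfl | rfl | rfl)
      exacts [hi, hj, hm]
    have h2 : ({i, j, m} : Set (Fin 6)).ncard = 3 :=
      Set.ncard_eq_three.2 ⟨i, j, m, hij, him, hjm, rfl⟩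
    exact (Set.eq_of_subset_of_ncard_le h1 (by omega) (Set.toFinite _)).symm
  rcases S.letters with h | h | ⟨h, h'⟩
  · left
    have k := sub_of_closure S.irr h
    have hc : c ∈ T p := k (Or.inl rfl)
    have hd : d ∈ T p := k (Or.inr rfl)
    refine ⟨h, ?_⟩
    have ha := S.not_a_cd h3 hc hd
    have hb := S.swapAB.not_a_cd h3 hc hd
    by_cases he : e ∈ T p
    · exact Or.inr (Or.inl (trip hc hd he cd ce de))
    by_cases hf : f ∈ T p
    · exact Or.inr (Or.inr (trip hc hd hf cd cf df))
    left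
    refine Subset.antisymm (fun i hi => ?_) ?_
    · rcases S.ctr.all i with rfl | rfl | rfl | rfl | rfl | rfl
      exacts [absurd hi ha, absurd hi hb, Or.inl rfl, Or.inr rfl, absurd hi he, absurd hi hf]
    · rintro i (rfl | rfl)
      exacts [hc, hd]
  · right
    have ha := S.not_a_ef h3 h.1 h.2
    have hb := S.swapAB.not_a_ef h3 h.1 h.2
    by_cases hc : c ∈ T p
    · exact Or.inr (Or.inl (trip h.1 h.2 hc ef ce.symm cf.symm))
    by_cases hd : d ∈ T p
    · exact Or.inr (Or.inr (trip h.1 h.2 hd ef de.symm df.symm))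
    left
    refine Subset.antisymm (fun i hi => ?_) ?_
    · rcases S.ctr.all i with rfl | rfl | rfl | rfl | rfl | rfl
      exacts [absurd hi ha, absurd hi hb, absurd hi hc, absurd hi hd, Or.inl rfl, Or.inr rfl]
    · rintro i (rfl | rfl)
      exacts [h.1, h.2]
  · exfalso
    have k := sub_of_closure S.irr h
    have ha : a ∈ T p := k (Or.inl rfl)
    have hb : b ∈ T p := k (Or.inr rfl)
    rcases h' with he | hf
    · exact S.not_abe hmin (trip ha hb he ab ae be)
    · exact S.swapEF.not_abe hmin (trip ha hb hf ab af bf)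

end S3g

end Vale.Agent.P032.S5.H767
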