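import Vale.Agent.P032.R2.H333.S1
import Vale.Agent.P032.R2.H784.Ring

/-!
# P032: contacts of type S3, the point `y` of any kind

`T y = {a, b, e, f}` on `S(z)`, near `y` the colours `a`, `b` are separated by `S(z)`.  Exact
`ef`-arcs of `S(y)` (only of these something is assumed) give solid `a`- and `b`-rays at `y`:
* `ef_rays`, `ef_sd`: the sides of `a`, `b` on the circle of `y`;
* `ef_inner`: no `a`, `b` at a point where exact `ef`-arcs of `S(y)` accumulate from both sides;
* `ef_end`: if `w` is a limit of exact `ef`-arcs of `S(y)` and `a ∈ T w`, then `S(w)` has an exact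
  `ae`-arc or an exact `af`-arc (at `y`).
-/

open Set Filter Topology Metric

noncomputable section

namespace Vale.Agent.P032.S5.H767

open Vale.Agent.P032.Six Vale.Agent.P032.Words

variable {k : ℕ} {U : Fin k → Set ℂ} {T : ℂ → Set (Fin k)} {z y w : ℂ} {a b e f : Fin k}

/-- exact `ef`-arcs of `S(y)` give solid rays of `a`, `b` at `y` -/
theorem ef_rays (h : Irr U T) (hpal : T y = {a, b, e, f}) (hyz : dist y z = 1)
    (hs : Sd U z y a b) {t0 η : ℝ} (hη : 0 < η)
    (hJ : ∀ t : ℝ, |t - t0| < η → e ∈ T (y + cis t) ∧ f ∈ T (y + cis t)) {σ : ℝ}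
    (hσ : σ = 1 ∨ σ = -1) (hip : 0 < ip (σ * (Complex.I * cis t0)) (z - y)) :
    Ray (U a) y (σ * (Complex.I * cis t0)) ∧ Ray (U b) y (-(σ * (Complex.I * cis t0))) := by
  have hσ' : -σ = 1 ∨ -σ = -1 := by
    rcases hσ with rfl | rfl
    · right; rfl
    · left; norm_num
  have e1 : (((-σ : ℝ) : ℂ) * (Complex.I * cis t0)) = -((σ : ℂ) * (Complex.I * cis t0)) := by
    push_cast; ring
  have hin : ∀ᶠ r : ℝ in 𝓝[>] 0, dist (y + r * ((σ : ℂ) * (Complex.I * cis t0))) z < 1 :=
    ray_in hyz hip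
  have hout : ∀ᶠ r : ℝ in 𝓝[>] 0, 1 < dist (y + r * (-((σ : ℂ) * (Complex.I * cis t0)))) z :=
    ray_out hyz (by rw [ip_neg]; linarith)
  have he := h.mx.ray_avoid hη (i := e) (fun t ht => h.sub _ (hJ t ht).1) hσ
  have hf := h.mx.ray_avoid hη (i := f) (fun t ht => h.sub _ (hJ t ht).2) hσ
  have he' := h.mx.ray_avoid hη (i := e) (fun t ht => h.sub _ (hJ t ht).1) hσ'
  have hf' := h.mx.ray_avoid hη (i := f) (fun t ht => h.sub _ (hJ t ht).2) hσ'
  rw [e1] at he' hf'
  constructor
  · filter_upwards [he, hf, hin,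
      (tendsto_ray y ((σ : ℂ) * (Complex.I * cis t0))).eventually (h.nhd y),
      (tendsto_ray y ((σ : ℂ) * (Complex.I * cis t0))).eventually hs] with r h1 h2 h3 h4 h5
    refine h.mem_of_single fun i hi => ?_
    have h6 := h4 hi
    rw [hpal] at h6
    rcases h6 with rfl | rfl | rfl | h6
    · rfl
    · exact absurd (h.sub _ hi) (h5.2 h3)
    · exact absurd (h.sub _ hi) h1
    · rw [mem_singleton_iff] at h6; subst h6
      exact absurd (h.sub _ hi) h2
  · filter_upwards [he', hf', hout,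
      (tendsto_ray y (-((σ : ℂ) * (Complex.I * cis t0)))).eventually (h.nhd y),
      (tendsto_ray y (-((σ : ℂ) * (Complex.I * cis t0)))).eventually hs] with r h1 h2 h3 h4 h5
    refine h.mem_of_single fun i hi => ?_
    have h6 := h4 hi
    rw [hpal] at h6
    rcases h6 with rfl | rfl | rfl | h6
    · exact absurd (h.sub _ hi) (h5.1 h3)
    · rfl
    · exact absurd (h.sub _ hi) h1
    · rw [mem_singleton_iff] at h6; subst h6
      exact absurd (h.sub _ hi) h2

/-- **the sides of `a`, `b` on the circle of `y`** -/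
theorem ef_sd (h : Irr U T) (hpal : T y = {a, b, e, f}) (hyz : dist y z = 1)
    (hs : Sd U z y a b) {g : ℂ} (hg : dist g y = 1)
    (hJ : ∀ᶠ q in 𝓝[sphere y 1] g, e ∈ T q ∧ f ∈ T q) {σ : ℝ} (hσ : σ = 1 ∨ σ = -1)
    (hip : 0 < σ * cr (g - y) (z - y)) {V : ℂ} (hV : dist V y = 1) :
    (0 < σ * cr (g - y) (V - y) → Sd U y V a b) ∧ (σ * cr (g - y) (V - y) < 0 → Sd U y V b a) := by
  obtain ⟨t0, ht0⟩ := exists_cis (u := g - y) (by rw [← dist_eq_norm]; exact hg)
  obtain ⟨η, hη, hb⟩ := Metric.eventually_nhds_iff.1 ((eventually_circle hg).1 hJ)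
  have hJ' : ∀ t : ℝ, |t - t0| < η → e ∈ T (y + cis t) ∧ f ∈ T (y + cis t) := by
    intro t ht
    have h1 := hb (y := t - t0) (by rw [Real.dist_eq, sub_zero]; exact ht)
    rw [ht0, ← cis_add394, show t0 + (t - t0) = t by ring] at h1
    exact h1
  have hips : ∀ v : ℂ, ip ((σ : ℂ) * (Complex.I * cis t0)) v = σ * cr (g - y) v := by
    intro v
    rw [ip_smul, ip_I, ht0]
  obtain ⟨r1, r2⟩ := ef_rays h hpal hyz hs hη hJ' hσ (by rw [hips]; exact hip)
  refine ⟨fun h1 => ?_, fun h1 => ?_⟩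
  · exact h.mx.sd_of_rays r1 r2 hV (by rw [hips]; exact h1)
  · exact h.mx.sd_of_rays' r1 r2 hV (by rw [hips]; exact h1)

/-- the points of the circle near `y` given by a limit of exact `ef`-arcs; `O` is the side of `S(z)`
without `b` -/
theorem end_mem (h : Irr U T) (hpal : T y = {a, b, e, f})
    (hw : w ∈ closure (Ex T y {e, f})) {τ : ℝ} (hτ : τ = 1 ∨ τ = -1) {O : Set ℂ} (hOo : IsOpen O)
    (hbr : ∀ᶠ r : ℝ in 𝓝[>] 0, w + (y - w) * cis (τ * r) ∈ O)
    (hs : ∀ᶠ x in 𝓝 y, x ∈ O → b ∉ Pal U x) :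
    ∀ᶠ r : ℝ in 𝓝[>] 0, a ∈ T (w + (y - w) * cis (τ * r)) ∧
      b ∉ Pal U (w + (y - w) * cis (τ * r)) ∧ T (w + (y - w) * cis (τ * r)) ⊆ T y := by
  have hten := tendsto_branch y (2 * y - w) τ
  have e1 : 2 * y - (2 * y - w) = w := by ring
  have e2 : 2 * y - w - y = y - w := by ring
  rw [e1, e2] at hten
  obtain ⟨N, hN, hNo, hyN⟩ := _root_.mem_nhds_iff.1 (hs.and (h.nhd y))
  have hpi : ∀ᶠ r : ℝ in 𝓝[>] 0, r ∈ Ioo 0 Real.pi := Ioo_mem_nhdsGT Real.pi_pos
  filter_upwards [hbr, hten.eventually (hNo.mem_nhds hyN), hpi] with r h1 h2 h3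
  have hsin : Real.sin (τ * r) ≠ 0 := by
    have h4 := Real.sin_pos_of_pos_of_lt_pi h3.1 h3.2
    rcases hτ with rfl | rfl
    · rw [one_mul]; exact ne_of_gt h4
    · rw [neg_one_mul, Real.sin_neg]; exact neg_ne_zero.2 (ne_of_gt h4)
  have hc1 : cis (τ * r) ≠ 1 := by
    intro h4
    have := congrArg Complex.im h4
    rw [cis_im] at this
    exact hsin (by simpa using this)
  have hc2 : cis (τ * r) ≠ -1 := by
    intro h4
    have := congrArg Complex.im h4
    rw [cis_im] at this
    exact hsin (by simpa using this)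
  refine ⟨?_, (hN h2).1 h1, (hN h2).2⟩
  -- approximation by the circles of the exact points
  have hcont : Continuous fun g : ℂ => g + (y - g) * cis (τ * r) := by fun_prop
  have hO : ∀ᶠ g in 𝓝 w, g + (y - g) * cis (τ * r) ∈ N ∧ g + (y - g) * cis (τ * r) ∈ O := by
    have k1 : ∀ᶠ g in 𝓝 w, g + (y - g) * cis (τ * r) ∈ N :=
      hcont.continuousAt.eventually (hNo.mem_nhds h2)
    have k2 : ∀ᶠ g in 𝓝 w, g + (y - g) * cis (τ * r) ∈ O :=
      hcont.continuousAt.eventually (hOo.mem_nhds h1)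
    exact k1.and k2
  rw [mem_closure_iff_frequently] at hw
  have hfr : ∃ᶠ g in 𝓝 w, a ∈ T (g + (y - g) * cis (τ * r)) := by
    refine (hw.and_eventually hO).mono ?_
    rintro g ⟨hg, hg1, hg2⟩
    set x := g + (y - g) * cis (τ * r) with hx
    have hgT : ∀ᶠ q in 𝓝[sphere y 1] g, T q = {e, f} := hg.2
    have hgy : dist g y = 1 := hg.1
    have hgn : ‖y - g‖ = 1 := by rw [← dist_eq_norm, dist_comm]; exact hgy
    have hyg : y - g ≠ 0 := by rw [← norm_pos_iff, hgn]; exact one_pos
    have hgx : dist g x = 1 := by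
      rw [dist_comm, dist_eq_norm, hx, add_sub_cancel_left, norm_mul, hgn, norm_cis, one_mul]
    have hne1 : x ≠ y := by
      intro h4
      have h5 : (y - g) * cis (τ * r) = (y - g) * 1 := by
        rw [mul_one]; linear_combination h4 - hx
      exact hc1 (mul_left_cancel₀ hyg h5)
    have hne2 : x + y ≠ 2 * g := by
      intro h4
      have h5 : (y - g) * cis (τ * r) = (y - g) * (-1) := by
        linear_combination h4 - hx
      exact hc2 (mul_left_cancel₀ hyg h5)
    have hef : ∀ i : Fin k, i ∈ ({e, f} : Set (Fin k)) → i ∉ Pal U x := by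
      intro i hi hix
      rcases h.mx.partner_line hgy (hgT.mono fun q hq => h.sub q (by rw [hq]; exact hi)) hgx hix
        with h4 | h4
      · exact hne1 h4
      · exact hne2 h4
    obtain ⟨i, hi⟩ := h.ne x
    have h6 := (hN hg1).2 hi
    rw [hpal] at h6
    rcases h6 with rfl | rfl | rfl | h6
    · exact hi
    · exact absurd (h.sub _ hi) ((hN hg1).1 hg2)
    · exact absurd (h.sub _ hi) (hef i (Or.inl rfl))
    · rw [mem_singleton_iff] at h6; subst h6
      exact absurd (h.sub _ hi) (hef i (Or.inr rfl))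
  have hcl : IsClosed {g : ℂ | a ∈ T (g + (y - g) * cis (τ * r))} := (h.closed a).preimage hcont
  exact hcl.mem_of_frequently_of_tendsto hfr tendsto_id

/-- **the end of an exact `ef`-arc of `S(y)`**: if `a ∈ T w`, then `S(w)` has an exact `ae`-arc or an
exact `af`-arc -/
theorem ef_end (h : Irr U T) (hpal : T y = {a, b, e, f}) (hef : e ≠ f) (hae : a ≠ e) (haf : a ≠ f)
    (hyz : dist y z = 1) (hs : Sd U z y a b ∨ Sd U z y b a) (hw : w ∈ closure (Ex T y {e, f}))
    (hwz : w ≠ z) (hwz2 : w + z ≠ 2 * y) (ha : a ∈ T w) :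
    ∃ v, Arc T w v {a, e} ∨ Arc T w v {a, f} := by
  have hwy : dist w y = 1 := dist_of_closure hw
  have hyw : dist y w = 1 := by rw [dist_comm]; exact hwy
  have hywn : ‖y - w‖ = 1 := by rw [← dist_eq_norm]; exact hyw
  have hzy : dist z y = 1 := by rw [dist_comm]; exact hyz
  have hcr : cr (y - w) (z - y) ≠ 0 := by
    intro h0
    have h1 : cr (w - y) (z - y) = 0 := by
      have : cr (w - y) (z - y) = -cr (y - w) (z - y) := by
        unfold cr; simp only [Complex.sub_re, Complex.sub_im]; ring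
      rw [this, h0, neg_zero]
    rcases cr_zero (by rw [← dist_eq_norm]; exact hwy) (by rw [← dist_eq_norm]; exact hzy) h1
      with h4 | h4
    · exact hwz (by linear_combination h4)
    · exact hwz2 (by linear_combination h4)
  have f1 : 2 * y - (2 * y - w) = w := by ring
  have f2 : 2 * y - w - y = y - w := by ring
  obtain ⟨τ, hτ, hb⟩ : ∃ τ : ℝ, (τ = 1 ∨ τ = -1) ∧ ∀ᶠ r : ℝ in 𝓝[>] 0,
      a ∈ T (w + (y - w) * cis (τ * r)) ∧ b ∉ Pal U (w + (y - w) * cis (τ * r)) ∧
        T (w + (y - w) * cis (τ * r)) ⊆ T y := by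
    rcases hs with hs | hs
    · obtain ⟨τ, hτ, hin⟩ : ∃ τ : ℝ, (τ = 1 ∨ τ = -1) ∧ 0 < τ * cr (y - w) (z - y) := by
        rcases lt_or_gt_of_ne hcr with h1 | h1
        · exact ⟨-1, Or.inr rfl, by linarith⟩
        · exact ⟨1, Or.inl rfl, by linarith⟩
      have b1 := branch_in (z := y) (V := 2 * y - w) (g := z) hzy (τ := τ) (by rw [f2]; exact hin)
      rw [f1, f2] at b1
      exact ⟨τ, hτ, end_mem h hpal hw hτ (O := {x | dist x z < 1})
        (isOpen_lt (by fun_prop) continuous_const) b1 (hs.mono fun x hx h1 => hx.2 h1)⟩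
    · obtain ⟨τ, hτ, hin⟩ : ∃ τ : ℝ, (τ = 1 ∨ τ = -1) ∧ τ * cr (y - w) (z - y) < 0 := by
        rcases lt_or_gt_of_ne hcr with h1 | h1
        · exact ⟨1, Or.inl rfl, by linarith⟩
        · exact ⟨-1, Or.inr rfl, by linarith⟩
      have b1 := branch_out (z := y) (V := 2 * y - w) (g := z) hzy (τ := τ) (by rw [f2]; exact hin)
      rw [f1, f2] at b1
      exact ⟨τ, hτ, end_mem h hpal hw hτ (O := {x | 1 < dist x z})
        (isOpen_lt continuous_const (by fun_prop)) b1 (hs.mono fun x hx h1 => hx.1 h1)⟩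
  -- an exact point of `S(y)`
  obtain ⟨g, hg⟩ : (Ex T y {e, f}).Nonempty := by
    by_contra hcon
    rw [Set.not_nonempty_iff_eq_empty] at hcon
    rw [hcon, closure_empty] at hw
    exact hw
  have hnl := h.no_layer (z := y) (q := g) hg.1
  have hten := tendsto_branch y (2 * y - w) τ
  have e1 : 2 * y - (2 * y - w) = w := by ring
  have e2 : 2 * y - w - y = y - w := by ring
  rw [e1, e2] at hten
  have hcir : ∀ r : ℝ, dist (w + (y - w) * cis (τ * r)) w = 1 := by
    intro r
    rw [dist_eq_norm, add_sub_cancel_left, norm_mul, hywn, norm_cis, one_mul]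
  have hpt : ∀ᶠ r : ℝ in 𝓝[>] 0, T (w + (y - w) * cis (τ * r)) = {a, e} ∨
      T (w + (y - w) * cis (τ * r)) = {a, f} := by
    filter_upwards [hb, hten.eventually hnl] with r h1 h2
    obtain ⟨h1, h3, h4⟩ := h1
    rw [ex_self hg] at h2
    have hsub : T (w + (y - w) * cis (τ * r)) ⊆ {a, e, f} := by
      intro i hi
      have h5 := h4 hi
      rw [hpal] at h5
      rcases h5 with rfl | rfl | rfl | h5
      · simp
      · exact absurd (h.sub _ hi) h3
      · simp
      · rw [mem_singleton_iff] at h5; subst h5; simp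
    have hnot : ¬ (e ∈ T (w + (y - w) * cis (τ * r)) ∧ f ∈ T (w + (y - w) * cis (τ * r))) := by
      rintro ⟨h5, h6⟩
      have h7 := h2 (by rintro i (rfl | hi)
                        · exact h5
                        · rw [mem_singleton_iff] at hi; subst hi; exact h6)
      have h8 := Set.ncard_le_ncard hsub (Set.toFinite _)
      have h9 : ({a, e, f} : Set (Fin k)).ncard ≤ 3 := by
        rw [Set.ncard_eq_three.2 ⟨a, e, f, hae, haf, hef, rfl⟩]
      omega
    have hone : e ∈ T (w + (y - w) * cis (τ * r)) ∨ f ∈ T (w + (y - w) * cis (τ * r)) := by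
      by_contra hcon
      rw [not_or] at hcon
      have h5 : T (w + (y - w) * cis (τ * r)) ⊆ {a} := by
        intro i hi
        rcases hsub hi with h6 | h6 | h6
        · exact h6
        · exact absurd (h6 ▸ hi) hcon.1
        · rw [mem_singleton_iff] at h6; exact absurd (h6 ▸ hi) hcon.2
      exact h.mx.notMem' (h.mem_of_single h5) (hcir r) (h.sub w ha)
    rcases hone with h5 | h5
    · left
      refine Subset.antisymm (fun i hi => ?_) ?_
      · rcases hsub hi with h6 | h6 | h6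
        · exact Or.inl h6
        · exact Or.inr h6
        · rw [mem_singleton_iff] at h6; exact absurd ⟨h5, h6 ▸ hi⟩ hnot
      · rintro i (rfl | hi)
        · exact h1
        · rw [mem_singleton_iff] at hi; subst hi; exact h5
    · right
      refine Subset.antisymm (fun i hi => ?_) ?_
      · rcases hsub hi with h6 | h6 | h6
        · exact Or.inl h6
        · exact absurd ⟨h6 ▸ hi, h5⟩ hnot
        · exact Or.inr h6
      · rintro i (rfl | hi)
        · exact h1
        · rw [mem_singleton_iff] at hi; subst hi; exact h5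
  obtain ⟨δ, hδ, hd⟩ := mem_nhdsGT_iff_exists_Ioo_subset.1 hpt
  rw [mem_Ioi] at hδ
  have hcont : Continuous fun r : ℝ => w + (y - w) * cis (τ * r) := by
    have : Continuous fun r : ℝ => cis (τ * r) := continuous_cis.comp (by fun_prop)
    exact continuous_const.add (continuous_const.mul this)
  have hcl : ∀ i, IsClosed {r : ℝ | i ∈ T (w + (y - w) * cis (τ * r))} := fun i =>
    (h.closed i).preimage hcont
  -- constant on the branch
  have hconst : (∀ r ∈ Ioo 0 δ, T (w + (y - w) * cis (τ * r)) = {a, e}) ∨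
      ∀ r ∈ Ioo 0 δ, T (w + (y - w) * cis (τ * r)) = {a, f} := by
    by_contra hcon
    rw [not_or] at hcon
    push Not at hcon
    obtain ⟨⟨r1, hr1, hr1'⟩, r2, hr2, hr2'⟩ := hcon
    have k1 : T (w + (y - w) * cis (τ * r1)) = {a, f} := (hd hr1).resolve_left hr1'
    have k2 : T (w + (y - w) * cis (τ * r2)) = {a, e} := (hd hr2).resolve_right hr2'
    obtain ⟨r, hr, h1, h2⟩ := isPreconnected_closed_iff.1 (isPreconnected_Ioo (a := (0 : ℝ))
      (b := δ)) _ _ (hcl e) (hcl f) (fun r hr => by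
        rcases hd hr with h1 | h1
        · left; show e ∈ T _; rw [h1]; simp
        · right; show f ∈ T _; rw [h1]; simp) ⟨r2, hr2, by show e ∈ T _; rw [k2]; simp⟩
      ⟨r1, hr1, by show f ∈ T _; rw [k1]; simp⟩
    have h1 : e ∈ T (w + (y - w) * cis (τ * r)) := h1
    have h2 : f ∈ T (w + (y - w) * cis (τ * r)) := h2
    rcases hd hr with h3 | h3
    · have h3 : T (w + (y - w) * cis (τ * r)) = {a, e} := h3
      rw [h3] at h2
      rcases h2 with h4 | h4
      exacts [haf h4.symm, hef h4.symm]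
    · have h3 : T (w + (y - w) * cis (τ * r)) = {a, f} := h3
      rw [h3] at h1
      rcases h1 with h4 | h4
      exacts [hae h4.symm, hef h4]
  have harc : ∀ {P : Set (Fin k)}, (∀ r ∈ Ioo 0 δ, T (w + (y - w) * cis (τ * r)) = P) →
      Arc T w (w + (y - w) * cis (τ * (δ / 2))) P := by
    intro P hP
    refine ⟨hcir _, ?_⟩
    rw [eventually_circle (hcir _)]
    filter_upwards [Ioo_mem_nhds (show -(δ / 2) < 0 by linarith) (show 0 < δ / 2 by linarith)]
      with t ht
    rw [add_sub_cancel_left, mul_assoc, ← cis_add]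
    have hτ2 : τ * τ = 1 := by rcases hτ with rfl | rfl <;> norm_num
    have h1 : τ * (δ / 2) + t = τ * (δ / 2 + τ * t) := by
      linear_combination (-t) * hτ2
    rw [h1]
    refine hP _ ?_
    rcases hτ with rfl | rfl
    · constructor <;> linarith [ht.1, ht.2]
    · constructor <;> linarith [ht.1, ht.2]
  rcases hconst with h1 | h1
  · exact ⟨_, Or.inl (harc h1)⟩
  · exact ⟨_, Or.inr (harc h1)⟩

/-- at a limit of exact `ef`-arcs of `S(y)` with at most three colours there is no `a` -/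
theorem ef_end3 (h : Irr U T) (hpal : T y = {a, b, e, f}) (hef : e ≠ f) (hae : a ≠ e)
    (haf : a ≠ f) (hyz : dist y z = 1) (hs : Sd U z y a b ∨ Sd U z y b a)
    (hw : w ∈ closure (Ex T y {e, f})) (hwz : w ≠ z) (hwz2 : w + z ≠ 2 * y)
    (h3 : (T w).ncard ≤ 3) : a ∉ T w := by
  intro ha
  have hwef := sub_of_closure h hw
  obtain ⟨v, hv | hv⟩ := ef_end h hpal hef hae haf hyz hs hw hwz hwz2 ha
  · refine h.not_sub hv.1 h3 ?_
    rw [hv.mem]
    rintro i (rfl | hi)
    · exact ha
    · rw [mem_singleton_iff] at hi; subst hi; exact hwef (Or.inl rfl)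
  · refine h.not_sub hv.1 h3 ?_
    rw [hv.mem]
    rintro i (rfl | hi)
    · exact ha
    · rw [mem_singleton_iff] at hi; subst hi; exact hwef (Or.inr rfl)

/-- **(i)** exact `ef`-arcs of `S(y)` on both sides of `w`: neither `a` nor `b` at `w` -/
theorem ef_inner (h : Irr U T) (hpal : T y = {a, b, e, f}) (hyz : dist y z = 1)
    (hs : Sd U z y a b) (hwy : dist w y = 1) (hwz : w ≠ z) (hwz2 : w + z ≠ 2 * y)
    (hC : ∀ᶠ q in 𝓝[sphere y 1] w, q ∈ closure (Ex T y {e, f})) : a ∉ T w ∧ b ∉ T w := by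
  have hzy : dist z y = 1 := by rw [dist_comm]; exact hyz
  have hcr : cr (w - y) (z - y) ≠ 0 := by
    intro h1
    rcases cr_zero (by rw [← dist_eq_norm]; exact hwy) (by rw [← dist_eq_norm]; exact hzy) h1
      with h4 | h4
    · exact hwz (by linear_combination h4)
    · exact hwz2 (by linear_combination h4)
  obtain ⟨σ, hσ, hpos⟩ : ∃ σ : ℝ, (σ = 1 ∨ σ = -1) ∧ 0 < σ * cr (w - y) (z - y) := by
    rcases lt_or_gt_of_ne hcr with h1 | h1
    · exact ⟨-1, Or.inr rfl, by linarith⟩
    · exact ⟨1, Or.inl rfl, by linarith⟩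
  have hcont : Continuous fun g : ℂ => σ * cr (g - y) (z - y) := by unfold cr; fun_prop
  have hQ : ∀ᶠ g in 𝓝 w, 0 < σ * cr (g - y) (z - y) :=
    hcont.continuousAt.eventually (Ioi_mem_nhds hpos)
  have hσ' : -σ = 1 ∨ -σ = -1 := by
    rcases hσ with rfl | rfl
    · right; rfl
    · left; norm_num
  obtain ⟨g, hg1, hg2, hg3⟩ := exists_side hwy hC hσ hQ
  obtain ⟨g', hg1', hg2', hg3'⟩ := exists_side hwy hC hσ' hQ
  have hsw : ∀ v : ℂ, cr (v - y) (w - y) = -cr (w - y) (v - y) := by
    intro v; unfold cr; simp only [Complex.sub_re, Complex.sub_im]; ring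
  have hJ : ∀ {v : ℂ}, v ∈ Ex T y {e, f} → ∀ᶠ q in 𝓝[sphere y 1] v, e ∈ T q ∧ f ∈ T q := by
    intro v hv
    filter_upwards [hv.2] with q hq
    rw [hq]; simp
  have s1 := (ef_sd h hpal hyz hs hg1.1 (hJ hg1) hσ hg2 hwy).2 (by rw [hsw]; linarith)
  have s2 := (ef_sd h hpal hyz hs hg1'.1 (hJ hg1') hσ hg2' hwy).1 (by rw [hsw]; linarith)
  exact ⟨fun ha => h.sd_unique ha s2 s1, fun hb => h.sd_unique hb s1 s2⟩

end Vale.Agent.P032.S5.H767
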