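import Vale.Agent.P032.R2.H333.Harm

/-!
# P032: contacts of type S3, the point `y` of any kind: the end of an exact `ef`-arc is a two-pair
point if it has four colours and two of them are outside `{e, f}` and on exact arcs with `e` or `f`
-/

open Set Filter Topology Metric

noncomputable section

namespace Vale.Agent.P032.S5.H767

open Vale.Agent.P032.Six Vale.Agent.P032.Words

variable {U : Fin 6 → Set ℂ} {T : ℂ → Set (Fin 6)} {z y w : ℂ} {a b c e f : Fin 6}

/-- `[Mn]` exact arcs `a x` and `c x'` with `x, x' ∈ {e, f}` at a point with the palette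
`{a, c, e, f}`: a two-pair point `ae | cf` or `af | ce` -/
theorem dpt_of_two (h : Irr U T) (hmin : Mn U T) (hT : T w = {a, c, e, f})
    (nd : [a, c, e, f].Nodup) (h1 : ∃ v, Arc T w v {a, e} ∨ Arc T w v {a, f})
    (h2 : ∃ v, Arc T w v {c, e} ∨ Arc T w v {c, f}) : DPt T w a e c f ∨ DPt T w a f c e := by
  simp only [List.nodup_cons, List.mem_cons, List.not_mem_nil, or_false, not_or, List.nodup_nil,
    and_true, not_false_eq_true] at nd
  obtain ⟨⟨ac, ae, af⟩, ⟨ce, cf⟩, ef⟩ := nd
  have h4 : (T w).ncard = 4 := by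
    have : ({a, c, e, f} : Set (Fin 6)) = (({a, c, e, f} : Finset (Fin 6)) : Set (Fin 6)) := by
      simp
    rw [hT, this, Set.ncard_coe_finset, Finset.card_insert_of_notMem, Finset.card_insert_of_notMem,
      Finset.card_pair ef]
    · simp [ce, cf]
    · simp [ac, ae, af]
  -- two exact pairs with a common colour
  have key : ∀ {v v' : ℂ} {i j m : Fin 6}, Arc T w v {i, m} → Arc T w v' {j, m} → i ≠ j → i ≠ m →
      j ≠ m → i ∈ T w → j ∈ T w → m ∈ T w → False := by
    intro v v' i j m hv hv' hij him hjm hi hj hm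
    have k1 := hv.mem
    have k2 := hv'.mem
    rcases h.pairs_disjoint hmin h4 hv.1 hv'.1 (by
        rw [k1]; rintro s (rfl | hs)
        · exact hi
        · rw [mem_singleton_iff] at hs; subst hs; exact hm) (by
        rw [k2]; rintro s (rfl | hs)
        · exact hj
        · rw [mem_singleton_iff] at hs; subst hs; exact hm)
        (by rw [k1, Set.ncard_pair him]) (by rw [k2, Set.ncard_pair hjm]) with h5 | h5
    · rw [k1, k2] at h5
      have h6 : i ∈ ({j, m} : Set (Fin 6)) := by rw [← h5]; simp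
      rcases h6 with h7 | h7
      exacts [hij h7, him h7]
    · rw [k1, k2, Set.disjoint_left] at h5
      exact h5 (a := m) (by simp) (by simp)
  have ma : a ∈ T w := by rw [hT]; simp
  have mc : c ∈ T w := by rw [hT]; simp
  have me : e ∈ T w := by rw [hT]; simp
  have mf : f ∈ T w := by rw [hT]; simp
  obtain ⟨v, hv | hv⟩ := h1 <;> obtain ⟨v', hv' | hv'⟩ := h2
  · exact (key hv hv' ac ae ce ma mc me).elim
  · left
    exact ⟨by rw [hT]; ext i; simp only [mem_insert_iff, mem_singleton_iff]; tauto, ac, af,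
      Ne.symm ce, ef, ae, cf, ⟨v, hv⟩, ⟨v', hv'⟩⟩
  · right
    exact ⟨by rw [hT]; ext i; simp only [mem_insert_iff, mem_singleton_iff]; tauto, ac, ae,
      Ne.symm cf, Ne.symm ef, af, ce, ⟨v, hv⟩, ⟨v', hv'⟩⟩
  · exact (key hv hv' ac af cf ma mc mf).elim

/-- `[Mn]` a limit `w` of exact `ef`-arcs of `S(y)` with `T w = T y` is a two-pair point `ae | bf` or
`af | be` -/
theorem ef_top (h : Irr U T) (hmin : Mn U T) (hpal : T y = {a, b, e, f})
    (nd : [a, b, e, f].Nodup) (hyz : dist y z = 1) (hs : Sd U z y a b ∨ Sd U z y b a)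
    (hw : w ∈ closure (Ex T y {e, f})) (hwz : w ≠ z) (hwz2 : w + z ≠ 2 * y)
    (hT : T w = {a, b, e, f}) : DPt T w a e b f ∨ DPt T w a f b e := by
  have nd' := nd
  simp only [List.nodup_cons, List.mem_cons, List.not_mem_nil, or_false, not_or, List.nodup_nil,
    and_true, not_false_eq_true] at nd
  obtain ⟨⟨ab, ae, af⟩, ⟨be, bf⟩, ef⟩ := nd
  refine dpt_of_two h hmin hT nd' ?_ ?_
  · exact ef_end h hpal ef ae af hyz hs hw hwz hwz2 (by rw [hT]; simp)
  · exact ef_end (a := b) (b := a) h (by
      rw [hpal]; ext i; simp only [mem_insert_iff, mem_singleton_iff]; tauto) ef be bf hyz hs.symm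
      hw hwz hwz2 (by rw [hT]; simp)

end Vale.Agent.P032.S5.H767
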