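import Vale.Agent.P032.R2.H333.Gen

/-!
# P032: the word of a two-pair centre all of whose four coloured contacts are of type S3

`Ws U T z a b c d e f`: every point of `S(z)` has at most three colours or the palette `{a, b, e, f}`
(and no exact `ab`-arcs of `S(z)` accumulate there) or the palette `{c, d, e, f}` (no exact `cd`-arcs).
The contacts may be of any kind (two-pair, harmless) and of any number.  `Ws.rawS`: the ring axioms.
-/

open Set Filter Topology Metric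

noncomputable section

namespace Vale.Agent.P032.Words

/-- the word of a two-pair centre in the S3 world; `K2`, `K3`: the contacts with the palettes
`{a, b, e, f}`, `{c, d, e, f}` -/
structure RawS (X : Fin 4 → Set ℝ) (K2 K3 : Set ℝ) : Prop where
  closed : ∀ l, IsClosed (X l)
  cover : ∀ u, ∃ l, u ∈ X l
  per : ∀ l u, u + 6 ∈ X l ↔ u ∈ X l
  free : ∀ l u, (∀ᶠ v in 𝓝 u, v ∈ X l) → u + 1 ∉ X l ∧ u - 1 ∉ X l
  own : ∀ u l, u ∈ X l → u + 1 ∈ X l → ∃ m, m ≠ l ∧ u ∈ X m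
  own' : ∀ u l, u ∈ X l → u + 1 ∈ X l → ∃ m, m ≠ l ∧ u + 1 ∈ X m
  anti : ∀ u, u ∈ X 2 → u + 3 ∉ X 3
  ac : ∀ u, u ∈ X 2 → u ∉ X 3
  two : ∀ u l m n, u ∈ X l → u ∈ X m → u ∈ X n → l = m ∨ m = n ∨ n = l
  /-- a common pair of letters of two neighbours is `e, f`, and one of them is a contact -/
  swap : ∀ u l m, l ≠ m → u ∈ X l → u ∈ X m → u + 1 ∈ X l → u + 1 ∈ X m →
    (l.val < 2 ∧ m.val < 2) ∧ (u ∈ K2 ∪ K3 ∨ u + 1 ∈ K2 ∪ K3)
  dbl : ∀ u l m, l ≠ m → u ∈ X l → u + 1 ∈ X l → u + 1 ∈ X m → u + 2 ∈ X m →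
    l.val < 2 ∧ m.val < 2
  three : ∀ u l m, l ≠ m → u ∈ X l → u + 1 ∈ X l → u + 1 ∈ X m → u + 2 ∈ X m →
    ¬ (u ∈ X 2 ∧ u + 2 ∈ X 3) ∧ ¬ (u ∈ X 3 ∧ u + 2 ∈ X 2)
  /-- a contact has exactly the letters `e, f` -/
  ctc : ∀ u, u ∈ K2 ∪ K3 → u ∈ X 0 ∧ u ∈ X 1 ∧ u ∉ X 2 ∧ u ∉ X 3
  /-- the flanks of a contact -/
  flank2 : ∀ u ∈ K2, (u + 1 ∉ X 2 ∧ (u + 1 ∈ X 3 ∨ (u + 1 ∈ X 0 ∧ u + 1 ∈ X 1))) ∧
    (u - 1 ∉ X 2 ∧ (u - 1 ∈ X 3 ∨ (u - 1 ∈ X 0 ∧ u - 1 ∈ X 1)))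
  flank3 : ∀ u ∈ K3, (u + 1 ∉ X 3 ∧ (u + 1 ∈ X 2 ∨ (u + 1 ∈ X 0 ∧ u + 1 ∈ X 1))) ∧
    (u - 1 ∉ X 3 ∧ (u - 1 ∈ X 2 ∨ (u - 1 ∈ X 0 ∧ u - 1 ∈ X 1)))

end Vale.Agent.P032.Words

namespace Vale.Agent.P032.S5.H767

open Vale.Agent.P032.Six Vale.Agent.P032.Words

variable {U : Fin 6 → Set ℂ} {T : ℂ → Set (Fin 6)} {z : ℂ} {a b c d e f : Fin 6}

/-- a two-pair centre in the S3 world -/
structure Ws (U : Fin 6 → Set ℂ) (T : ℂ → Set (Fin 6)) (z : ℂ) (a b c d e f : Fin 6) : Prop where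
  ctr : Ctr U T z a b c d e f
  dpt : DPt T z a b c d
  min : Mn U T
  pts : ∀ y, dist y z = 1 → (T y).ncard ≤ 3 ∨ (T y = {a, b, e, f} ∧ y ∉ closure (Ex T z {a, b})) ∨
    (T y = {c, d, e, f} ∧ y ∉ closure (Ex T z {c, d}))

namespace Ws

theorem swapAC (W : Ws U T z a b c d e f) : Ws U T z c d a b e f :=
  ⟨W.ctr.swapAC, W.dpt.swap, W.min, fun y hy => by
    rcases W.pts y hy with h | h | h
    exacts [Or.inl h, Or.inr (Or.inr h), Or.inr (Or.inl h)]⟩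

/-- a point with the letter `A` has at most three colours -/
theorem le_A (W : Ws U T z a b c d e f) {y : ℂ} (hy : y ∈ Lt T z a b c d e f 2) :
    (T y).ncard ≤ 3 := by
  obtain ⟨⟨ab, ac, ad, ae, af⟩, -⟩ := W.ctr.sep
  rcases W.pts y (Lt_dist hy) with h | h | h
  · exact h
  · exact absurd hy h.2
  · exfalso
    have h1 := Lt_col W.ctr.irr hy (show a ∈ ({a, b} : Set (Fin 6)) from Or.inl rfl)
    rw [h.1] at h1
    simp only [mem_insert_iff, mem_singleton_iff] at h1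
    rcases h1 with h2 | h2 | h2 | h2
    exacts [ac h2, ad h2, ae h2, af h2]

/-- a point with the letter `C` has at most three colours -/
theorem le_C (W : Ws U T z a b c d e f) {y : ℂ} (hy : y ∈ Lt T z a b c d e f 3) :
    (T y).ncard ≤ 3 := W.swapAC.le_A (y := y) hy

theorem le_pair (W : Ws U T z a b c d e f) {y : ℂ} {l : Fin 4} (hl : y ∈ Lt T z a b c d e f l)
    (h2 : 2 ≤ l.val) : (T y).ncard ≤ 3 := by
  have e23 : ∀ n : Fin 4, 2 ≤ n.val → n = 2 ∨ n = 3 := by decide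
  rcases e23 l h2 with rfl | rfl
  · exact W.le_A hl
  · exact W.le_C hl

/-- the letters of a four coloured point -/
theorem four_letter (W : Ws U T z a b c d e f) {y : ℂ} {l : Fin 4}
    (hl : y ∈ Lt T z a b c d e f l) (h4 : ¬ (T y).ncard ≤ 3) : l.val < 2 := by
  by_contra h
  exact h4 (W.le_pair hl (not_lt.1 h))

theorem s3g (W : Ws U T z a b c d e f) {y p : ℂ} (hT : T y = {a, b, e, f}) (hy : dist y z = 1)
    (hp : dist p z = 1) (hpy : dist p y = 1) : S3g U T z y p a b c d e f :=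
  ⟨W.ctr, hT, hy, hp, hpy⟩

/-- no `A` at a flank -/
theorem flank_noA (W : Ws U T z a b c d e f) {y p : ℂ} (hT : T y = {a, b, e, f})
    (hy : dist y z = 1) (hp : dist p z = 1) (hpy : dist p y = 1) :
    p ∉ Lt T z a b c d e f 2 := by
  intro hA
  obtain ⟨⟨ab, ac, ad, ae, af⟩, -⟩ := W.ctr.sep
  have h3 := W.le_A hA
  have ha : a ∈ T p := Lt_col W.ctr.irr hA (show a ∈ ({a, b} : Set (Fin 6)) from Or.inl rfl)
  rcases (W.s3g hT hy hp hpy).list W.min h3 with ⟨-, h | h | h⟩ | h | h | h <;>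
    (rw [h] at ha; simp only [mem_insert_iff, mem_singleton_iff] at ha)
  · rcases ha with h1 | h1
    exacts [ac h1, ad h1]
  · rcases ha with h1 | h1 | h1
    exacts [ac h1, ad h1, ae h1]
  · rcases ha with h1 | h1 | h1
    exacts [ac h1, ad h1, af h1]
  · rcases ha with h1 | h1
    exacts [ae h1, af h1]
  · rcases ha with h1 | h1 | h1
    exacts [ae h1, af h1, ac h1]
  · rcases ha with h1 | h1 | h1
    exacts [ae h1, af h1, ad h1]

/-- the letters of a flank -/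
theorem flank_letters (W : Ws U T z a b c d e f) {y p : ℂ} (hT : T y = {a, b, e, f})
    (hy : dist y z = 1) (hp : dist p z = 1) (hpy : dist p y = 1) :
    p ∈ Lt T z a b c d e f 3 ∨ (p ∈ Lt T z a b c d e f 0 ∧ p ∈ Lt T z a b c d e f 1) := by
  rcases (W.s3g hT hy hp hpy).letters with h | h | h
  · exact Or.inl h
  · exact Or.inr ⟨⟨hp, h.1⟩, hp, h.2⟩
  · exact absurd h.1 (W.flank_noA hT hy hp hpy)

theorem two (W : Ws U T z a b c d e f) {y : ℂ} {l m n : Fin 4} (hl : y ∈ Lt T z a b c d e f l)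
    (hm : y ∈ Lt T z a b c d e f m) (hn : y ∈ Lt T z a b c d e f n) : l = m ∨ m = n ∨ n = l := by
  by_cases h3 : (T y).ncard ≤ 3
  · rcases W.ctr.two h3 hl hm hn with h | h | h
    exacts [Or.inl h, Or.inr (Or.inr h.symm), Or.inr (Or.inl h)]
  · have h1 := W.four_letter hl h3
    have h2 := W.four_letter hm h3
    have h4 := W.four_letter hn h3
    have key : ∀ l m n : Fin 4, l.val < 2 → m.val < 2 → n.val < 2 → l = m ∨ m = n ∨ n = l := by
      decide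
    exact key l m n h1 h2 h4

/-- the palette of a point with at least four colours -/
theorem four_pal (W : Ws U T z a b c d e f) {y : ℂ} (hy : dist y z = 1)
    (h4 : ¬ (T y).ncard ≤ 3) : T y = {a, b, e, f} ∨ T y = {c, d, e, f} := by
  rcases W.pts y hy with h | h | h
  exacts [absurd h h4, Or.inl h.1, Or.inr h.1]

theorem swap (W : Ws U T z a b c d e f) {y y' : ℂ} {l m : Fin 4} (hlm : l ≠ m)
    (hyy : dist y y' = 1) (hl : y ∈ Lt T z a b c d e f l) (hm : y ∈ Lt T z a b c d e f m)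
    (hl' : y' ∈ Lt T z a b c d e f l) (hm' : y' ∈ Lt T z a b c d e f m) :
    (l.val < 2 ∧ m.val < 2) ∧ (¬ (T y).ncard ≤ 3 ∨ ¬ (T y').ncard ≤ 3) := by
  by_cases h3 : (T y).ncard ≤ 3
  · by_cases h3' : (T y').ncard ≤ 3
    · exact absurd hyy fun _ => C_false hlm hyy h3 h3' hl hm hl' hm'
    · exact ⟨⟨W.four_letter hl' h3', W.four_letter hm' h3'⟩, Or.inr h3'⟩
  · exact ⟨⟨W.four_letter hl h3, W.four_letter hm h3⟩, Or.inl h3⟩
where
  C_false {y y' : ℂ} {l m : Fin 4} (hlm : l ≠ m) (hyy : dist y y' = 1) (h3 : (T y).ncard ≤ 3)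
      (h3' : (T y').ncard ≤ 3) (hl : y ∈ Lt T z a b c d e f l) (hm : y ∈ Lt T z a b c d e f m)
      (hl' : y' ∈ Lt T z a b c d e f l) (hm' : y' ∈ Lt T z a b c d e f m) : False :=
    W.ctr.noswap hlm hyy h3 h3' hl hm hl' hm'

/-- the first letter of a double contact is `e` or `f` -/
theorem dbl_aux (W : Ws U T z a b c d e f) {y y' y'' : ℂ} {l m : Fin 4} (hlm : l ≠ m)
    (hyy : dist y y' = 1) (hyy' : dist y y'' = 1) (hne : y'' ≠ y') (hne2 : y'' + y' ≠ 2 * y)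
    (hl : y ∈ Lt T z a b c d e f l) (hl' : y' ∈ Lt T z a b c d e f l)
    (hm : y ∈ Lt T z a b c d e f m) (hm' : y'' ∈ Lt T z a b c d e f m) : l.val < 2 := by
  by_contra hcon
  obtain ⟨⟨ab, ac, ad, ae, af⟩, ⟨bc, bd, be, bf⟩, ⟨cd, ce, cf⟩, ⟨de, df⟩, ef⟩ := W.ctr.sep
  have C := W.ctr
  have hy := Lt_dist hl
  have hy' := Lt_dist hl'
  have h3 := W.le_pair hl (not_lt.1 hcon)
  have h3' := W.le_pair hl' (not_lt.1 hcon)
  have kl := Lt_col C.irr hl
  have kl' := Lt_col C.irr hl'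
  have e23 : ∀ n : Fin 4, ¬ n.val < 2 → n = 2 ∨ n = 3 := by decide
  rcases e23 l hcon with rfl | rfl
  · exact C.dblPair hlm hyy hyy' hne hne2 h3 h3' ab hy hy' (kl (Or.inl rfl)) (kl (Or.inr rfl))
      (kl' (Or.inl rfl)) (kl' (Or.inr rfl)) (fun h => C.ne_col hlm (Or.inl rfl) h rfl)
      (fun h => C.ne_col hlm (Or.inr rfl) h rfl) hm hm'
  · exact C.dblPair hlm hyy hyy' hne hne2 h3 h3' cd hy hy' (kl (Or.inl rfl)) (kl (Or.inr rfl))
      (kl' (Or.inl rfl)) (kl' (Or.inr rfl)) (fun h => C.ne_col hlm (Or.inl rfl) h rfl)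
      (fun h => C.ne_col hlm (Or.inr rfl) h rfl) hm hm'

theorem dbl (W : Ws U T z a b c d e f) {y y' y'' : ℂ} {l m : Fin 4} (hlm : l ≠ m)
    (hyy : dist y y' = 1) (hyy' : dist y y'' = 1) (hne : y'' ≠ y') (hne2 : y'' + y' ≠ 2 * y)
    (hl : y ∈ Lt T z a b c d e f l) (hl' : y' ∈ Lt T z a b c d e f l)
    (hm : y ∈ Lt T z a b c d e f m) (hm' : y'' ∈ Lt T z a b c d e f m) :
    l.val < 2 ∧ m.val < 2 :=
  ⟨W.dbl_aux hlm hyy hyy' hne hne2 hl hl' hm hm',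
    W.dbl_aux hlm.symm hyy' hyy hne.symm (by rw [add_comm]; exact hne2) hm hm' hl hl'⟩

/-- the neighbours of a double contact do not carry `A` and `C` -/
theorem three (W : Ws U T z a b c d e f) {y y' y'' : ℂ} {l m : Fin 4} (hlm : l ≠ m)
    (hyy : dist y y' = 1) (hyy' : dist y y'' = 1) (hne : y'' ≠ y') (hne2 : y'' + y' ≠ 2 * y)
    (hl : y ∈ Lt T z a b c d e f l) (hl' : y' ∈ Lt T z a b c d e f l)
    (hm : y ∈ Lt T z a b c d e f m) (hm' : y'' ∈ Lt T z a b c d e f m)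
    (k1 : y' ∈ Lt T z a b c d e f 2) (k2 : y'' ∈ Lt T z a b c d e f 3) : False := by
  have C := W.ctr
  have hy := Lt_dist hl
  have hy' := Lt_dist hl'
  have hy'' := Lt_dist hm'
  by_cases h3 : (T y).ncard ≤ 3
  · obtain ⟨-, x, hxz, -, hx', hx''⟩ := C.dbl hlm hyy hyy' hne hne2 h3 (W.le_A k1) (W.le_C k2)
      hl hl' hm hm'
    have hx : x ∈ ({a, b} : Set (Fin 6)) ∨ x ∈ ({c, d} : Set (Fin 6)) := by
      rw [C.pal] at hxz
      rcases hxz with rfl | rfl | h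
      · exact Or.inl (Or.inl rfl)
      · exact Or.inl (Or.inr rfl)
      · exact Or.inr h
    rcases hx with h | h
    · exact hx' (Lt_col C.irr k1 h)
    · exact hx'' (Lt_col C.irr k2 h)
  · rcases W.four_pal hy h3 with hT | hT
    · exact W.flank_noA hT hy hy' (by rw [dist_comm]; exact hyy) k1
    · exact W.swapAC.flank_noA hT hy hy'' (by rw [dist_comm]; exact hyy') k2

/-- **The ring axioms in the S3 world.** -/
theorem rawS (W : Ws U T z a b c d e f) : RawS (Xs T z a b c d e f)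
    {u | T (pt z u) = {a, b, e, f}} {u | T (pt z u) = {c, d, e, f}} := by
  obtain ⟨⟨ab, ac, ad, ae, af⟩, ⟨bc, bd, be, bf⟩, ⟨cd, ce, cf⟩, ⟨de, df⟩, ef⟩ := W.ctr.sep
  have R := W.ctr.rawU W.dpt
  have n4 : ∀ {i j m n : Fin 6} {y : ℂ}, T y = {i, j, m, n} → [i, j, m, n].Nodup →
      ¬ (T y).ncard ≤ 3 := by
    intro i j m n y hT hn h3
    have := four_le (s := T y) (by rw [hT]; simp) (by rw [hT]; simp) (by rw [hT]; simp)
      (by rw [hT]; simp) hn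
    omega
  have nab : [a, b, e, f].Nodup := by simp [ab, ae, af, be, bf, ef]
  have ncd : [c, d, e, f].Nodup := by simp [cd, ce, cf, de, df, ef]
  have hK : ∀ y, dist y z = 1 → ¬ (T y).ncard ≤ 3 → T y = {a, b, e, f} ∨ T y = {c, d, e, f} :=
    fun y h1 h2 => W.four_pal h1 h2
  have hd1 : ∀ u : ℝ, dist (pt z (u + 1)) (pt z u) = 1 := fun u => by
    rw [dist_comm]; exact dist_pt_one z u
  have hd2 : ∀ u : ℝ, dist (pt z (u - 1)) (pt z u) = 1 := fun u => by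
    have := dist_pt_one z (u - 1)
    rwa [sub_add_cancel] at this
  have hd3 : ∀ u : ℝ, dist (pt z (u + 1)) (pt z (u + 2)) = 1 := fun u => by
    have := dist_pt_one z (u + 1)
    rwa [show u + 1 + 1 = u + 2 by ring] at this
  refine ⟨W.ctr.x_closed, W.ctr.x_cover, W.ctr.x_per, R.free, fun u l h h' => W.ctr.x_own h h',
    fun u l h h' => W.ctr.x_own' h h', R.anti, fun u h => W.ctr.x_ac (W.le_A h) h,
    fun u l m n hl hm hn => W.two hl hm hn, ?_, ?_, ?_, ?_, ?_, ?_⟩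
  · intro u l m hlm h1 h2 h4 h5
    obtain ⟨k1, k2⟩ := W.swap hlm (dist_pt_one z u) h1 h2 h4 h5
    refine ⟨k1, k2.imp (fun h => ?_) fun h => ?_⟩
    · exact hK _ (dist_pt z u) h
    · exact hK _ (dist_pt z (u + 1)) h
  · intro u l m hlm h1 h2 h4 h5
    obtain ⟨k1, k2⟩ := pt_off z u
    exact W.dbl hlm (hd1 u) (hd3 u) k1 k2 h2 h1 h4 h5
  · intro u l m hlm h1 h2 h4 h5
    obtain ⟨k1, k2⟩ := pt_off z u
    constructor
    · rintro ⟨g1, g2⟩
      exact W.three hlm (hd1 u) (hd3 u) k1 k2 h2 h1 h4 h5 g1 g2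
    · rintro ⟨g1, g2⟩
      exact W.three hlm.symm (hd3 u) (hd1 u) k1.symm (by rw [add_comm]; exact k2) h4 h5 h2 h1 g2 g1
  · rintro u (hu | hu)
    · have hu : T (pt z u) = {a, b, e, f} := hu
      have h4 := n4 hu nab
      exact ⟨⟨dist_pt z u, by rw [hu]; simp⟩, ⟨dist_pt z u, by rw [hu]; simp⟩,
        fun h => h4 (W.le_A h), fun h => h4 (W.le_C h)⟩
    · have hu : T (pt z u) = {c, d, e, f} := hu
      have h4 := n4 hu ncd
      exact ⟨⟨dist_pt z u, by rw [hu]; simp⟩, ⟨dist_pt z u, by rw [hu]; simp⟩,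
        fun h => h4 (W.le_A h), fun h => h4 (W.le_C h)⟩
  · intro u hu
    have hu : T (pt z u) = {a, b, e, f} := hu
    exact ⟨⟨W.flank_noA hu (dist_pt z u) (dist_pt z _) (hd1 u),
      W.flank_letters hu (dist_pt z u) (dist_pt z _) (hd1 u)⟩,
      W.flank_noA hu (dist_pt z u) (dist_pt z _) (hd2 u),
      W.flank_letters hu (dist_pt z u) (dist_pt z _) (hd2 u)⟩
  · intro u hu
    have hu : T (pt z u) = {c, d, e, f} := hu
    exact ⟨⟨W.swapAC.flank_noA hu (dist_pt z u) (dist_pt z _) (hd1 u),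
      W.swapAC.flank_letters hu (dist_pt z u) (dist_pt z _) (hd1 u)⟩,
      W.swapAC.flank_noA hu (dist_pt z u) (dist_pt z _) (hd2 u),
      W.swapAC.flank_letters hu (dist_pt z u) (dist_pt z _) (hd2 u)⟩

end Ws

end Vale.Agent.P032.S5.H767
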