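import Vale.Agent.P032.R2.H333.Side
import Vale.Agent.P032.R2.H479.Shrink
import Vale.Agent.P032.S5.H767.Exc

/-!
# P032: contacts of type S1 (`T p = T z`): both arc letters occur at `p`

`Irr.s1_both`: `z` a two-pair point `ab | cd`, `p` on `S(z)` with the same palette: exact `ab`-arcs and
exact `cd`-arcs of `S(z)` accumulate at `p`.
-/

open Set Filter Topology Metric

noncomputable section

namespace Vale.Agent.P032.S5.H767

open Vale.Agent.P032.Six Vale.Agent.P032.Words

section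

variable {k : ℕ} {U : Fin k → Set ℂ} {T : ℂ → Set (Fin k)} {z p : ℂ}

/-- exact arcs on a given side of `p` -/
theorem exists_side {P : Set (Fin k)} (hpz : dist p z = 1)
    (hC : ∀ᶠ q in 𝓝[sphere z 1] p, q ∈ closure (Ex T z P)) {σ : ℝ} (hσ : σ = 1 ∨ σ = -1)
    {Q : ℂ → Prop} (hQ : ∀ᶠ q in 𝓝 p, Q q) :
    ∃ g, g ∈ Ex T z P ∧ Q g ∧ 0 < σ * cr (p - z) (g - z) := by
  obtain ⟨N, hN, hNo, hpN⟩ := _root_.mem_nhds_iff.1 hQ
  rw [eventually_circle hpz] at hC
  have hn : ‖p - z‖ = 1 := by rw [← dist_eq_norm]; exact hpz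
  have h1 : Tendsto (fun s : ℝ => σ * s) (𝓝[>] 0) (𝓝 0) := by
    have : Continuous fun s : ℝ => σ * s := by fun_prop
    have h2 := this.tendsto 0
    rw [mul_zero] at h2
    exact h2.mono_left nhdsWithin_le_nhds
  have h2 : ∀ᶠ t : ℝ in 𝓝 0, z + (p - z) * cis t ∈ N := by
    have : Continuous fun t : ℝ => z + (p - z) * cis t :=
      continuous_const.add (continuous_const.mul continuous_cis)
    have h3 := this.tendsto 0
    have e : z + (p - z) * cis 0 = p := by simp [cis]
    rw [e] at h3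
    exact h3.eventually (hNo.mem_nhds hpN)
  obtain ⟨s, ⟨hs1, hs2⟩, hs3, hs4⟩ := ((h1.eventually (hC.and h2)).and
    (Ioo_mem_nhdsGT Real.pi_pos : ∀ᶠ s : ℝ in 𝓝[>] 0, s ∈ Ioo 0 Real.pi)).exists
  set v := z + (p - z) * cis (σ * s) with hv
  have hcr : 0 < σ * cr (p - z) (v - z) := by
    have e : cr (p - z) (v - z) = Real.sin (σ * s) := by
      have h4 := ip_sq hn
      rw [hv, add_sub_cancel_left]
      unfold cr
      simp only [Complex.mul_re, Complex.mul_im, cis_re, cis_im]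
      linear_combination Real.sin (σ * s) * h4
    rw [e]
    have h5 := Real.sin_pos_of_pos_of_lt_pi hs3 hs4
    rcases hσ with rfl | rfl
    · simpa using h5
    · simp only [neg_mul, one_mul, Real.sin_neg, neg_neg]; exact h5
  have hcont : Continuous fun g : ℂ => σ * cr (p - z) (g - z) := by
    unfold cr; fun_prop
  have hO : ∀ᶠ g in 𝓝 v, g ∈ N ∧ 0 < σ * cr (p - z) (g - z) :=
    (show ∀ᶠ g in 𝓝 v, g ∈ N from hNo.mem_nhds hs2).and (hcont.continuousAt.eventually (Ioi_mem_nhds hcr))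
  rw [mem_closure_iff_frequently] at hs1
  obtain ⟨g, hg1, hg2, hg3⟩ := (hs1.and_eventually hO).exists
  exact ⟨g, hg1, hN hg2, hg3⟩

/-- near `z` the circle about `p` has neither `c` nor `d`, if there are exact `cd`-arcs of `S(z)` on
both sides of `p` -/
theorem branch_free (h : Irr U T) {c d : Fin k} (hpz : dist p z = 1)
    (hC : ∀ᶠ q in 𝓝[sphere z 1] p, q ∈ closure (Ex T z {c, d}))
    (hs : Sd U z p c d) {τ : ℝ} (hτ : τ = 1 ∨ τ = -1) :
    ∀ᶠ t : ℝ in 𝓝[>] 0, c ∉ Pal U (p + (z - p) * cis (τ * t)) ∧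
      d ∉ Pal U (p + (z - p) * cis (τ * t)) := by
  have hs' : ∀ᶠ V in 𝓝 p, Sd U z V c d := eventually_eventually_nhds.2 hs
  have hτ' : -τ = 1 ∨ -τ = -1 := by
    rcases hτ with rfl | rfl
    · right; rfl
    · left; norm_num
  obtain ⟨g, hg1, hg2, hg3⟩ := exists_side hpz hC hτ hs'
  obtain ⟨g', hg1', hg2', hg3'⟩ := exists_side hpz hC hτ' hs'
  have k1 := h.sd_center (show Arc T z g {c, d} from hg1) hg2
  have k2 := h.sd_center (show Arc T z g' {c, d} from hg1') hg2'
  set V : ℂ := 2 * z - p with hV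
  have hVz : V - z = z - p := by rw [hV]; ring
  have hVp : 2 * z - V = p := by rw [hV]; ring
  have hcr1 : cr (V - z) (g - z) = -cr (p - z) (g - z) := by
    rw [hVz]; unfold cr; simp only [Complex.sub_re, Complex.sub_im]; ring
  have hcr2 : cr (V - z) (g' - z) = -cr (p - z) (g' - z) := by
    rw [hVz]; unfold cr; simp only [Complex.sub_re, Complex.sub_im]; ring
  have b1 := branch_out (z := z) (V := V) hg1.1 (τ := τ) (by rw [hcr1]; linarith)
  have b2 := branch_in (z := z) (V := V) hg1'.1 (τ := τ) (by rw [hcr2]; linarith)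
  have hten := tendsto_branch z V τ
  filter_upwards [b1, b2, hten.eventually k1, hten.eventually k2] with t h1 h2 h3 h4
  rw [hVp, hVz] at h1 h2 h3 h4
  exact ⟨h3.1 h1, h4.2 h2⟩

end

variable {U : Fin 6 → Set ℂ} {T : ℂ → Set (Fin 6)} {z p : ℂ} {a b c d e f : Fin 6}

/-- **S1, both letters.** -/
theorem Irr.s1_arc (h : Irr U T) (hz : DPt T z a b c d) (nd : [a, b, c, d, e, f].Nodup)
    (hpz : dist p z = 1) (hT : T p = {a, b, c, d}) (hA : p ∉ closure (Ex T z {a, b})) :
    (∀ᶠ q in 𝓝[sphere z 1] p, c ∈ T q ∧ d ∈ T q) ∧ (∃ v, Arc T p v {a, b}) ∧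
      ¬ ∃ v, Arc T p v {c, d} := by
  have C := ctr_of_dpt h hz nd
  obtain ⟨⟨ab, ac, ad, ae, af⟩, ⟨bc, bd, be, bf⟩, ⟨cd, ce, cf⟩, ⟨de, df⟩, ef⟩ := C.sep
  -- only the letter `C`
  have hC : ∀ᶠ q in 𝓝[sphere z 1] p, q ∈ closure (Ex T z {c, d}) := by
    filter_upwards [mem_nhdsWithin_of_mem_nhds (isClosed_closure.isOpen_compl.mem_nhds hA),
      mem_nhdsWithin_of_mem_nhds (h.nhd p), self_mem_nhdsWithin] with q h1 h2 h3
    rw [hT] at h2
    obtain ⟨l, hl⟩ := C.cover (y := q) h3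
    fin_cases l
    · exfalso
      have := h2 hl.2
      simp only [mem_insert_iff, mem_singleton_iff] at this
      rcases this with h4 | h4 | h4 | h4
      exacts [ae h4.symm, be h4.symm, ce h4.symm, de h4.symm]
    · exfalso
      have := h2 hl.2
      simp only [mem_insert_iff, mem_singleton_iff] at this
      rcases this with h4 | h4 | h4 | h4
      exacts [af h4.symm, bf h4.symm, cf h4.symm, df h4.symm]
    · exact absurd hl h1
    · exact hl
  have hCd : ∀ᶠ q in 𝓝[sphere z 1] p, c ∈ T q ∧ d ∈ T q := by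
    filter_upwards [hC] with q hq
    have := sub_of_closure h hq
    exact ⟨this (Or.inl rfl), this (Or.inr rfl)⟩
  -- the exact `ab`-arc of `S(p)`
  have hbr : ∀ᶠ t : ℝ in 𝓝[>] 0, c ∉ Pal U (p + (z - p) * cis (1 * t)) ∧
      d ∉ Pal U (p + (z - p) * cis (1 * t)) := by
    rcases h.sides hz.swap hpz with hs | hs
    · exact branch_free h hpz hC hs (Or.inl rfl)
    · refine (branch_free h hpz (by rw [pair_comm]; exact hC) hs (Or.inl rfl)).mono
        fun t ht => ⟨ht.2, ht.1⟩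
  have hzp : dist z p = 1 := by rw [dist_comm]; exact hpz
  have hzpn : ‖z - p‖ = 1 := by rw [← dist_eq_norm]; exact hzp
  have hcir : ∀ t : ℝ, dist (p + (z - p) * cis (1 * t)) p = 1 := by
    intro t
    rw [dist_eq_norm, add_sub_cancel_left, norm_mul, hzpn, norm_cis, one_mul]
  have hten : Tendsto (fun t : ℝ => p + (z - p) * cis (1 * t)) (𝓝[>] 0) (𝓝 z) := by
    have h0 := tendsto_branch z (2 * z - p) 1
    have e1 : 2 * z - (2 * z - p) = p := by ring
    have e2 : 2 * z - p - z = z - p := by ring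
    rw [e1, e2] at h0
    exact h0
  have hab : ∀ᶠ t : ℝ in 𝓝[>] 0, T (p + (z - p) * cis (1 * t)) = {a, b} := by
    filter_upwards [hbr, hten.eventually (h.nhd z)] with t h1 h2
    have hs : T (p + (z - p) * cis (1 * t)) ⊆ {a, b} := by
      intro i hi
      have h3 := h2 hi
      rw [hz.pal] at h3
      rcases h3 with rfl | rfl | rfl | h3
      · simp
      · simp
      · exact absurd (h.sub _ hi) h1.1
      · rw [mem_singleton_iff] at h3; subst h3
        exact absurd (h.sub _ hi) h1.2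
    have hpq : dist p (p + (z - p) * cis (1 * t)) = 1 := by rw [dist_comm]; exact hcir t
    have key : ∀ i j : Fin 6, i ∈ T p → T (p + (z - p) * cis (1 * t)) ⊆ {i, j} →
        j ∈ T (p + (z - p) * cis (1 * t)) := by
      intro i j hi hs
      by_contra hj
      have h3 : T (p + (z - p) * cis (1 * t)) ⊆ {i} := by
        intro m hm
        rcases hs hm with h4 | h4
        · exact h4
        · rw [mem_singleton_iff] at h4; subst h4; exact absurd hm hj
      exact h.mx.notMem' (h.mem_of_single h3) (hcir t) (h.sub p hi)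
    refine Subset.antisymm hs ?_
    rintro i (rfl | hi)
    · exact key b i (by rw [hT]; simp) (by rw [pair_comm]; exact hs)
    · rw [mem_singleton_iff] at hi; subst hi
      exact key a i (by rw [hT]; simp) hs
  have harc : ∃ v, Arc T p v {a, b} := by
    obtain ⟨δ, hδ, hd⟩ := mem_nhdsGT_iff_exists_Ioo_subset.1 hab
    rw [mem_Ioi] at hδ
    refine ⟨p + (z - p) * cis (1 * (δ / 2)), hcir _, ?_⟩
    rw [eventually_circle (hcir _)]
    filter_upwards [Ioo_mem_nhds (show -(δ / 2) < 0 by linarith) (show 0 < δ / 2 by linarith)]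
      with t ht
    have h1 := hd (show δ / 2 + t ∈ Ioo 0 δ from ⟨by linarith [ht.1], by linarith [ht.2]⟩)
    have h2 : T (p + (z - p) * cis (1 * (δ / 2 + t))) = {a, b} := h1
    rw [show (1 : ℝ) * (δ / 2 + t) = 1 * (δ / 2) + t by ring, cis_add] at h2
    rw [add_sub_cancel_left, mul_assoc]
    exact h2
  refine ⟨hCd, harc, ?_⟩
  rintro ⟨v, hv⟩
  obtain ⟨g, hg⟩ := harc
  refine h.no_arc (z := p) (a := c) (b := d) (c := a) (d := b) (p := v) (g := g) ?_ cd hv ?_ hg.1 ?_
  · rw [hT]; ext i; simp only [mem_insert_iff, mem_singleton_iff]; tauto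
  · have h1 := (freq_ne hpz).and_eventually hCd
    exact h1.filter_mono nhdsWithin_le_nhds
  · filter_upwards [hg.2] with q hq
    rw [hq]; simp

/-- **S1, both letters**: `T p = T z` on `S(z)`: exact `ab`-arcs of `S(z)` accumulate at `p` -/
theorem Irr.s1_left (h : Irr U T) (hmin : Mn U T) (hz : DPt T z a b c d)
    (nd : [a, b, c, d, e, f].Nodup) (hpz : dist p z = 1) (hT : T p = {a, b, c, d}) :
    p ∈ closure (Ex T z {a, b}) := by
  by_contra hA
  obtain ⟨hCd, ⟨v, hv⟩, hno⟩ := Irr.s1_arc h hz nd hpz hT hA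
  obtain ⟨⟨ab, ac, ad, ae, af⟩, ⟨bc, bd, be, bf⟩, ⟨cd, ce, cf⟩, ⟨de, df⟩, ef⟩ :=
    (ctr_of_dpt h hz nd).sep
  have h4 : (T p).ncard = 4 := by rw [hT, ← hz.pal]; exact hz.card
  have hvT : T v = {a, b} := hv.mem
  have hvs : T v ⊆ T p := by
    rw [hvT, hT]
    rintro i (rfl | rfl) <;> simp
  -- `p` is harmless with the pair `{a, b}`
  have hD : ∀ a' b' c' d', DPt T p a' b' c' d' → False := by
    intro a' b' c' d' hD
    have key : ∀ {a' b' c' d' : Fin 6}, DPt T p a' b' c' d' → ({a, b} : Set (Fin 6)) = {a', b'} →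
        False := by
      intro a' b' c' d' hD he
      have h1 : ({c', d'} : Set (Fin 6)) = {c, d} := by
        have e1 : ({c', d'} : Set (Fin 6)) = T p \ {a', b'} := by
          rw [hD.pal]
          ext i
          simp only [mem_insert_iff, mem_singleton_iff, Set.mem_sdiff, not_or]
          constructor
          · rintro (rfl | rfl)
            · exact ⟨by simp, hD.ac.symm, hD.bc.symm⟩
            · exact ⟨by simp, hD.ad.symm, hD.bd.symm⟩
          · rintro ⟨h2, h3, h5⟩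
            rcases h2 with h2 | h2 | h2 | h2
            exacts [absurd h2 h3, absurd h2 h5, Or.inl h2, Or.inr h2]
        rw [e1, ← he, hT]
        ext i
        simp only [mem_insert_iff, mem_singleton_iff, Set.mem_sdiff, not_or]
        constructor
        · rintro ⟨h2, h3, h5⟩
          rcases h2 with h2 | h2 | h2 | h2
          exacts [absurd h2 h3, absurd h2 h5, Or.inl h2, Or.inr h2]
        · rintro (rfl | rfl)
          · exact ⟨by simp, ac.symm, bc.symm⟩
          · exact ⟨by simp, ad.symm, bd.symm⟩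
      obtain ⟨w, hw⟩ := hD.arc2
      exact hno ⟨w, by rw [← h1]; exact hw⟩
    rcases h.twoPairs hD v hv.1 (by rw [hvT]; exact hv.2) hvs with h1 | h1
    · exact key hD (by rw [← hvT, h1])
    · exact key hD.swap (by rw [← hvT, h1])
  obtain ⟨A, hx⟩ := h.harm_of_noD hmin h4 ⟨v, hv.1, hvs⟩ hD
  have hAe : A = {a, b} := by
    have h1 : A ⊆ {a, b} := by rw [← hvT]; exact hx.h1 v hv.1 hvs
    exact Set.eq_of_subset_of_ncard_le h1 (by rw [hx.cardA, Set.ncard_pair ab]) (Set.toFinite _)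
  subst hAe
  have hct : ∀ {i r : Fin 6}, i ∈ ({a, b} : Set (Fin 6)) → r ∈ T p → r ∉ ({a, b} : Set (Fin 6)) →
      ∃ᶠ w in 𝓝 p, T w = {i, r} := fun hi hr hrA =>
    hx.contact h (fun s hs hne => hmin p (by omega) s hs hne) hi hr hrA
  -- no contact of `i` and `r` on different sides of `S(z)`
  have hfin : ∀ {i r s : Fin 6}, i ∈ ({a, b} : Set (Fin 6)) → r ∈ T p →
      r ∉ ({a, b} : Set (Fin 6)) → s ∉ ({i, r} : Set (Fin 6)) →
      (∀ᶠ q in 𝓝[sphere z 1] p, s ∈ T q) →
      (∀ᶠ x in 𝓝 p, 1 < dist x z → i ∉ Pal U x ∨ r ∉ Pal U x) →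
      (∀ᶠ x in 𝓝 p, dist x z < 1 → i ∉ Pal U x ∨ r ∉ Pal U x) → False := by
    intro i r s hi hr hrA hs hJ ho hin
    have hJ' : ∀ᶠ q in 𝓝 p, dist q z = 1 → s ∈ T q := by
      rw [eventually_nhdsWithin_iff] at hJ
      filter_upwards [hJ] with q hq h1
      exact hq h1
    obtain ⟨w, hw, h1, h2, h3⟩ := ((hct hi hr hrA).and_eventually (hJ'.and (ho.and hin))).exists
    have k1 : i ∈ Pal U w := h.sub w (by rw [hw]; simp)
    have k2 : r ∈ Pal U w := h.sub w (by rw [hw]; simp)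
    rcases lt_trichotomy (dist w z) 1 with h5 | h5 | h5
    · rcases h3 h5 with h6 | h6
      exacts [h6 k1, h6 k2]
    · exact hs (hw ▸ h1 h5)
    · rcases h2 h5 with h6 | h6
      exacts [h6 k1, h6 k2]
  have hcT : c ∈ T p := by rw [hT]; simp
  have hdT : d ∈ T p := by rw [hT]; simp
  have hcA : c ∉ ({a, b} : Set (Fin 6)) := by
    rintro (h1 | h1)
    exacts [ac h1.symm, bc h1.symm]
  have hdA : d ∉ ({a, b} : Set (Fin 6)) := by
    rintro (h1 | h1)
    exacts [ad h1.symm, bd h1.symm]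
  have hJc : ∀ᶠ q in 𝓝[sphere z 1] p, c ∈ T q := hCd.mono fun q hq => hq.1
  have hJd : ∀ᶠ q in 𝓝[sphere z 1] p, d ∈ T q := hCd.mono fun q hq => hq.2
  have ha : a ∈ ({a, b} : Set (Fin 6)) := Or.inl rfl
  have hb : b ∈ ({a, b} : Set (Fin 6)) := Or.inr rfl
  have nin : ∀ {x y w : Fin 6}, w ≠ x → w ≠ y → w ∉ ({x, y} : Set (Fin 6)) := by
    rintro x y w h1 h2 (h3 | h3)
    exacts [h1 h3, h2 h3]
  rcases h.sides hz hpz with s1 | s1 <;> rcases h.sides hz.swap hpz with s2 | s2
  · -- `a, c` absent outside, `b, d` absent inside: contact `a d`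
    exact hfin ha hdT hdA (nin ac.symm cd) hJc (s1.mono fun x hx h1 => Or.inl (hx.1 h1))
      (s2.mono fun x hx h1 => Or.inr (hx.2 h1))
  · exact hfin ha hcT hcA (nin ad.symm cd.symm) hJd (s1.mono fun x hx h1 => Or.inl (hx.1 h1))
      (s2.mono fun x hx h1 => Or.inr (hx.2 h1))
  · exact hfin hb hdT hdA (nin bc.symm cd) hJc (s1.mono fun x hx h1 => Or.inl (hx.1 h1))
      (s2.mono fun x hx h1 => Or.inr (hx.2 h1))
  · exact hfin hb hcT hcA (nin bd.symm cd.symm) hJd (s1.mono fun x hx h1 => Or.inl (hx.1 h1))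
      (s2.mono fun x hx h1 => Or.inr (hx.2 h1))

/-- **S1, both letters.** -/
theorem Irr.s1_both (h : Irr U T) (hmin : Mn U T) (hz : DPt T z a b c d)
    (nd : [a, b, c, d, e, f].Nodup) (hpz : dist p z = 1) (hT : T p = {a, b, c, d}) :
    p ∈ closure (Ex T z {a, b}) ∧ p ∈ closure (Ex T z {c, d}) := by
  refine ⟨Irr.s1_left h hmin hz nd hpz hT, Irr.s1_left (e := e) (f := f) h hmin hz.swap ?_ hpz ?_⟩
  · exact (ctr_of_dpt h hz nd).swapAC.nd
  · rw [hT]; ext i; simp only [mem_insert_iff, mem_singleton_iff]; tauto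

/-- **(5)** the flank of an S3 contact of two two-pair points has neither of the two palettes -/
theorem S3.ne_left {y : ℂ} (S : S3 U T z y p a b c d e f) (hmin : Mn U T)
    (hz : DPt T z a b c d) : T p ≠ {a, b, c, d} := fun hT =>
  S.noA (Irr.s1_left S.irr hmin hz S.nd S.pz hT)

theorem S3.ne_right {y : ℂ} (S : S3 U T z y p a b c d e f) (hmin : Mn U T)
    (hy : DPt T y a b e f) : T p ≠ {a, b, e, f} := fun hT =>
  S.symm.noA (Irr.s1_left S.irr hmin hy S.symm.nd S.py hT)

end Vale.Agent.P032.S5.H767
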