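import Vale.Agent.P032.R2.H333.S3Flank

/-!
# P032: contacts of type S3, the one-sided words at the flanks
-/

open Set Filter Topology Metric

noncomputable section

namespace Vale.Agent.P032.S5.H767

open Vale.Agent.P032.Six Vale.Agent.P032.Words

section geo

/-- distances on the circle in the angle coordinate -/
theorem sq_dist_pt (z : ℂ) (s t : ℝ) :
    dist (pt z s) (pt z t) ^ 2 = 2 - 2 * Real.cos ((s - t) * (Real.pi / 3)) := by
  unfold pt
  rw [dist_add_left, dist_eq_norm, Complex.sq_norm, Complex.normSq_apply]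
  simp only [Complex.sub_re, Complex.sub_im, cis_re, cis_im]
  have h1 : (s - t) * (Real.pi / 3) = s * (Real.pi / 3) - t * (Real.pi / 3) := by ring
  rw [h1, Real.cos_sub]
  have h2 := Real.cos_sq_add_sin_sq (s * (Real.pi / 3))
  have h3 := Real.cos_sq_add_sin_sq (t * (Real.pi / 3))
  nlinarith

theorem dist_gt_one {z : ℂ} {s t : ℝ} (h1 : 1 < |s - t|) (h2 : |s - t| ≤ 3) :
    1 < dist (pt z s) (pt z t) := by
  have hpi := Real.pi_pos
  have h3 := sq_dist_pt z s t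
  have h4 : Real.cos ((s - t) * (Real.pi / 3)) = Real.cos (|s - t| * (Real.pi / 3)) := by
    rcases abs_cases (s - t) with ⟨h5, -⟩ | ⟨h5, -⟩
    · rw [h5]
    · rw [h5, ← Real.cos_neg]; congr 1; ring
  have h5 : Real.cos (|s - t| * (Real.pi / 3)) < Real.cos (Real.pi / 3) := by
    refine Real.cos_lt_cos_of_nonneg_of_le_pi (by positivity) ?_ ?_
    · nlinarith
    · nlinarith
  rw [Real.cos_pi_div_three] at h5
  have h6 := dist_nonneg (x := pt z s) (y := pt z t)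
  rw [h4] at h3
  nlinarith

theorem dist_lt_one {z : ℂ} {s t : ℝ} (h1 : |s - t| < 1) : dist (pt z s) (pt z t) < 1 := by
  have hpi := Real.pi_pos
  have h3 := sq_dist_pt z s t
  have h4 : Real.cos ((s - t) * (Real.pi / 3)) = Real.cos (|s - t| * (Real.pi / 3)) := by
    rcases abs_cases (s - t) with ⟨h5, -⟩ | ⟨h5, -⟩
    · rw [h5]
    · rw [h5, ← Real.cos_neg]; congr 1; ring
  have h5 : Real.cos (Real.pi / 3) < Real.cos (|s - t| * (Real.pi / 3)) := by
    refine Real.cos_lt_cos_of_nonneg_of_le_pi (by positivity) ?_ ?_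
    · nlinarith
    · nlinarith
  rw [Real.cos_pi_div_three] at h5
  have h6 := dist_nonneg (x := pt z s) (y := pt z t)
  rw [h4] at h3
  nlinarith

end geo

section free

variable {k : ℕ} {U : Fin k → Set ℂ} {T : ℂ → Set (Fin k)} {z : ℂ} {u₀ : ℝ} {t : Fin k}

/-- a colour on a neighbourhood in the circle is absent at the neighbours -/
theorem free_at (h : Irr U T) {u s : ℝ} (hJ : ∀ᶠ v in 𝓝 u, t ∈ T (pt z v))
    (hs : dist (pt z u) (pt z s) = 1) : t ∉ Pal U (pt z s) := by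
  obtain ⟨k1, k2⟩ := tri (dist_pt z u) (dist_pt z s)
  exact line_free h (dist_pt z u) (ev_sphere (p := fun q => t ∈ T q) hJ) hs (fun h => k1 h.symm)
    (fun h => k2 (by rw [← h]; ring))

/-- one-sided: a colour to the right of `u₀` is absent to the right of the neighbours -/
theorem free_right (h : Irr U T) (hJ : ∀ᶠ u in 𝓝[>] u₀, t ∈ T (pt z u)) :
    ∀ᶠ u in 𝓝[>] u₀, t ∉ Pal U (pt z (u + 1)) ∧ t ∉ Pal U (pt z (u - 1)) := by
  filter_upwards [eventually_eventually_nhdsWithin.2 hJ, self_mem_nhdsWithin] with u h1 h2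
  rw [isOpen_Ioi.nhdsWithin_eq h2] at h1
  refine ⟨free_at h h1 (dist_pt_one z u), free_at h h1 ?_⟩
  have := dist_pt_one z (u - 1)
  rw [sub_add_cancel] at this
  rw [dist_comm]; exact this

/-- one-sided: a colour to the left of `u₀` is absent to the left of the neighbours -/
theorem free_left (h : Irr U T) (hJ : ∀ᶠ u in 𝓝[<] u₀, t ∈ T (pt z u)) :
    ∀ᶠ u in 𝓝[<] u₀, t ∉ Pal U (pt z (u + 1)) ∧ t ∉ Pal U (pt z (u - 1)) := by
  filter_upwards [eventually_eventually_nhdsWithin.2 hJ, self_mem_nhdsWithin] with u h1 h2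
  rw [isOpen_Iio.nhdsWithin_eq h2] at h1
  refine ⟨free_at h h1 (dist_pt_one z u), free_at h h1 ?_⟩
  have := dist_pt_one z (u - 1)
  rw [sub_add_cancel] at this
  rw [dist_comm]; exact this

/-- the flank `u₀ + 1`: to the right the colour absent outside, to the left the colour absent
inside -/
theorem sd_plus {i j : Fin k} (hs : Sd U (pt z u₀) (pt z (u₀ + 1)) i j) :
    (∀ᶠ u in 𝓝[>] u₀, i ∉ Pal U (pt z (u + 1))) ∧ ∀ᶠ u in 𝓝[<] u₀, j ∉ Pal U (pt z (u + 1)) := by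
  have hc : Tendsto (fun u : ℝ => pt z (u + 1)) (𝓝 u₀) (𝓝 (pt z (u₀ + 1))) :=
    ((continuous_pt z).comp (continuous_id.add continuous_const)).tendsto u₀
  have h1 := hc.eventually hs
  constructor
  · filter_upwards [h1.filter_mono nhdsWithin_le_nhds, self_mem_nhdsWithin,
      Ioo_mem_nhdsGT (show u₀ < u₀ + 1 by linarith)] with u h2 h3 h4
    refine h2.1 (dist_gt_one ?_ ?_)
    · rw [abs_of_pos (by linarith [h4.1])]; linarith [h4.1]
    · rw [abs_of_pos (by linarith [h4.1])]; linarith [h4.2]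
  · filter_upwards [h1.filter_mono nhdsWithin_le_nhds, self_mem_nhdsWithin,
      Ioo_mem_nhdsLT (show u₀ - 1 < u₀ by linarith)] with u h2 h3 h4
    refine h2.2 (dist_lt_one ?_)
    rw [abs_lt]; constructor <;> linarith [h4.1, h4.2]

/-- the flank `u₀ - 1`: to the left the colour absent outside, to the right the colour absent
inside -/
theorem sd_minus {i j : Fin k} (hs : Sd U (pt z u₀) (pt z (u₀ - 1)) i j) :
    (∀ᶠ u in 𝓝[<] u₀, i ∉ Pal U (pt z (u - 1))) ∧ ∀ᶠ u in 𝓝[>] u₀, j ∉ Pal U (pt z (u - 1)) := by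
  have hc : Tendsto (fun u : ℝ => pt z (u - 1)) (𝓝 u₀) (𝓝 (pt z (u₀ - 1))) :=
    ((continuous_pt z).comp (continuous_id.sub continuous_const)).tendsto u₀
  have h1 := hc.eventually hs
  constructor
  · filter_upwards [h1.filter_mono nhdsWithin_le_nhds, self_mem_nhdsWithin,
      Ioo_mem_nhdsLT (show u₀ - 1 < u₀ by linarith)] with u h2 h3 h4
    refine h2.1 (dist_gt_one ?_ ?_)
    · rw [abs_of_neg (by linarith [h4.2])]; linarith [h4.2]
    · rw [abs_of_neg (by linarith [h4.2])]; linarith [h4.1]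
  · filter_upwards [h1.filter_mono nhdsWithin_le_nhds, self_mem_nhdsWithin,
      Ioo_mem_nhdsGT (show u₀ < u₀ + 1 by linarith)] with u h2 h3 h4
    refine h2.2 (dist_lt_one ?_)
    rw [abs_lt]; constructor <;> linarith [h4.1, h4.2]

end free

variable {U : Fin 6 → Set ℂ} {T : ℂ → Set (Fin 6)} {z : ℂ} {u₀ : ℝ} {a b c d e f : Fin 6}

namespace S3

/-- near the flank the letter is `e`, `f` or `C` -/
theorem ev_letters (S : S3 U T z (pt z u₀) (pt z (u₀ + 1)) a b c d e f) :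
    ∀ᶠ u in 𝓝 u₀, e ∈ T (pt z (u + 1)) ∨ f ∈ T (pt z (u + 1)) ∨
      pt z (u + 1) ∈ closure (Ex T z {c, d}) := by
  have hc : Tendsto (fun u : ℝ => pt z (u + 1)) (𝓝 u₀) (𝓝 (pt z (u₀ + 1))) :=
    ((continuous_pt z).comp (continuous_id.add continuous_const)).tendsto u₀
  have h1 : ∀ᶠ q in 𝓝 (pt z (u₀ + 1)), q ∉ closure (Ex T z {a, b}) :=
    isClosed_closure.isOpen_compl.mem_nhds S.noA
  filter_upwards [hc.eventually h1] with u hu
  obtain ⟨l, hl⟩ := S.ctr.cover (dist_pt z (u + 1))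
  fin_cases l
  · exact Or.inl hl.2
  · exact Or.inr (Or.inl hl.2)
  · exact absurd hl hu
  · exact Or.inr (Or.inr hl)

/-- near the flank the letter is `e`, `f` or `C` -/
theorem ev_letters' (S : S3 U T z (pt z u₀) (pt z (u₀ - 1)) a b c d e f) :
    ∀ᶠ u in 𝓝 u₀, e ∈ T (pt z (u - 1)) ∨ f ∈ T (pt z (u - 1)) ∨
      pt z (u - 1) ∈ closure (Ex T z {c, d}) := by
  have hc : Tendsto (fun u : ℝ => pt z (u - 1)) (𝓝 u₀) (𝓝 (pt z (u₀ - 1))) :=
    ((continuous_pt z).comp (continuous_id.sub continuous_const)).tendsto u₀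
  have h1 : ∀ᶠ q in 𝓝 (pt z (u₀ - 1)), q ∉ closure (Ex T z {a, b}) :=
    isClosed_closure.isOpen_compl.mem_nhds S.noA
  filter_upwards [hc.eventually h1] with u hu
  obtain ⟨l, hl⟩ := S.ctr.cover (dist_pt z (u - 1))
  fin_cases l
  · exact Or.inl hl.2
  · exact Or.inr (Or.inl hl.2)
  · exact absurd hl hu
  · exact Or.inr (Or.inr hl)

/-- **(4)** the flank `u₀ + 1` of a contact with the word `f | e`: to the right `f` or `C`, to the left
`e` or `C` -/
theorem word_plus (S : S3 U T z (pt z u₀) (pt z (u₀ + 1)) a b c d e f)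
    (hR : ∀ᶠ u in 𝓝[>] u₀, e ∈ T (pt z u)) (hL : ∀ᶠ u in 𝓝[<] u₀, f ∈ T (pt z u)) :
    (∀ᶠ u in 𝓝[>] u₀, e ∉ Pal U (pt z (u + 1)) ∧
      (f ∈ T (pt z (u + 1)) ∨ pt z (u + 1) ∈ closure (Ex T z {c, d}))) ∧
    (∀ᶠ u in 𝓝[<] u₀, f ∉ Pal U (pt z (u + 1)) ∧
      (e ∈ T (pt z (u + 1)) ∨ pt z (u + 1) ∈ closure (Ex T z {c, d}))) := by
  have h0 := S.ev_letters
  constructor
  · filter_upwards [free_right S.irr hR, h0.filter_mono nhdsWithin_le_nhds] with u h1 h2
    refine ⟨h1.1, ?_⟩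
    rcases h2 with h2 | h2 | h2
    · exact absurd (S.irr.sub _ h2) h1.1
    · exact Or.inl h2
    · exact Or.inr h2
  · filter_upwards [free_left S.irr hL, h0.filter_mono nhdsWithin_le_nhds] with u h1 h2
    refine ⟨h1.1, ?_⟩
    rcases h2 with h2 | h2 | h2
    · exact Or.inl h2
    · exact absurd (S.irr.sub _ h2) h1.1
    · exact Or.inr h2

/-- **(4')** the flank `u₀ - 1` -/
theorem word_minus (S : S3 U T z (pt z u₀) (pt z (u₀ - 1)) a b c d e f)
    (hR : ∀ᶠ u in 𝓝[>] u₀, e ∈ T (pt z u)) (hL : ∀ᶠ u in 𝓝[<] u₀, f ∈ T (pt z u)) :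
    (∀ᶠ u in 𝓝[>] u₀, e ∉ Pal U (pt z (u - 1)) ∧
      (f ∈ T (pt z (u - 1)) ∨ pt z (u - 1) ∈ closure (Ex T z {c, d}))) ∧
    (∀ᶠ u in 𝓝[<] u₀, f ∉ Pal U (pt z (u - 1)) ∧
      (e ∈ T (pt z (u - 1)) ∨ pt z (u - 1) ∈ closure (Ex T z {c, d}))) := by
  have h0 := S.ev_letters'
  constructor
  · filter_upwards [free_right S.irr hR, h0.filter_mono nhdsWithin_le_nhds] with u h1 h2
    refine ⟨h1.2, ?_⟩
    rcases h2 with h2 | h2 | h2
    · exact absurd (S.irr.sub _ h2) h1.2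
    · exact Or.inl h2
    · exact Or.inr h2
  · filter_upwards [free_left S.irr hL, h0.filter_mono nhdsWithin_le_nhds] with u h1 h2
    refine ⟨h1.2, ?_⟩
    rcases h2 with h2 | h2 | h2
    · exact Or.inl h2
    · exact absurd (S.irr.sub _ h2) h1.2
    · exact Or.inr h2

/-- **(4'')** the wrong side: `f` absent outside `S(y)` and `e` absent inside at the flank `u₀ + 1`
of the word `f | e`: only `C` on both sides -/
theorem only_plus (S : S3 U T z (pt z u₀) (pt z (u₀ + 1)) a b c d e f)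
    (hs : Sd U (pt z u₀) (pt z (u₀ + 1)) f e)
    (hR : ∀ᶠ u in 𝓝[>] u₀, e ∈ T (pt z u)) (hL : ∀ᶠ u in 𝓝[<] u₀, f ∈ T (pt z u)) :
    ∀ᶠ u in 𝓝[≠] u₀, e ∉ Pal U (pt z (u + 1)) ∧ f ∉ Pal U (pt z (u + 1)) ∧
      pt z (u + 1) ∈ closure (Ex T z {c, d}) := by
  obtain ⟨h1, h2⟩ := S.word_plus hR hL
  obtain ⟨h3, h4⟩ := sd_plus hs
  rw [← Iio_union_Ioi, nhdsWithin_union, eventually_sup]
  constructor
  · filter_upwards [h2, h4] with u h5 h6
    refine ⟨h6, h5.1, ?_⟩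
    rcases h5.2 with h7 | h7
    · exact absurd (S.irr.sub _ h7) h6
    · exact h7
  · filter_upwards [h1, h3] with u h5 h6
    refine ⟨h5.1, h6, ?_⟩
    rcases h5.2 with h7 | h7
    · exact absurd (S.irr.sub _ h7) h6
    · exact h7

/-- **(4'')** the flank `u₀ - 1`, wrong side -/
theorem only_minus (S : S3 U T z (pt z u₀) (pt z (u₀ - 1)) a b c d e f)
    (hs : Sd U (pt z u₀) (pt z (u₀ - 1)) e f)
    (hR : ∀ᶠ u in 𝓝[>] u₀, e ∈ T (pt z u)) (hL : ∀ᶠ u in 𝓝[<] u₀, f ∈ T (pt z u)) :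
    ∀ᶠ u in 𝓝[≠] u₀, e ∉ Pal U (pt z (u - 1)) ∧ f ∉ Pal U (pt z (u - 1)) ∧
      pt z (u - 1) ∈ closure (Ex T z {c, d}) := by
  obtain ⟨h1, h2⟩ := S.word_minus hR hL
  obtain ⟨h3, h4⟩ := sd_minus hs
  rw [← Iio_union_Ioi, nhdsWithin_union, eventually_sup]
  constructor
  · filter_upwards [h2, h3] with u h5 h6
    refine ⟨h6, h5.1, ?_⟩
    rcases h5.2 with h7 | h7
    · exact absurd (S.irr.sub _ h7) h6
    · exact h7
  · filter_upwards [h1, h4] with u h5 h6
    refine ⟨h5.1, h6, ?_⟩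
    rcases h5.2 with h7 | h7
    · exact absurd (S.irr.sub _ h7) h6
    · exact h7

end S3

end Vale.Agent.P032.S5.H767
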