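import Vale.Agent.P032.R2.H609.W2
import Vale.Agent.P032.R2.H479.Loc
import Vale.Agent.P032.R2.H659.Contact

/-!
# P032: the world `WT` from stopped arcs of pairs with three common colours

`EW U T`: exact arcs of two-pair points do not end at points with more than three colours which have
at least three colours in common with the centre (`stop`); two harmless points at distance one have at
most two common colours (`hh`).
`EW.wt`: then two points with at least four colours at distance one have at most two common colours.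
-/

open Set Filter Topology Metric

noncomputable section

namespace Vale.Agent.P032.Six

open S5.H767 (line_free)

/-- no stopped arcs at points with three common colours, no harmless pairs with three common
colours -/
structure EW (U : Fin 6 → Set ℂ) (T : ℂ → Set (Fin 6)) : Prop where
  irr : Irr U T
  min : Mn U T
  loc : Loc4 T
  stop : ∀ {z : ℂ} {a b c d : Fin 6}, DPt T z a b c d → ∀ {y : ℂ}, dist y z = 1 →
    4 ≤ (T y).ncard → 3 ≤ (T y ∩ T z).ncard → ¬ Acc T z {a, b} y
  hh : ∀ {x y : ℂ} {A B : Set (Fin 6)}, Harm T x A → Harm T y B → dist y x = 1 →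
    (T y ∩ T x).ncard ≤ 2

variable {U : Fin 6 → Set ℂ} {T : ℂ → Set (Fin 6)}

namespace EW

theorem minF (H : EW U T) : MinF U T := fun z hz s hs hne => H.min z hz s hs hne

/-- the circle of a four-coloured point -/
theorem le4 (H : EW U T) {x y : ℂ} (hx : (T x).ncard = 4) (hd : dist y x = 1) :
    (T y).ncard ≤ 4 := H.loc x y hd hx.ge

/-- a four-coloured point is harmless or a two-pair point -/
theorem cases (H : EW U T) {x : ℂ} (hx : (T x).ncard = 4) :
    (∃ A, Harm T x A) ∨ ∃ a b c d, DPt T x a b c d := by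
  by_cases hD : ∃ a b c d, DPt T x a b c d
  · exact Or.inr hD
  · left
    exact H.irr.harm_of_noD H.min hx
      (H.irr.exists_inside hx fun y hy => H.le4 hx hy) fun a b c d h => hD ⟨a, b, c, d, h⟩

/-- exact arcs as `Frequently` -/
theorem not_freq (H : EW U T) {z : ℂ} {a b c d : Fin 6} (hz : DPt T z a b c d) {v : ℂ}
    (hvz : dist v z = 1) (hv : 4 ≤ (T v).ncard) (h3 : 3 ≤ (T v ∩ T z).ncard) :
    ¬ ∃ᶠ q in 𝓝 v, Arc T z q {a, b} := by
  intro hf
  refine H.stop hz hvz hv h3 fun V hV => ?_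
  obtain ⟨q, hq, hqV⟩ := (hf.and_eventually hV).exists
  exact ⟨q, hqV, hq.1, hq.2⟩

/-- near a four-coloured point of the circle of a two-pair point the palettes inside have at
least three colours -/
theorem near_three (H : EW U T) {x v : ℂ} {a b c d : Fin 6} (hx : DPt T x a b c d)
    (hvx : dist v x = 1) (hv : 4 ≤ (T v).ncard) (h3 : 3 ≤ (T v ∩ T x).ncard) :
    ∀ᶠ q in 𝓝 v, dist q x = 1 → T q ⊆ T x → 3 ≤ (T q).ncard := by
  have h := H.irr
  filter_upwards [not_frequently.1 (H.not_freq hx hvx hv h3),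
    not_frequently.1 (H.not_freq hx.swap hvx hv h3)] with q h1 h2 hqx hsub
  by_contra hcon
  obtain ⟨i0, hi0⟩ := h.ne q
  by_cases h3 : (T q).ncard = 2
  · have h4 := h.pair_open h3 hsub Subset.rfl
    rcases h.twoPairs hx q hqx h4 hsub with h5 | h5
    · exact h1 ⟨hqx, by rw [h5] at h4; exact h4⟩
    · exact h2 ⟨hqx, by rw [h5] at h4; exact h4⟩
  · have h4 : (T q).ncard ≤ 1 := by omega
    have h5 : T q ⊆ {i0} := fun m hm =>
      (Set.ncard_le_one (Set.toFinite _)).1 h4 m hm i0 hi0
    exact h.mx.notMem' (h.mem_of_single h5) hqx (h.sub x (hsub hi0))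

/-- no arc of points with the palette of a four-coloured point -/
theorem no_arc4 (H : EW U T) {x w : ℂ} (hw : (T w).ncard = 4) (hd : dist w x = 1)
    (hall : ∀ᶠ q in 𝓝[sphere x 1] w, T w ⊆ T q) : False := by
  have h := H.irr
  obtain ⟨g0, P, hP, hPne, hg0⟩ : ∃ g0 P, P ⊆ T w ∧ P.Nonempty ∧ Arc T w g0 P := by
    rcases H.cases hw with ⟨A, hA⟩ | ⟨a, b, c, d, hD⟩
    · obtain ⟨p, hp, hJ⟩ := hA.arc
      refine ⟨p, A, hA.sub, ?_, hp, hJ⟩
      rw [← Set.ncard_pos (Set.toFinite _), hA.cardA]; norm_num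
    · obtain ⟨p, hp⟩ := hD.arc1
      refine ⟨p, {a, b}, ?_, ⟨a, by simp⟩, hp⟩
      rw [hD.pal]
      rintro i (h1 | h1)
      · left; exact h1
      · right; left; exact h1
  obtain ⟨g, hg, hg1, hg2⟩ := hg0.exists_off_line (y := x)
  obtain ⟨i, hi⟩ := hPne
  have hgT : i ∈ T g := by
    have : T g = P := hg.mem
    rw [this]; exact hi
  exact line_free h hd (hall.mono fun q hq => hq (hP hi)) (by rw [dist_comm]; exact hg.1) hg1 hg2
    (h.sub _ hgT)

/-- **four-coloured points of the circle of a two-pair point have different palettes** -/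
theorem not_same (H : EW U T) {x w : ℂ} {a b c d : Fin 6} (hx : DPt T x a b c d)
    (hw : (T w).ncard = 4) (hd : dist w x = 1) (hs : T w ⊆ T x) : False := by
  have h := H.irr
  have heq : T w = T x := Set.eq_of_subset_of_ncard_le hs (by rw [hw, hx.card]) (Set.toFinite _)
  have hwx : w + w ≠ 2 * x := by
    intro h1
    have h2 : w = x := by linear_combination h1 / 2
    rw [h2, dist_self] at hd
    exact zero_ne_one hd
  have hne : ∀ᶠ q in 𝓝 w, w + q ≠ 2 * x := by
    have hc : Continuous fun q : ℂ => w + q := by fun_prop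
    exact hc.continuousAt.eventually_ne hwx
  refine H.no_arc4 hw hd ?_
  filter_upwards [mem_nhdsWithin_of_mem_nhds (h.nhd w), self_mem_nhdsWithin,
    mem_nhdsWithin_of_mem_nhds (H.near_three hx hd hw.ge (by rw [inter_eq_left.2 hs]; omega)),
    mem_nhdsWithin_of_mem_nhds hne]
    with q h1 h2 h3 h4
  have h2 : dist q x = 1 := h2
  by_contra hcon
  obtain ⟨t, ht, htq⟩ := Set.not_subset.1 hcon
  have h5 := h3 h2 (h1.trans hs)
  have h6 : insert t (T q) ⊆ T w := by
    rintro i (rfl | hi)
    · exact ht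
    · exact h1 hi
  have h7 : (insert t (T q)).ncard = (T q).ncard + 1 :=
    Set.ncard_insert_of_notMem htq (Set.toFinite _)
  have h8 := Set.ncard_le_ncard h6 (Set.toFinite _)
  have h9 : insert t (T q) = T w :=
    Set.eq_of_subset_of_ncard_le h6 (by omega) (Set.toFinite _)
  exact h.third_notMem (z := x) (v := q) (q := w) (d := t) h2 (by omega)
    (by rw [← heq, ← h9]) hd (h.sub w ht) (fun h10 => hcon (by rw [← h10])) h4

/-- **two colours of different pairs at a four-coloured contact** -/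
theorem side (H : EW U T) {z y : ℂ} {a b c d : Fin 6} (hz : DPt T z a b c d)
    (hyz : dist y z = 1) (hy : (T y).ncard = 4) (h3 : 3 ≤ (T y ∩ T z).ncard) (ha : a ∈ T y)
    (hc : c ∈ T y) : (Sd U z y a b ∧ Sd U z y c d) ∨ (Sd U z y b a ∧ Sd U z y d c) ∨
      (Harm T y {a, c} ∧ ((Sd U z y a b ∧ Sd U z y d c) ∨ (Sd U z y b a ∧ Sd U z y c d))) := by
  have h := H.irr
  have hzy : dist z y = 1 := by rw [dist_comm]; exact hyz
  have key : (∃ᶠ q in 𝓝 z, Arc T y q {a, c}) → Harm T y {a, c} := by
    intro hf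
    obtain ⟨q, hq⟩ := hf.exists
    have hqT : T q = {a, c} := hq.mem
    have hsub : T q ⊆ T y := by
      rw [hqT]
      rintro i (h2 | h2)
      · rw [h2]; exact ha
      · rw [mem_singleton_iff] at h2; rw [h2]; exact hc
    rcases H.cases hy with ⟨A, hA⟩ | ⟨p, r, s, t, hD⟩
    · have h1 := hA.h1 q hq.1 hsub
      rw [hqT] at h1
      have h2 : A = {a, c} :=
        Set.eq_of_subset_of_ncard_le h1 (by rw [hA.cardA, Set.ncard_pair hz.ac]) (Set.toFinite _)
      rw [← h2]; exact hA
    · exfalso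
      rcases h.twoPairs hD q hq.1 (by rw [hqT]; exact hq.2) hsub with h1 | h1
      · rw [hqT] at h1
        rw [h1] at hf
        exact H.not_freq hD hzy hz.card.ge (by rw [inter_comm]; exact h3) hf
      · rw [hqT] at h1
        rw [h1] at hf
        exact H.not_freq hD.swap hzy hz.card.ge (by rw [inter_comm]; exact h3) hf
  rcases h.sides hz hyz with h1 | h1 <;> rcases h.sides hz.swap hyz with h2 | h2
  · exact Or.inl ⟨h1, h2⟩
  · refine Or.inr (Or.inr ⟨key ?_, Or.inl ⟨h1, h2⟩⟩)
    have := h.locked_acc hz.swap.swap12 hyz h1 h2 (h.sub _ ha) (h.sub _ hc)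
    rw [pair_comm] at this
    exact this
  · exact Or.inr (Or.inr ⟨key (h.locked_acc hz.swap12 hyz h2 h1 (h.sub _ hc) (h.sub _ ha)),
      Or.inr ⟨h1, h2⟩⟩)
  · exact Or.inr (Or.inl ⟨h1, h2⟩)

/-- the two sides of a colour pair are not both free of a colour of the point -/
theorem sd_absurd (h : Irr U T) {z y : ℂ} {i j k : Fin 6} (hi : i ∈ T y)
    (h1 : Sd U z y i j) (h2 : Sd U z y k i) : False := by
  obtain ⟨g, ⟨hgU, hg1, hg2⟩, hgz⟩ := exists_off (h.mx.isOpen i) (z := z) (h.sub _ hi)
    (inter_mem h1 h2)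
  rcases lt_or_gt_of_ne hgz with h3 | h3
  · exact hg2.2 h3 (subset_closure hgU)
  · exact hg1.1 h3 (subset_closure hgU)

/-- a harmless contact with both colours of a pair of the centre: the pair is inside or outside -/
theorem harm_pair (H : EW U T) {z y : ℂ} {a b c d : Fin 6} (hz : DPt T z a b c d)
    (hyz : dist y z = 1) (h3 : 3 ≤ (T y ∩ T z).ncard) {B : Set (Fin 6)} (hB : Harm T y B)
    (ha : a ∈ B) (hb : b ∈ T y) : b ∈ B := by
  have h := H.irr
  by_contra hbB
  have hy4 : (T y).ncard = 4 := hB.card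
  have hmy : ∀ s, s ⊆ T y → s ≠ T y → ¬ ∀ᶠ w in 𝓝 y, Suf U s w := H.minF y (by rw [hy4])
  exact H.stop hz hyz hy4.ge h3 (h.acc_of_freq hz hyz (hB.contact h hmy ha hb hbB))

/-- **a contact of a two-pair point has no three colours of it** -/
theorem not_three (H : EW U T) {z y : ℂ} {a b c d : Fin 6} (hz : DPt T z a b c d)
    (hyz : dist y z = 1) (hy : (T y).ncard = 4) (h3 : 3 ≤ (T y ∩ T z).ncard) (ha : a ∈ T y)
    (hb : b ∈ T y) (hc : c ∈ T y) : False := by
  have h := H.irr
  have k1 : ∀ {P : Set (Fin 6)}, Harm T y P → P = {a, c} → False := by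
    rintro P hP rfl
    rcases H.harm_pair hz hyz h3 hP (by simp) hb with h1 | h1
    · exact hz.ab h1.symm
    · exact hz.bc h1
  have k2 : ∀ {P : Set (Fin 6)}, Harm T y P → P = {b, c} → False := by
    rintro P hP rfl
    rcases H.harm_pair hz.swap12 hyz h3 hP (by simp) ha with h1 | h1
    · exact hz.ab h1
    · exact hz.ac h1
  rcases H.side hz hyz hy h3 ha hc with ⟨h1, h2⟩ | ⟨h1, h2⟩ | ⟨h1, -⟩
  · rcases H.side hz.swap12 hyz hy h3 hb hc with ⟨k3, k4⟩ | ⟨k3, k4⟩ | ⟨k3, -⟩
    · exact sd_absurd h ha h1 k3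
    · exact sd_absurd h hc h2 k4
    · exact k2 k3 rfl
  · rcases H.side hz.swap12 hyz hy h3 hb hc with ⟨k3, k4⟩ | ⟨k3, k4⟩ | ⟨k3, -⟩
    · exact sd_absurd h hc k4 h2
    · exact sd_absurd h hb h1 k3
    · exact k2 k3 rfl
  · exact k1 h1 rfl

/-- **a contact and a two-pair point have at most two common colours** -/
theorem two (H : EW U T) {z y : ℂ} {a b c d : Fin 6} (hz : DPt T z a b c d)
    (hyz : dist y z = 1) (hy : (T y).ncard = 4) : (T y ∩ T z).ncard ≤ 2 := by
  by_contra hcon
  have h3 : 3 ≤ (T y ∩ T z).ncard := by omega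
  have h1 : (T z \ T y).ncard ≤ 1 := by
    have h2 := Set.ncard_inter_add_ncard_sdiff_eq_ncard (T z) (T y) (Set.toFinite _)
    rw [hz.card, inter_comm] at h2
    omega
  have hu : ∀ i j, i ∈ T z → j ∈ T z → i ∉ T y → j ∉ T y → i = j := fun i j hi hj hi' hj' =>
    (Set.ncard_le_one (Set.toFinite _)).1 h1 i ⟨hi, hi'⟩ j ⟨hj, hj'⟩
  have za : a ∈ T z := by rw [hz.pal]; simp
  have zb : b ∈ T z := by rw [hz.pal]; simp
  have zc : c ∈ T z := by rw [hz.pal]; simp
  have zd : d ∈ T z := by rw [hz.pal]; simp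
  by_cases ha : a ∈ T y
  · by_cases hb : b ∈ T y
    · by_cases hc : c ∈ T y
      · exact H.not_three hz hyz hy h3 ha hb hc
      · have hd : d ∈ T y := by
          by_contra hd; exact hz.cd (hu c d zc zd hc hd)
        exact H.not_three hz.swap34 hyz hy h3 ha hb hd
    · have hc : c ∈ T y := by
        by_contra hc; exact hz.bc (hu b c zb zc hb hc)
      have hd : d ∈ T y := by
        by_contra hd; exact hz.bd (hu b d zb zd hb hd)
      exact H.not_three hz.swap hyz hy h3 hc hd ha
  · have hb : b ∈ T y := by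
      by_contra hb; exact hz.ab (hu a b za zb ha hb)
    have hc : c ∈ T y := by
      by_contra hc; exact hz.ac (hu a c za zc ha hc)
    have hd : d ∈ T y := by
      by_contra hd; exact hz.ad (hu a d za zd ha hd)
    exact H.not_three hz.swap.swap34 hyz hy h3 hc hd hb

/-- **the world `WT`** -/
theorem wt (H : EW U T) : WT U T := by
  refine ⟨H.irr, fun {x y} hd hy hx => ?_⟩
  have hd' : dist x y = 1 := by rw [dist_comm]; exact hd
  have hy4 : (T y).ncard = 4 := by have := H.loc x y hd hx; omega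
  have hx4 : (T x).ncard = 4 := by have := H.loc y x hd' hy; omega
  rcases H.cases hx4 with ⟨A, hA⟩ | ⟨a, b, c, d, hD⟩
  · rcases H.cases hy4 with ⟨B, hB⟩ | ⟨a, b, c, d, hD⟩
    · exact H.hh hA hB hd
    · rw [inter_comm]
      exact H.two hD hd' hx4
  · exact H.two hD hd hy4

end EW

end Vale.Agent.P032.Six
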